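import Crest.Statements.S0006
import Crest.Agent.R6.Main

set_option autoImplicit false
open Crest Crest.NumberTheoryR

namespace Crest.Agent.S0006

/-- Catalan's constant, the sum of the series whose j-th term (j = 0, 1, 2, …) is (-1)^j/(2j+1)^2, is an irrational real number. -/
theorem result :
    Irrational (∑' j : ℕ, (-1 : ℝ) ^ j / ((2 * j + 1 : ℝ) ^ 2)) := by
  exact Crest.Agent.R6.irrational_Gc

end Crest.Agent.S0006
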