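import Crest.Statements.S0047
import Crest.Agent.R35.Top
import Crest.Agent.R35.Policy

set_option autoImplicit false
open Crest Crest.CombinatoricsR

namespace Crest.Agent.S0047

/-- In the Maker–Breaker game on the board ℤ × ℤ (Maker first; the players alternately claim one unclaimed cell), Maker has a policy — a rule giving its next cell from Breaker's replies so far — such that against every sequence of Breaker replies whose first 20 are legal (each a cell not claimed before), Maker's first 21 claims are legal and contain a copy of the six-cell polyomino Snaky {(0,0),(1,0),(2,0),(3,0),(3,1),(4,1)} under a translation composed with a signed coordinate permutation. -/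
theorem result :
    ∃ σ : List (ℤ × ℤ) → ℤ × ℤ, ∀ b : ℕ → ℤ × ℤ,
      (∀ k : ℕ, k < 20 →
        (∀ j : ℕ, j ≤ k → b k ≠ Crest.CombinatoricsR.PolyominoGame.makerClaim σ b j) ∧
        (∀ j : ℕ, j < k → b k ≠ b j)) →
      (∀ k : ℕ, k ≤ 20 →
        (∀ j : ℕ, j < k → Crest.CombinatoricsR.PolyominoGame.makerClaim σ b k ≠
          Crest.CombinatoricsR.PolyominoGame.makerClaim σ b j) ∧
        (∀ j : ℕ, j < k → Crest.CombinatoricsR.PolyominoGame.makerClaim σ b k ≠ b j)) ∧
      Crest.CombinatoricsR.PolyominoGame.ContainsCopy
        {c | ∃ j : ℕ, j ≤ 20 ∧ c = Crest.CombinatoricsR.PolyominoGame.makerClaim σ b j} := by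
  exact Crest.Agent.R35.main Crest.Agent.R35.W_start

end Crest.Agent.S0047
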