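import Crest.Statements.S0054
import Crest.Agent.R40.Step1
import Crest.Agent.R40.Step2

set_option autoImplicit false
open Crest Crest.CombinatoricsR

namespace Crest.Agent.S0054

/-- For every colouring of the Euclidean plane with five colours there are two points at distance one that receive the same colour. No measurability or other restriction is placed on the colour classes. -/
theorem result
    (c : EuclideanSpace ℝ (Fin 2) → Fin 5) :
    ∃ x y : EuclideanSpace ℝ (Fin 2), dist x y = 1 ∧ c x = c y := by
  by_contra h
  push Not at h
  let φ : ℂ ≃ₗᵢ[ℝ] EuclideanSpace ℝ (Fin 2) := Complex.orthonormalBasisOneI.repr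
  obtain ⟨A, hA⟩ := Crest.Agent.R40.step1 (fun z => c (φ z)) (fun x y hxy => by
    apply h
    rw [dist_eq_norm, ← map_sub, LinearIsometryEquiv.norm_map]
    exact hxy)
  exact Crest.Agent.R40.step2 A hA

end Crest.Agent.S0054
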