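import Crest.Statements.S0065
import Crest.Agent.R46.Real

set_option autoImplicit false
open Crest.CombinatoricsR.Tiling
open Crest Crest.CombinatoricsR

namespace Crest.Agent.S0065

/-- There is a finite nonempty T ⊆ ℤ³ such that T tiles ℤ³ by translations (some set A of translations writes every lattice point uniquely as a + t with a ∈ A, t ∈ T) while no such A is invariant under a finite-index subgroup of ℤ³, and the union of the closed unit cubes z + [0,1]³, z ∈ T, tiles ℝ³ up to null sets by some set of real translation vectors (almost every point lies in exactly one translate) while no such set is invariant under a full-rank lattice, the integer span of a basis of ℝ³. -/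
theorem result :
    ∃ T : Finset (Fin 3 → ℤ), T.Nonempty ∧
      (∃ A : Set (Fin 3 → ℤ), IsTilingBy T A) ∧
      (∀ A : Set (Fin 3 → ℤ), IsTilingBy T A → ¬ IsFullyPeriodic A) ∧
      (∃ B : Set (Fin 3 → ℝ), IsAETilingBy (cubeThickening T) B) ∧
      ∀ B : Set (Fin 3 → ℝ), IsAETilingBy (cubeThickening T) B → ¬ IsLatticePeriodic B := by
  exact Crest.Agent.R46.final

end Crest.Agent.S0065
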