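import Crest.Statements.S0066
import Crest.Agent.R47.Final

set_option autoImplicit false
open Crest Crest.CombinatoricsR

namespace Crest.Agent.S0066

/-- There is a fixed 66 × 66 binary pattern H such that for every h ≥ 1, with n = (386h + 2) · 2^h and ε = (386h + 2)⁻², some n × n binary matrix A is ε-far from free of ordered copies of H (every n × n binary matrix without an ordered copy of H differs from A in at least ε · n² cells) while the number of ordered copies of H in A is at most ε · 2^(-h) · n^132. An ordered copy picks 66 rows and 66 columns in increasing order on which A coincides with H, zeros included. -/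
theorem result :
    ∃ H : Fin 66 → Fin 66 → Bool, ∀ h : ℕ, 1 ≤ h →
      ∃ A : Fin ((386 * h + 2) * 2 ^ h) → Fin ((386 * h + 2) * 2 ^ h) → Bool,
        (∀ B : Fin ((386 * h + 2) * 2 ^ h) → Fin ((386 * h + 2) * 2 ^ h) → Bool,
          Crest.CombinatoricsR.OrderedMatrix.orderedCopyCount H B = 0 →
            ((386 * (h : ℝ) + 2) ^ 2)⁻¹ * (((386 * h + 2) * 2 ^ h : ℕ) : ℝ) ^ 2 ≤
              ((Finset.univ.filter (fun rc : Fin ((386 * h + 2) * 2 ^ h) × Fin ((386 * h + 2) * 2 ^ h) =>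
                A rc.1 rc.2 ≠ B rc.1 rc.2)).card : ℝ)) ∧
        (Crest.CombinatoricsR.OrderedMatrix.orderedCopyCount H A : ℝ) /
            (((386 * h + 2) * 2 ^ h : ℕ) : ℝ) ^ 132 ≤
          ((386 * (h : ℝ) + 2) ^ 2)⁻¹ * (2 : ℝ)⁻¹ ^ h := by
  refine ⟨R47.HH, fun h hh => ?_⟩
  obtain ⟨φ, hφ⟩ := R47.exists_sorted h
  have hm : (0 : ℝ) < 386 * (h : ℝ) + 2 := by positivity
  have hn : (((386 * h + 2) * 2 ^ h : ℕ) : ℝ) = (386 * (h : ℝ) + 2) * (2 : ℝ) ^ h := by
    rw [Nat.cast_mul, Nat.cast_add, Nat.cast_mul, Nat.cast_pow]; rfl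
  refine ⟨R47.AA φ, fun B hB => ?_, ?_⟩
  · have h1 := R47.far hh φ hφ B hB
    rw [hn, R47.arith1 _ _ hm]
    have h2 := (Nat.cast_le (α := ℝ)).2 h1
    rw [Nat.cast_mul, Nat.cast_pow] at h2
    exact h2
  · have h1 := R47.few φ hφ
    have h2 := (Nat.cast_le (α := ℝ)).2 h1
    rw [inv_pow]
    refine R47.arith2 _ _ _ _ hm (by positivity) hn ?_
    have h3 : ∀ n : ℕ, ((2 ^ h * (n ^ 65 * n ^ 65) : ℕ) : ℝ) =
        (2 : ℝ) ^ h * ((n : ℝ) ^ 65 * (n : ℝ) ^ 65) := fun n => by push_cast; rfl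
    rw [h3] at h2
    exact h2

end Crest.Agent.S0066
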