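import Crest.Statements.S0073
import Crest.Agent.R52.Final

set_option autoImplicit false
open Crest Crest.CombinatoricsR

namespace Crest.Agent.S0073

/-- There are k ≥ 2 and L ≥ 1 such that for all n ≥ 2 and every simple graph H with an edge, on at most n vertices, the edges of H can be labelled by k labels so that each label class H_i (same vertex set) has p_c(H_i; n) ≤ L · q(H; n), unfolded: for some p ∈ [0, 1] at which the family of edge sets of K_n containing a copy of H has a cover of cost Σ p^(card S) ≤ 1/2, the binomial random graph on n vertices at edge probability min(1, L·p) contains a copy of H_i with probability ≥ 1/2. -/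
theorem result :
    ∃ k : ℕ, 2 ≤ k ∧ ∃ L : ℝ, 1 ≤ L ∧ ∀ n : ℕ, 2 ≤ n →
      ∀ (W : Type) [Fintype W] [DecidableEq W] (H : SimpleGraph W),
        Fintype.card W ≤ n → H ≠ ⊥ →
        ∃ c : H.edgeSet → Fin k, ∀ i : Fin k, ∃ p : ℝ, 0 ≤ p ∧ p ≤ 1 ∧
          (∃ C : Finset (Finset (Crest.CombinatoricsR.RandomGraph.EdgeSlot n)),
            (∀ A : Finset (Crest.CombinatoricsR.RandomGraph.EdgeSlot n),
              H.IsContained (Crest.CombinatoricsR.RandomGraph.edgeGraph A) → ∃ S ∈ C, S ⊆ A) ∧
            ∑ S ∈ C, p ^ S.card ≤ 1 / 2) ∧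
          1 / 2 ≤ Crest.CombinatoricsR.RandomGraph.gnpProb n (min 1 (L * p))
            {G | (Crest.CombinatoricsR.RandomGraph.pieceGraph H c i).IsContained G} := by
  refine ⟨10 ^ 9, by norm_num, 2 ^ 401, one_le_pow₀ (by norm_num), ?_⟩
  intro n _ W _ _ H hW hH
  exact Crest.Agent.R52.main n H hW hH

end Crest.Agent.S0073
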