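import Crest.Statements.S0074
import Crest.Agent.R53.Main

set_option autoImplicit false
open Crest Crest.CombinatoricsR

namespace Crest.Agent.S0074

/-- There are two matroids M₀, M₁ on the whole of ℕ (a countably infinite ground set), each equal to its own dual on the same labelled ground set, such that no independent set of M₀ together with an independent set of M₁ covers ℕ, and the pair has no packing/covering partition: no splitting ℕ = P ⊔ C allows disjoint S₀, S₁ ⊆ P with Sᵢ spanning the restriction of Mᵢ to P, and sets I₀, I₁ with union C, Iᵢ independent in the contraction of Mᵢ onto C (the complement of C contracted). -/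
theorem result :
    ∃ M₀ M₁ : Matroid ℕ, M₀.E = Set.univ ∧ M₁.E = Set.univ ∧ M₀.dual = M₀ ∧ M₁.dual = M₁ ∧
      (∀ I₀ I₁ : Set ℕ, M₀.Indep I₀ → M₁.Indep I₁ → I₀ ∪ I₁ ≠ Set.univ) ∧
      ¬ ∃ P C S₀ S₁ I₀ I₁ : Set ℕ, P ∪ C = Set.univ ∧ Disjoint P C ∧
          S₀ ⊆ P ∧ S₁ ⊆ P ∧ Disjoint S₀ S₁ ∧
          (M₀.restrict P).closure S₀ = P ∧ (M₁.restrict P).closure S₁ = P ∧
          I₀ ⊆ C ∧ I₁ ⊆ C ∧ (M₀.contract Cᶜ).Indep I₀ ∧ (M₁.contract Cᶜ).Indep I₁ ∧
          I₀ ∪ I₁ = C := by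
  obtain ⟨M₀, M₁, E0, E1, D0, D1, 𝒱, hV, hP⟩ := R53.exists_pair
  have hC : ∀ C I₀ I₁ : Set ℕ, (M₀.contract Cᶜ).Indep I₀ → (M₁.contract Cᶜ).Indep I₁ →
      I₀ ∪ I₁ = C → ¬ 𝒱 C := by
    intro C I₀ I₁ h0 h1 hU
    refine hP C (C \ I₀) (C \ I₁) Set.sdiff_subset Set.sdiff_subset ?_
      (R53.subset_closure_of_contract E0 D0 h0) (R53.subset_closure_of_contract E1 D1 h1)
    rw [Set.disjoint_left]
    rintro x ⟨hx, hx0⟩ ⟨-, hx1⟩
    rw [← hU] at hx
    exact hx.elim hx0 hx1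
  refine ⟨M₀, M₁, E0, E1, D0, D1, fun I₀ I₁ h0 h1 hU => ?_, ?_⟩
  · refine hC Set.univ I₀ I₁ (by simpa using h0) (by simpa using h1) hU ?_
    exact (hV Set.univ Set.univ (Set.union_self _)).elim id id
  · rintro ⟨P, C, S₀, S₁, I₀, I₁, h1, -, h3, h4, h5, h6, h7, -, -, h10, h11, h12⟩
    rcases hV P C h1 with h | h
    · exact hP P S₀ S₁ h3 h4 h5 (R53.subset_closure_of_restrict E0 h6)
        (R53.subset_closure_of_restrict E1 h7) h
    · exact hC C I₀ I₁ h10 h11 h12 h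

end Crest.Agent.S0074
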