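import Crest.Statements.S0076
import Crest.Agent.R55.Plumb

set_option autoImplicit false
open Crest Crest.CombinatoricsR

namespace Crest.Agent.S0076

/-- Let n ≥ 2 and let H be a finite simple graph with h ≥ 1 edges on at most n vertices. Suppose the edge probability p ∈ [0, 1] is such that for every subgraph F of H the expected number of subgraphs of the binomial random graph on n labelled vertices that are isomorphic to F is at least 1/2. Then at edge probability min(1, 2^11 · e^50 · p · (1 + log₂ h)) that random graph contains a (not necessarily induced) copy of H with probability at least 1/2. -/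
theorem result
    (n : ℕ) (hn : 2 ≤ n) (W : Type) [Fintype W] [DecidableEq W] (H : SimpleGraph W)
    [DecidableRel H.Adj] (hW : Fintype.card W ≤ n) (hH : 1 ≤ H.edgeFinset.card)
    (p : ℝ) (hp0 : 0 ≤ p) (hp1 : p ≤ 1)
    (hE : ∀ F : H.Subgraph, (1 : ℝ) / 2 ≤
      Crest.CombinatoricsR.RandomGraph.gnpExpect n p (fun G => (G.copyCount F.coe : ℝ))) :
    (1 : ℝ) / 2 ≤ Crest.CombinatoricsR.RandomGraph.gnpProb n
      (min 1 (2048 * Real.exp 50 * p * (1 + Real.logb 2 (H.edgeFinset.card : ℝ))))
      {G | H.IsContained G} := by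
  classical
  obtain ⟨ι⟩ : Nonempty (W ↪ Fin n) := Function.Embedding.nonempty_of_card_le (by simpa using hW)
  have horb := fun T hT => (hE _).trans (R55.orbit_of_expect H ι ι.injective p hp0 hp1 T hT)
  have hp : 0 < p := by
    obtain ⟨z, hz⟩ := Finset.card_pos.1 hH
    induction z using Sym2.ind with
    | _ u v =>
      have huv : H.Adj u v := by simpa using hz
      have hd : ¬ (s(ι u, ι v)).IsDiag := by simpa using huv.ne
      have := horb {⟨_, hd⟩} (Finset.singleton_subset_iff.2 (R55.mem_slots.2 ⟨u, v, huv, rfl⟩))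
      refine lt_of_le_of_ne hp0 fun h => ?_
      rw [← h] at this
      norm_num at this
  set h := H.edgeFinset.card with hh
  set Q := min 1 (2048 * Real.exp 50 * p * (1 + Real.logb 2 (h : ℝ))) with hQ
  have hlog : ((Nat.log 2 h + 1 : ℕ) : ℝ) ≤ 1 + Real.logb 2 (h : ℝ) := by
    have := Real.natLog_le_logb h 2
    push_cast at this ⊢
    linarith
  have hL0 : (0 : ℝ) < ((Nat.log 2 h + 1 : ℕ) : ℝ) := by positivity
  have hexp : (2 : ℝ) ^ 50 ≤ Real.exp 50 := by
    have h1 : Real.exp 50 = Real.exp 1 ^ 50 := by rw [← Real.exp_nat_mul]; norm_num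
    rw [h1]
    exact pow_le_pow_left₀ (by norm_num) (by linarith [Real.add_one_le_exp 1]) _
  have hbig : ((Nat.log 2 h + 1 : ℕ) : ℝ) * (2 ^ 61 * p) ≤
      2048 * Real.exp 50 * p * (1 + Real.logb 2 (h : ℝ)) := by
    rw [mul_comm]
    refine mul_le_mul (mul_le_mul_of_nonneg_right (by linarith) hp0) hlog hL0.le (by positivity)
  have hQ0 : 0 ≤ Q := le_min zero_le_one (le_trans (by positivity) hbig)
  have hQ1 : Q ≤ 1 := min_le_left _ _
  have hbad : ∑ ω : RandomGraph.EdgeSlot n → Bool, R63.mu Q ω *
      (if ∃ g : Equiv.Perm (Fin n), ∀ x ∈ R55.slots H ι, ω (g • x) = true then 0 else 1) ≤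
      (1 : ℝ) / 2 := by
    rcases hQ1.lt_or_eq with h1 | h1
    · refine R55.abstract_KK (R55.slots H ι) p hp horb (Nat.log 2 h + 1)
        ((R55.card_slots H ι).trans_lt (Nat.lt_pow_succ_log_self (by norm_num) h)) (by omega) Q
        ?_ h1
      refine hbig.trans (le_of_eq ?_)
      rw [hQ, min_eq_right]
      exact (min_lt_iff.1 h1).elim (fun h2 => absurd h2 (lt_irrefl _)) le_of_lt
    · rw [h1, Finset.sum_eq_zero]
      · norm_num
      intro ω _
      split_ifs with h2
      · rw [mul_zero]
      · rw [mul_one]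
        push Not at h2
        obtain ⟨x, _, hx⟩ := h2 1
        refine Finset.prod_eq_zero (Finset.mem_univ ((1 : Equiv.Perm (Fin n)) • x)) ?_
        simpa [R63.wt] using hx
  have htot := R63.sum_mu (X := RandomGraph.EdgeSlot n) Q
  have hsum : ∑ ω : RandomGraph.EdgeSlot n → Bool, R63.mu Q ω ≤
      RandomGraph.gnpProb n Q {G | H.IsContained G} + ∑ ω : RandomGraph.EdgeSlot n → Bool,
      R63.mu Q ω *
      (if ∃ g : Equiv.Perm (Fin n), ∀ x ∈ R55.slots H ι, ω (g • x) = true then 0 else 1) := by
    unfold RandomGraph.gnpProb FinProb.bernoulliProb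
    rw [Finset.sum_filter, ← Finset.sum_add_distrib]
    refine Finset.sum_le_sum fun ω _ => ?_
    have h0 := R63.mu_nonneg hQ0 hQ1 ω
    have e : FinProb.bernoulliWeight Q ω = R63.mu Q ω := rfl
    by_cases h1 : ∃ g : Equiv.Perm (Fin n), ∀ x ∈ R55.slots H ι, ω (g • x) = true
    · rw [if_pos h1, e]
      obtain ⟨g, hg⟩ := h1
      rw [if_pos (show ω ∈ {ω | RandomGraph.graphOf ω ∈ {G | H.IsContained G}} from
        R55.contained_of H ι ι.injective ω g hg)]
      simp
    · rw [if_neg h1, e]
      split_ifs <;> linarith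
  linarith

end Crest.Agent.S0076
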