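import Crest.Statements.S0077
import Crest.Agent.R56.Bridge

set_option autoImplicit false
open Crest Crest.CombinatoricsR

namespace Crest.Agent.S0077

/-- Let n ≥ 2 and let P be a family of simple graphs on n labelled vertices that is invariant under renaming vertices, closed under adding edges, non-empty and not everything; let 0 < ε < 1/2. If the binomial random graph with edge probability p ∈ [0, 1] lies in P with probability at least ε, then at every edge probability q ∈ [0, 1] with q ≥ p + 2^19 · log(1/(2ε)) / (log n)² it lies in P with probability at least 1 - ε: the threshold interval from ε to 1 - ε is at most that long. -/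
theorem result (n : ℕ) (hn : 2 ≤ n)
    (P : Set (SimpleGraph (Fin n)))
    (hsymm : ∀ σ : Equiv.Perm (Fin n), ∀ G : SimpleGraph (Fin n), G ∈ P → G.map σ.toEmbedding ∈ P)
    (hmono : ∀ G G' : SimpleGraph (Fin n), G ≤ G' → G ∈ P → G' ∈ P)
    (hne : P.Nonempty) (hnu : P ≠ Set.univ) (ε : ℝ) (hε0 : 0 < ε) (hε : ε < 1 / 2)
    (p q : ℝ) (hp0 : 0 ≤ p) (hp1 : p ≤ 1) (hq0 : 0 ≤ q) (hq1 : q ≤ 1)
    (hp : ε ≤ Crest.CombinatoricsR.RandomGraph.gnpProb n p P)
    (hq : p + 2 ^ 19 / Real.log n ^ 2 * Real.log (1 / (2 * ε)) ≤ q) :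
    1 - ε ≤ Crest.CombinatoricsR.RandomGraph.gnpProb n q P := by
  have hL : 0 < Real.log n := Real.log_pos (by exact_mod_cast hn)
  set A : Set (RandomGraph.EdgeSlot n → Bool) := {ω | RandomGraph.graphOf ω ∈ P} with hA
  have hadj : ∀ (ω : RandomGraph.EdgeSlot n → Bool) (u v : Fin n), (RandomGraph.graphOf ω).Adj u v ↔
      ∃ h : ¬ s(u, v).IsDiag, ω ⟨s(u, v), h⟩ = true := by
    intro ω u v
    simp only [RandomGraph.graphOf, SimpleGraph.fromEdgeSet_adj, Set.mem_ofPred_eq]
    exact ⟨fun h => h.1, fun h => ⟨h, fun e => h.1 (Sym2.mk_isDiag_iff.2 e)⟩⟩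
  have hvinj : Function.Injective (fun z : RandomGraph.EdgeSlot n => z.1.toFinset) := by
    intro z z' h
    refine Subtype.ext (Sym2.ext fun v => ?_)
    rw [← Sym2.mem_toFinset, ← Sym2.mem_toFinset]
    exact Finset.ext_iff.1 h v
  have hsym : R56.Symm (fun z : RandomGraph.EdgeSlot n => z.1.toFinset) (R56.ind A) := by
    intro π
    let g : RandomGraph.EdgeSlot n → RandomGraph.EdgeSlot n := fun z =>
      ⟨z.1.map π, fun h => z.2 ((Sym2.isDiag_map π.injective).1 h)⟩
    have hinj : Function.Injective g := fun e e' h =>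
      Subtype.ext (Sym2.map.injective π.injective (congrArg Subtype.val h))
    refine ⟨Equiv.ofBijective _ (Finite.injective_iff_bijective.1 hinj), fun z => ?_, fun x => ?_⟩
    · ext v
      simp only [g, Equiv.ofBijective_apply, Sym2.mem_toFinset, Sym2.mem_map, Finset.mem_map,
        Equiv.coe_toEmbedding]
    · have a : ∀ u v, (RandomGraph.graphOf fun z => x (g z)).Adj u v ↔
          (RandomGraph.graphOf x).Adj (π u) (π v) := by
        intro u v
        rw [hadj, hadj]
        exact ⟨fun ⟨h, hx⟩ => ⟨(g ⟨_, h⟩).2, hx⟩,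
          fun ⟨h, hx⟩ => ⟨fun h' => h ((Sym2.isDiag_map π.injective).2 h'), hx⟩⟩
      have b : (RandomGraph.graphOf fun z => x (g z)).map π.toEmbedding =
          RandomGraph.graphOf x := by
        ext u v
        rw [SimpleGraph.map_adj]
        constructor
        · rintro ⟨u', v', h, rfl, rfl⟩
          exact (a _ _).1 h
        · intro h
          exact ⟨π.symm u, π.symm v, (a _ _).2 (by simpa using h), by simp, by simp⟩
      have c : (RandomGraph.graphOf x).map π.symm.toEmbedding =
          RandomGraph.graphOf fun z => x (g z) := by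
        ext u v
        rw [SimpleGraph.map_adj]
        constructor
        · rintro ⟨u', v', h, rfl, rfl⟩
          exact (a _ _).2 (by simpa using h)
        · intro h
          exact ⟨π u, π v, (a _ _).1 h, by simp, by simp⟩
      have d : (fun z => x (g z)) ∈ A ↔ x ∈ A :=
        ⟨fun h => by have := hsymm π _ h; rwa [b] at this,
          fun h => by have := hsymm π.symm _ h; rwa [c] at this⟩
      exact R56.ind_congr d
  have hm : ∀ i x, R56.ind A (Function.update x i false) ≤ R56.ind A (Function.update x i true) := by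
    intro i x
    have a : Function.update x i false ∈ A → Function.update x i true ∈ A := by
      refine hmono _ _ fun u v h => ?_
      rw [hadj] at h ⊢
      obtain ⟨h, hx⟩ := h
      refine ⟨h, ?_⟩
      by_cases e : (⟨s(u, v), h⟩ : RandomGraph.EdgeSlot n) = i
      · rw [e, Function.update_self]
      · rwa [Function.update_of_ne e] at hx ⊢
    unfold R56.ind
    split_ifs with b c
    · exact le_rfl
    · exact absurd (a b) c
    · exact zero_le_one
    · exact le_rfl
  have e : ∀ t, RandomGraph.gnpProb n t P = BF.E t (R56.ind A) := fun t => R56.bern_eq _ _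
  rw [e] at hp ⊢
  have hlog : 0 < Real.log (1 / (2 * ε)) :=
    Real.log_pos (by rw [lt_div_iff₀ (by linarith)]; linarith)
  have hw : 0 < 2 ^ 19 / Real.log n ^ 2 * Real.log (1 / (2 * ε)) := by positivity
  refine R56.threshold (K := Real.log n ^ 2 / 2 ^ 17) (R56.russo (R56.ind A))
    (fun t t0 t1 => ?_) (fun t t0 t1 => ?_) hε0 hε hp0 (by linarith) hq1 hp ?_
  · rw [← R56.tot_of_mono (R56.isBool_ind A) hm]
    exact R56.tot_nonneg t0.le t1.le _
  · rw [← R56.tot_of_mono (R56.isBool_ind A) hm, ← R56.var_ind]
    refine R56.core t0 t1 (r := 2) (fun z => Sym2.card_toFinset_of_not_isDiag _ z.2) le_rfl hvinj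
      (R56.isBool_ind A) hsym (by positivity) le_rfl ?_
    have : 0 ≤ Real.log n ^ 2 := by positivity
    norm_num
    linarith
  · calc 4 * Real.log (1 / (2 * ε)) = Real.log n ^ 2 / 2 ^ 17 *
          (2 ^ 19 / Real.log n ^ 2 * Real.log (1 / (2 * ε))) := by field_simp; norm_num
      _ ≤ _ := mul_le_mul_of_nonneg_left (by linarith) (by positivity)

end Crest.Agent.S0077
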