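import Crest.Statements.S0078
import Crest.Agent.R56.Bridge

set_option autoImplicit false
open Crest Crest.CombinatoricsR

namespace Crest.Agent.S0078

/-- For every r ≥ 3 there is a real constant C such that for all n ≥ r, all 0 < p < 1 and every Boolean function f of the simple r-uniform hypergraph on n labelled vertices that is invariant under renaming the vertices (no monotonicity assumed), the variance of f under independent edge-coins of bias p, namely P(f = true) · (1 - P(f = true)), is at most C · (log n)^(-r/(r-1)) times the total pivotal influence of f at bias p (natural logarithm). -/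
theorem result (r : ℕ) (hr : 3 ≤ r) :
    ∃ C : ℝ, ∀ n : ℕ, r ≤ n → ∀ p : ℝ, 0 < p → p < 1 →
      ∀ f : (Crest.CombinatoricsR.HypergraphCube.HyperedgeSlot n r → Bool) → Bool,
        Crest.CombinatoricsR.HypergraphCube.IsSymmetric f →
          Crest.CombinatoricsR.HypergraphCube.probTrue p f *
              (1 - Crest.CombinatoricsR.HypergraphCube.probTrue p f) ≤
            C / Real.log n ^ ((r : ℝ) / ((r : ℝ) - 1)) *
              Crest.CombinatoricsR.HypergraphCube.totalInfluence p f := by
  refine ⟨2 ^ 17 * (16 * r) ^ r, fun n hn p h0 h1 f hf => ?_⟩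
  have hr' : (3 : ℝ) ≤ r := by exact_mod_cast hr
  have hL : 1 ≤ Real.log n := by
    have h3 : (3 : ℝ) ≤ n := by exact_mod_cast hr.trans hn
    rw [Real.le_log_iff_exp_le (by linarith)]
    linarith [Real.exp_one_lt_d9]
  set L := Real.log n with hLdef
  set C : ℝ := 2 ^ 17 * (16 * r) ^ r with hC
  have h16 : (1 : ℝ) ≤ (16 * r) ^ r := one_le_pow₀ (by linarith)
  have hC1 : 2 ^ 17 ≤ C := by rw [hC]; linarith
  have hC2 : (16 * r : ℝ) ^ r ≤ C := by rw [hC]; linarith
  have hP : 0 < L ^ ((r : ℝ) / ((r : ℝ) - 1)) := Real.rpow_pos_of_pos (by linarith) _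
  have hsym : R56.Symm (fun e : HypergraphCube.HyperedgeSlot n r => e.1)
      (R56.ind {x | f x = true}) := by
    intro π
    have hinj : Function.Injective (HypergraphCube.relabelSlot (r := r) π) := fun e e' h =>
      Subtype.ext (Finset.map_injective _ (congrArg Subtype.val h))
    refine ⟨Equiv.ofBijective _ (Finite.injective_iff_bijective.1 hinj), fun e => rfl, fun x => ?_⟩
    have : f (fun e => x (HypergraphCube.relabelSlot π e)) = f x := hf π x
    exact R56.ind_congr (by rw [Set.mem_ofPred_eq, Set.mem_ofPred_eq, ← this]; rfl)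
  have key := R56.core h0 h1 (vs := fun e : HypergraphCube.HyperedgeSlot n r => e.1)
    (fun e => e.2) (by omega) Subtype.val_injective (R56.isBool_ind _) hsym
    (K := L ^ ((r : ℝ) / ((r : ℝ) - 1)) / C) (by positivity)
    (by
      have a : L ^ ((r : ℝ) / ((r : ℝ) - 1)) ≤ L ^ 2 := by
        rw [← Real.rpow_two]
        refine Real.rpow_le_rpow_of_exponent_le hL ?_
        rw [div_le_iff₀ (by linarith)]; linarith
      gcongr)
    (by
      have a : (L ^ ((r : ℝ) / ((r : ℝ) - 1))) ^ (r - 1) = L ^ r := by
        rw [← Real.rpow_natCast, ← Real.rpow_mul (by linarith), Nat.cast_sub (by omega),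
          Nat.cast_one, div_mul_cancel₀ _ (by linarith), Real.rpow_natCast]
      have b : C ≤ C ^ (r - 1) := le_self_pow₀ (by linarith) (by omega)
      rw [div_pow, a, ← mul_div_assoc, div_le_iff₀ (by positivity), mul_comm]
      exact mul_le_mul_of_nonneg_left (hC2.trans b) (by positivity))
  have e1 : HypergraphCube.probTrue p f = BF.E p (R56.ind {x | f x = true}) := R56.bern_eq _ _
  have e2 : HypergraphCube.totalInfluence p f = R56.tot p (R56.ind {x | f x = true}) := by
    refine Finset.sum_congr rfl fun e _ => ?_
    rw [HypergraphCube.pivotalInfluence, R56.bern_eq, R56.piv]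
    congr 1; funext x
    simp only [R56.ind, BF.dif, Set.mem_ofPred_eq]
    by_cases a : f (Function.update x e true) = true <;>
      by_cases b : f (Function.update x e false) = true <;> simp [a, b]
  rw [e1, e2, ← R56.var_ind, div_mul_eq_mul_div, le_div_iff₀ hP]
  rw [div_mul_eq_mul_div, div_le_iff₀ (by positivity)] at key
  linarith

end Crest.Agent.S0078
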