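import Crest.Statements.S0088
import Crest.Agent.R66.Vanish
import Crest.Agent.R66.ConeP
import Crest.Agent.R66.L2G
import Crest.Agent.R66.Spec
import Crest.Agent.R66.Final

set_option autoImplicit false
open Crest Crest.CombinatoricsR

namespace Crest.Agent.R66
open Polynomial Finset

theorem exists_ring (p : ℕ) [Fact p.Prime] (s : ℕ) (hs : 2 ≤ s) :
    ∃ (A : Type) (_ : CommRing A) (_ : Algebra (ZMod p) A) (_ : Finite A) (t : A),
      Good p t ∧ s ≤ Nat.card A := by
  have hm : (X ^ s : (ZMod p)[X]).Monic := monic_X_pow s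
  let pb := AdjoinRoot.powerBasis' hm
  haveI : Module.Finite (ZMod p) (AdjoinRoot (X ^ s : (ZMod p)[X])) := pb.finite
  haveI : Finite (AdjoinRoot (X ^ s : (ZMod p)[X])) := Module.finite_of_finite (ZMod p)
  refine ⟨AdjoinRoot (X ^ s : (ZMod p)[X]), inferInstance, inferInstance, inferInstance,
    AdjoinRoot.root _, ⟨⟨s, ?_⟩, ?_, ?_⟩, ?_⟩
  · rw [← AdjoinRoot.mk_X, ← map_pow, AdjoinRoot.mk_self]
  · rw [← AdjoinRoot.mk_X, Ne, AdjoinRoot.mk_eq_zero]
    intro h
    have := natDegree_le_of_dvd h X_ne_zero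
    simp at this
    omega
  · intro a
    induction a using AdjoinRoot.induction_on with
    | ih q =>
      rw [← AdjoinRoot.aeval_eq, aeval_eq_sum_range]
      exact Submodule.sum_mem _ fun i _ => Submodule.smul_mem _ _ (Submodule.subset_span ⟨i, rfl⟩)
  · rw [Module.natCard_eq_pow_finrank (K := ZMod p), pb.finrank, AdjoinRoot.powerBasis'_dim]
    simp only [natDegree_pow, natDegree_X, mul_one, Nat.card_zmod]
    exact (Nat.lt_pow_self (Fact.out : p.Prime).one_lt).le

theorem Nrm_congr {I G : Type} [DecidableEq I] [Group G] [Fintype G] {H : Subgroup G}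
    {T : Finset I} {m : ℕ} {f f' : Finset I → G → ZMod 2}
    (h : ∀ J g, J.card = m → full H T J g → f J g = f' J g) : Nrm H T m f = Nrm H T m f' := by
  classical
  unfold Nrm
  refine Finset.sum_congr rfl fun J hJ => ?_
  rw [mem_powersetCard] at hJ
  congr 1
  ext g
  simp only [mem_filter, mem_univ, true_and]
  refine and_congr_right fun hg => ?_
  rw [h J g hJ.2 ⟨hJ.1, hg, fun _ _ => trivial⟩]

end Crest.Agent.R66

namespace Crest.Agent.S0088

/-- For each d ≥ 3 there are D and ε > 0 such that for every N there is a pure d-dimensional simplicial complex, given by its top faces on the vertex set Fin n with n ≥ N, each vertex lying in at least one and at most D top faces and the 1-skeleton connected, which is an ε-coboundary expander over the two-element field in each degree i < d: for every i-cochain f some i-coboundary b (a constant if i = 0) has ε · ‖f - b‖ ≤ ‖δ_i f‖, in the top-face-weighted Hamming norms of degrees i and i + 1. -/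
theorem result (d : ℕ) (hd : 3 ≤ d) :
    ∃ D : ℕ, ∃ ε : ℝ, 0 < ε ∧ ∀ N : ℕ, ∃ n : ℕ, ∃ T : Finset (Finset (Fin n)), N ≤ n ∧
      (∀ τ ∈ T, τ.card = d + 1) ∧
      (∀ v : Fin n, 1 ≤ Crest.CombinatoricsR.Cochain.vertexDegree T v ∧ Crest.CombinatoricsR.Cochain.vertexDegree T v ≤ D) ∧
      (Crest.CombinatoricsR.Cochain.skeleton T).Connected ∧
      ∀ i : ℕ, i < d → ∀ f : Finset (Fin n) → ZMod 2,
        ∃ b : Finset (Fin n) → ZMod 2, Crest.CombinatoricsR.Cochain.IsCoboundaryClass i b ∧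
          ε * Crest.CombinatoricsR.Cochain.cochainNorm d T i (f - b) ≤ Crest.CombinatoricsR.Cochain.cochainNorm d T (i + 1) (Crest.CombinatoricsR.Cochain.coboundary i f) := by
  obtain ⟨N, κ, hc⟩ := R66.coneP (2 * d + 1)
  obtain ⟨lam, hlam, C, hC⟩ := R66.l2g (2 * d + 1) (2 ^ (2 * d + 1) * κ)
  obtain ⟨p₀, hp₀⟩ := R66.spec_of_roots (2 * d + 1) lam hlam
  obtain ⟨p, hp, hpp⟩ := Nat.exists_infinite_primes (p₀ + 2 * N + 3)
  haveI : Fact p.Prime := ⟨hpp⟩
  obtain ⟨D, ε, hε, hfin⟩ :=
    R66.final_of d (2 * d + 1) (p ^ ((2 * d + 1) * (2 * d + 1))) C (by omega)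
  refine ⟨D, ε, hε, fun N₀ => ?_⟩
  obtain ⟨A, _, _, _, t, hg, hA⟩ :=
    R66.exists_ring p (p ^ ((2 * d + 1) * (2 * d + 1)) * N₀ + 2) (by omega)
  have hspec : R66.Spec (R66.KK (n := 2 * d + 1) p t) lam :=
    hp₀ p (by omega) _ _ _ (R66.rt p t) (by simp) (R66.rt_add (by omega))
      (fun a j γ h => R66.rt_mem h γ) (R66.gen_rt hg (by omega))
      (fun a b h => R66.rt_pair (by omega) h)
  obtain ⟨nv, T, h1, h2⟩ := hfin (Fin (2 * d + 1)) (R66.GG (2 * d + 1) t) (R66.KK p t)
    (by simp; omega) (by simp) (R66.card_KK_le hg) (by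
      intro m _ hm f hf
      obtain ⟨f', hf', hcf', hle⟩ := hC _ _ (R66.KK (n := 2 * d + 1) p t) m (by simp)
        (fun R hR hRm => R66.link_exp hg hc (by omega) hR (by omega)) hspec f hf
      obtain ⟨y, hy, e⟩ := R66.vanish hg (by omega) hc (by omega) (m := m) (by omega) f' hf' hcf'
      refine ⟨y, hy, le_of_eq_of_le (R66.Nrm_congr fun J g hJ ha => ?_) hle⟩
      simp only [Pi.sub_apply, e J g hJ ha])
  refine ⟨nv, T, ?_, h2⟩
  have h3 := R66.card_le_card_GG (n := 2 * d + 1) (t := t) (by omega)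
  have h4 : 0 < p ^ ((2 * d + 1) * (2 * d + 1)) := pow_pos hpp.pos _
  by_contra hlt
  have : p ^ ((2 * d + 1) * (2 * d + 1)) * nv ≤ p ^ ((2 * d + 1) * (2 * d + 1)) * N₀ :=
    Nat.mul_le_mul_left _ (by omega)
  omega

end Crest.Agent.S0088
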