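import Crest.Statements.S0091
import Crest.Agent.R68.Approx
import Crest.Agent.R68.Major
import Crest.Agent.R68.Limit

set_option autoImplicit false
open MeasureTheory
open scoped ENNReal
open Crest.AnalysisR.VecCalc3 Crest.AnalysisR.PDE.Boltzmann
open Crest Crest.AnalysisR Crest.AnalysisR.PDE Crest.AnalysisR.PDE.Boltzmann

namespace Crest.Agent.S0091

/-- Nonuniqueness for the hard-sphere Boltzmann equation on ℝ³/ℤ³: a nonnegative periodic datum with bounded velocities and finite mass, energy, entropy admits two global solutions differing on a positive-measure set: nonnegative weak solutions (smooth periodic tests) with local conservation of mass, momentum, energy, conserved total momentum, ∫‖v‖²F(t) ≤ ∫‖v‖²F₀, H_M(F(t)) + ∫₀ᵗ D(F) ≤ H_M(F₀), locally bounded mass, energy, entropy, strong L¹ continuity, weighted-integrable gain and loss. -/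
theorem result :
    ∃ R : ℝ, ∃ F₀ : R3 → R3 → ℝ, IsAdmissibleDatum F₀ R ∧
      ∃ F₁ F₂ : ℝ → R3 → R3 → ℝ, IsGlobalSolution F₁ F₀ ∧ IsGlobalSolution F₂ F₀ ∧
        0 < volume {p : ℝ × R3 × R3 | p ∈ region ∧ F₁ p.1 p.2.1 p.2.2 ≠ F₂ p.1 p.2.1 p.2.2} := by
  classical
  obtain ⟨P, t1, T, K, c1, c2, N0, hP, h0, h1, hT, hc, H⟩ := R68.approx
  have hadm := R68.admissible hP
  have hr : P.r / 2 < 1 / 2 := by have := hP.r1; linarith
  let φ : R3 × R3 → ℝ≥0∞ := fun q => {x : R3 | R68.dd x ≤ P.r / 2}.indicator 1 q.1 * R68.chi q.2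
  have hφm : Measurable φ := by
    refine Measurable.mul ?_ (R68.measurable_chi.comp measurable_snd)
    exact (measurable_one.indicator (measurableSet_le R68.measurable_dd measurable_const)).comp
      measurable_fst
  have hφ1 : ∀ q, φ q ≤ 1 := by
    intro q
    refine mul_le_one' ?_ (R68.chi_le_one _)
    exact Set.indicator_le_self' (fun _ _ => zero_le_one) q.1
  have key : ∀ (σ : ℕ → NNReal) (F : ℕ → R68.Den), (∀ n, σ n ≤ 1) →
      (∀ n T', 0 ≤ T' → R68.Sol (R68.F0 P (N0 + n) (σ n)) T' (F n)) →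
      (∀ n t, 0 ≤ t → ∀ x v, F n t x v ≤ R68.Maj P t1 K t x v) →
      ∃ Fr : ℝ → R3 → R3 → ℝ, IsGlobalSolution Fr (R68.toR2 (R68.F0lim P)) ∧ ∀ c : ℝ≥0∞,
        ((∀ n, c ≤ R68.Nf (F n) T (P.r / 2)) →
          c ≤ ∫⁻ q in cell ×ˢ (Set.univ : Set R3), ENNReal.ofReal (Fr T q.1 q.2) * φ q) ∧
        ((∀ n, R68.Nf (F n) T (P.r / 2) ≤ c) →
          ∫⁻ q in cell ×ˢ (Set.univ : Set R3), ENNReal.ofReal (Fr T q.1 q.2) * φ q ≤ c) := by
    intro σ F hσ hsol hle
    have hinv : ∀ n T', 0 ≤ T' → R68.Inv T' (F n) := fun n T' hT' =>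
      (hsol n T' hT').inv (fun x v => by rw [R68.F0_hat])
    have hN : Filter.Tendsto (fun n => N0 + n) Filter.atTop Filter.atTop :=
      Filter.tendsto_atTop_mono (fun n => Nat.le_add_left n N0) Filter.tendsto_id
    obtain ⟨Fr, hFr, hlim⟩ := R68.limit_exists (F0n := fun n => R68.F0 P (N0 + n) (σ n)) (Fn := F)
      (F0r := R68.toR2 (R68.F0lim P)) (𝓜 := R68.Maj P t1 K) (R := P.R)
      (fun T' _ => R68.major_Maj hP h0 h1 K T') hsol
      (fun n t v ht => (hinv n t ht).per t ⟨ht, le_rfl⟩ v)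
      (fun n t x v ht => hle n t ht x v) hadm.1 hadm.2.1 hadm.2.2.1 hadm.2.2.2.1
      (R68.data_conv hP hN hσ)
    refine ⟨Fr, hFr, fun c => ?_⟩
    have hNf : ∀ n, ∫⁻ q in cell ×ˢ (Set.univ : Set R3), F n T q.1 q.2 * φ q =
        R68.Nf (F n) T (P.r / 2) := fun n =>
      R68.Nf_eq_cell (hsol n T hT).mild.1 (hinv n T hT) ⟨hT, le_rfl⟩ hr
    obtain ⟨a1, a2⟩ := hlim T hT φ hφm hφ1 c
    exact ⟨fun h => a1 (fun n => by rw [hNf]; exact h n), fun h => a2 (fun n => by rw [hNf]; exact h n)⟩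
  choose σ F hσ hsol hle hNf using fun n => (H (N0 + n) (Nat.le_add_right _ _)).1
  choose F' hsol' hle' hNf' using fun n => (H (N0 + n) (Nat.le_add_right _ _)).2
  obtain ⟨F₁, hF₁, hl₁⟩ := key σ F hσ hsol hle
  obtain ⟨F₂, hF₂, hl₂⟩ := key (fun _ => 0) F' (fun _ => zero_le_one) hsol' hle'
  refine ⟨P.R, R68.toR2 (R68.F0lim P), hadm, F₁, F₂, hF₁, hF₂, R68.distinct hF₁ hF₂ hT (φ := φ) ?_⟩
  exact (lt_of_le_of_lt ((hl₂ c1).2 hNf') (lt_of_lt_of_le hc ((hl₁ c2).1 hNf))).ne'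

end Crest.Agent.S0091
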