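import Crest.Statements.S0095
import Crest.Agent.R72.Final

set_option autoImplicit false
open Crest Crest.AnalysisR

namespace Crest.Agent.S0095

/-- For every real r > 2 there is a constant C such that for all complex functions F, G on ℝ × ℝ lying in L³ (Lebesgue measure), the pointwise annular r-variation of their truncated triangular Hilbert transforms, annularVariation r F G (an ℝ≥0∞-valued function: supremum over finite increasing chains of positive rational radii of the ℓ^r sum of the increments), has L^{3/2} quasi-norm (∫ V^{3/2})^{2/3} at most C times the product of the L³ norms of F and G. -/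
theorem result (r : ℝ) (hr : 2 < r) :
    ∃ C : ℝ, ∀ F G : ℝ × ℝ → ℂ,
      MeasureTheory.MemLp F 3 MeasureTheory.volume → MeasureTheory.MemLp G 3 MeasureTheory.volume →
        (∫⁻ z, Crest.AnalysisR.annularVariation r F G z ^ (3 / 2 : ℝ)) ^ (2 / 3 : ℝ) ≤
          ENNReal.ofReal C * MeasureTheory.eLpNorm F 3 MeasureTheory.volume *
            MeasureTheory.eLpNorm G 3 MeasureTheory.volume := by
  exact R72.variation r hr

end Crest.Agent.S0095
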