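import Crest.Statements.S0103
import Crest.Agent.R78.Lift
import Crest.Agent.R78.Unit

set_option autoImplicit false
open Crest Crest.AnalysisR Crest.AnalysisR.OperatorAlgebra

namespace Crest.Agent.S0103

/-- For every ε > 0 there is δ > 0 such that, for every complex Hilbert space H and all von Neumann algebras M and N on H for which every element of norm at most 1 of either algebra lies within operator-norm distance less than δ of some element of norm at most 1 of the other, there is a unitary operator u on H with ‖u − 1‖ < ε and u M u⋆ = N (the elements of N are exactly the conjugates u x u⋆ of elements x of M). -/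
theorem result (ε : ℝ) (hε : 0 < ε) :
    ∃ δ : ℝ, 0 < δ ∧
      ∀ (H : Type*) [NormedAddCommGroup H] [InnerProductSpace ℂ H] [CompleteSpace H] (M N : VonNeumannAlgebra H),
        (∀ x ∈ M, ‖x‖ ≤ 1 → ∃ y ∈ N, ‖y‖ ≤ 1 ∧ ‖x - y‖ < δ) →
        (∀ y ∈ N, ‖y‖ ≤ 1 → ∃ x ∈ M, ‖x‖ ≤ 1 ∧ ‖y - x‖ < δ) →
        ∃ u : H →L[ℂ] H, u ∈ unitary (H →L[ℂ] H) ∧ ‖u - 1‖ < ε ∧
          ∀ y : H →L[ℂ] H, y ∈ N ↔ ∃ x ∈ M, y = u * x * star u := by
  obtain ⟨C, hC⟩ := R78.exists_DPC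
  have hC1 := hC.one_le
  set η : ℝ := min ε 1 with hη
  have hη0 : 0 < η := lt_min hε one_pos
  have hη1 : η ≤ 1 := min_le_right _ _
  have hηε : η ≤ ε := min_le_left _ _
  set δ : ℝ := η / (10 ^ 20 * C ^ 4) with hδ
  have hδ0 : 0 < δ := by positivity
  have e1 : C ^ 4 * δ = η / 10 ^ 20 := by rw [hδ]; field_simp
  have e2 : C ^ 3 * δ ≤ C ^ 4 * δ := by gcongr; norm_num
  have e3 : δ ≤ C ^ 3 * δ := le_mul_of_one_le_left hδ0.le (one_le_pow₀ hC1)
  refine ⟨δ, hδ0, fun H _ _ _ M N h1 h2 => ?_⟩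
  have c1 : R78.CmV M N.commutant (2 * δ) := R78.Cm.of_near fun x hx hx1 =>
    let ⟨y, hy, _, h⟩ := h1 x hx hx1; ⟨y, hy, h.le⟩
  have c2 : R78.CmV N M.commutant (2 * δ) := R78.Cm.of_near fun x hx hx1 =>
    let ⟨y, hy, _, h⟩ := h2 x hx hx1; ⟨y, hy, h.le⟩
  obtain ⟨Φ, hΦ⟩ := R78.exists_lift hC (by positivity) (by linarith) c1 c2
  obtain ⟨θ, hθ1, hθ2⟩ := R78.exists_iso_near Φ (by positivity) (by linarith) hΦ fun y hy => by
    obtain ⟨x, hx, h⟩ := R78.Cm.near hC (by positivity) c2 y hy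
    refine ⟨x, hx, h.trans (mul_le_mul_of_nonneg_right ?_ (norm_nonneg _))⟩
    have : C * δ ≤ C ^ 3 * δ := by gcongr; exact le_self_pow₀ hC1 (by norm_num)
    linarith
  have e4 : C * (1000 * (10 ^ 11 * (2 * C ^ 3 * (2 * δ)))) = 4 * 10 ^ 14 * (C ^ 4 * δ) := by ring
  obtain ⟨u, hu, hu1, hu2⟩ := R78.exists_unitary_of_iso hC θ (by positivity)
    (by rw [mul_assoc, e4]; linarith) hθ2
  refine ⟨u, hu, hu1.trans_lt (by rw [mul_assoc, e4]; linarith), fun y => ⟨fun hy => ?_, ?_⟩⟩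
  · obtain ⟨x, hx⟩ := hθ1 ⟨y, hy⟩
    exact ⟨x, x.2, by rw [hu2, hx]⟩
  · rintro ⟨x, hx, rfl⟩
    rw [hu2 ⟨x, hx⟩]
    exact (θ ⟨x, hx⟩).2

end Crest.Agent.S0103
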