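import Crest.Statements.S0104
import Crest.Agent.R78.NIB

set_option autoImplicit false
open Crest Crest.AnalysisR Crest.AnalysisR.OperatorAlgebra

namespace Crest.Agent.S0104

open R78 in
theorem im_part {H : Type*} [NormedAddCommGroup H] [InnerProductSpace ℂ H] [CompleteSpace H]
    {A W T : H →L[ℂ] H} {e : ℝ} (h : ‖A - ((1 / 12 : ℝ) : ℂ) • W‖ ≤ e)
    (hW : W - star W = Complex.I • T) : ‖(-12 * Complex.I) • (A - star A) - T‖ ≤ 24 * e := by
  have e1 : (-12 * Complex.I) • (A - star A) - T = (-12 * Complex.I) •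
      ((A - ((1 / 12 : ℝ) : ℂ) • W) - star (A - ((1 / 12 : ℝ) : ℂ) • W)) := by
    have : T = (-Complex.I) • (W - star W) := by rw [hW, smul_smul]; simp
    rw [this, star_sub, star_smul]
    simp only [RCLike.star_def, Complex.conj_ofReal]
    push_cast
    module
  rw [e1, norm_smul]
  have := norm_sub_le (A - ((1 / 12 : ℝ) : ℂ) • W) (star (A - ((1 / 12 : ℝ) : ℂ) • W))
  rw [norm_star] at this
  simp only [norm_mul, norm_neg, Complex.norm_I, Complex.norm_ofNat]
  linarith

open R78 R78.NI in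
/-- There is ε₀ > 0 such that for every δ > 0 some separable complex Hilbert space H carries von Neumann algebras M and N with the following two properties: every element of M of norm at most 1 lies within operator-norm distance less than δ of some element of N; and every unitary operator u on H with u M u⋆ ⊆ N satisfies ‖u − 1‖ ≥ ε₀. -/
theorem result :
    ∃ ε₀ : ℝ, 0 < ε₀ ∧ ∀ δ : ℝ, 0 < δ →
      ∃ (H : Type) (_ : NormedAddCommGroup H) (_ : InnerProductSpace ℂ H) (_ : CompleteSpace H)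
        (_ : TopologicalSpace.SeparableSpace H) (M N : VonNeumannAlgebra H),
        (∀ x ∈ M, ‖x‖ ≤ 1 → ∃ y ∈ N, ‖x - y‖ < δ) ∧
        ∀ u : H →L[ℂ] H, u ∈ unitary (H →L[ℂ] H) →
          (∀ x ∈ M, u * x * star u ∈ N) → ε₀ ≤ ‖u - 1‖ := by
  refine ⟨1 / 10 ^ 4, by norm_num, fun δ hδ => ?_⟩
  obtain ⟨n, hn⟩ : ∃ n : ℕ, 10 ^ 8 ≤ n := ⟨_, le_rfl⟩
  have : Nonempty (Fin n) := ⟨⟨0, by omega⟩⟩
  obtain ⟨X, Y, S, F, κ, hX, hY, hX1, hY1, hXY, hSF, hS, hF, hκ, hκ'⟩ :=
    exists_shift (η := min (δ / 2000) (1 / 10 ^ 7)) (by positivity) ((1 + Complex.I) / 4) (by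
      rw [norm_div]
      have := norm_add_le (1 : ℂ) Complex.I
      simp only [norm_one, Complex.norm_I, Complex.norm_ofNat] at this ⊢
      linarith)
  obtain ⟨u, hu, hu'⟩ := exists_unit hX hX1
  obtain ⟨v, hv, hv'⟩ := exists_unit hY hY1
  have huv : ‖(u : ell ℕ ℂ →L[ℂ] ell ℕ ℂ) * v - v * u‖ ≤ min (δ / 2000) (1 / 10 ^ 7) := by
    refine (hu' v).trans ?_
    rw [norm_sub_rev]
    refine (hv' X).trans ?_
    rwa [norm_sub_rev]
  obtain ⟨S₁⟩ := exists_PSys (C1 (FreeGroup (Fin n)) (ell ℕ ℂ)) (s := 1 / 12) (by norm_num) le_rfl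
  obtain ⟨S₂⟩ := exists_PSys (C2 (FreeGroup (Fin n)) (ell ℕ ℂ)) (s := 1 / 12) (by norm_num) le_rfl
  have := ell.separable (Ξ := ℕ) (H := ℂ)
  have := ell.separable (Ξ := FreeGroup (Fin n) × FreeGroup (Fin n)) (H := ell ℕ ℂ)
  refine ⟨HH (FreeGroup (Fin n)) (ell ℕ ℂ), inferInstance, inferInstance, inferInstance,
    ell.separable, MM S₁ S₂ u v, NN _ _, fun x hx hx1 => ?_, fun U hU h => ?_⟩
  · obtain ⟨y, hy, h⟩ := near S₁ S₂ u v x hx
    refine ⟨y, hy, h.trans_lt ?_⟩
    have h1 := huv.trans (min_le_left _ _)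
    have h2 := mul_le_of_le_one_right (a := 1000 * ‖(u : ell ℕ ℂ →L[ℂ] ell ℕ ℂ) * v - v * u‖)
      (by positivity) hx1
    linarith
  by_contra hc
  push Not at hc
  obtain ⟨A, B, hAB, hAB', hA, hB⟩ := obstr S₁ S₂ u v (by norm_num) le_rfl hU h
  obtain ⟨A₀, F₀, e, h1, h2, h3⟩ := block (FreeGroup (Fin n)) hX hY hSF hS hF hκ hκ'
  have hs : 10 / √(Fintype.card (Fin n)) ≤ 1 / 10 ^ 3 := by
    rw [Fintype.card_fin, div_le_iff₀ (Real.sqrt_pos.2 (by exact_mod_cast (by omega : 0 < n)))]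
    have : (10 : ℝ) ^ 4 ≤ √n := Real.le_sqrt_of_sq_le (by exact_mod_cast hn)
    linarith
  have ha := im_part hA (T := Q1 _ _ * dd _ X) (by
    rw [star_mul, (Q1_sa _).star_eq, dd, ← map_star, ← map_star, ← dd, ← dd, ← Q1_dd, ← mul_sub, dd,
      dd, ← map_sub, ← map_sub, hu, map_smul, map_smul, mul_smul_comm, dd])
  have hb := im_part hB (T := Q2 _ _ * dd _ Y) (by
    rw [star_mul, (Q2_sa _).star_eq, dd, ← map_star, ← map_star, ← dd, ← dd, ← Q2_dd, ← mul_sub, dd,
      dd, ← map_sub, ← map_sub, hv, map_smul, map_smul, mul_smul_comm, dd])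
  set a := (-12 * Complex.I) • (A - star A) with ha'
  set b := (-12 * Complex.I) • (B - star B) with hb'
  have sa : star a = a := by
    rw [ha', star_smul, star_sub, star_star, ← neg_sub, smul_neg, ← neg_smul]; simp
  have sb : star b = b := by
    rw [hb', star_smul, star_sub, star_star, ← neg_sub, smul_neg, ← neg_smul]; simp
  have hab : a * b = b * a := by
    have c1 : Commute A B := hAB
    have c2 : Commute A (star B) := hAB'
    have c3 : Commute (star A) (star B) := c1.star_star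
    have c4 : Commute (star A) B := by simpa using c2.star_star
    exact (((c1.sub_right c2).sub_left (c4.sub_right c3)).smul_left _).smul_right _
  have key := idx (N := a + Complex.I • b - ((1 + Complex.I) / 4) • 1) (by norm_num) h1 h2 h3 (by
    simp only [star_sub, star_add, star_smul, sa, sb, star_one, mul_sub, sub_mul, mul_add, add_mul,
      smul_mul_assoc, mul_smul_comm, one_mul, mul_one, hab]
    module)
  rw [← e, sub_sub_sub_cancel_right, add_sub_add_comm, ← smul_sub] at key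
  have h4 := key.trans_le (norm_add_le _ _)
  rw [norm_smul, Complex.norm_I, one_mul] at h4
  have h5 := huv.trans (min_le_right _ _)
  linarith

end Crest.Agent.S0104
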