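import Crest.Statements.S0105
import Crest.Agent.R78.NC

set_option autoImplicit false
open Crest Crest.AnalysisR Crest.AnalysisR.OperatorAlgebra

namespace Crest.Agent.S0105

open Filter Topology
open scoped InnerProductSpace

/-- conjugation by a unitary -/
def cj {A B : Type*} [CStarAlgebra A] [CStarAlgebra B] (φ : A →⋆ₐ[ℂ] B) {W : B} (hW : W ∈ unitary B) :
    A →⋆ₐ[ℂ] B where
  toFun a := W * φ a * star W
  map_one' := by rw [map_one, mul_one, hW.2]
  map_mul' a b := by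
    rw [map_mul]; simp only [mul_assoc]; rw [← mul_assoc (star W), hW.1, one_mul]
  map_zero' := by simp
  map_add' a b := by simp [mul_add, add_mul]
  commutes' c := by simp [Algebra.algebraMap_eq_smul_one, hW.2]
  map_star' a := by simp only [map_star, star_mul, star_star, mul_assoc]

theorem cj_apply {A B : Type*} [CStarAlgebra A] [CStarAlgebra B] (φ : A →⋆ₐ[ℂ] B) {W : B}
    (hW : W ∈ unitary B) (a : A) : cj φ hW a = W * φ a * star W := rfl

theorem norm_cj {B : Type*} [CStarAlgebra B] {W : B} (hW : W ∈ unitary B) (x : B) :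
    ‖W * x * star W‖ = ‖x‖ := by
  rw [CStarRing.norm_mul_mem_unitary _ (Unitary.star_mem hW), CStarRing.norm_mem_unitary_mul _ hW]

open R78 R78.NC in
/-- For every ε > 0 some separable complex Hilbert space H carries two norm-closed, norm-separable unital ⋆-subalgebras A and B of its bounded operators such that every element of norm at most 1 of either lies within distance less than ε of an element of norm at most 1 of the other, A and B have the same double commutant, and no unitary operator u on H satisfies u A u⋆ = B. -/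
theorem result (ε : ℝ) (hε : 0 < ε) :
    ∃ (H : Type) (_ : NormedAddCommGroup H) (_ : InnerProductSpace ℂ H) (_ : CompleteSpace H)
      (_ : TopologicalSpace.SeparableSpace H) (A B : StarSubalgebra ℂ (H →L[ℂ] H)),
      IsClosed (A : Set (H →L[ℂ] H)) ∧ IsClosed (B : Set (H →L[ℂ] H)) ∧
      TopologicalSpace.IsSeparable (A : Set (H →L[ℂ] H)) ∧
      TopologicalSpace.IsSeparable (B : Set (H →L[ℂ] H)) ∧
      (∀ a ∈ A, ‖a‖ ≤ 1 → ∃ b ∈ B, ‖b‖ ≤ 1 ∧ ‖a - b‖ < ε) ∧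
      (∀ b ∈ B, ‖b‖ ≤ 1 → ∃ a ∈ A, ‖a‖ ≤ 1 ∧ ‖b - a‖ < ε) ∧
      Set.centralizer (Set.centralizer (A : Set (H →L[ℂ] H))) =
        Set.centralizer (Set.centralizer (B : Set (H →L[ℂ] H))) ∧
      ¬ ∃ u : H →L[ℂ] H, u ∈ unitary (H →L[ℂ] H) ∧
          ∀ y : H →L[ℂ] H, y ∈ B ↔ ∃ x ∈ A, y = u * x * star u := by
  obtain ⟨s, hs0, hs1, hs2⟩ : ∃ s : ℝ, 0 < s ∧ s ≤ 1 / 12 ∧ 25 * s ≤ ε :=
    ⟨min (1 / 12) (ε / 25), by positivity, min_le_left _ _, by
      linarith [min_le_right (1 / 12) (ε / 25)]⟩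
  obtain ⟨n, hn⟩ := exists_nat_gt ((6 / s) ^ 2)
  obtain ⟨S⟩ := exists_PSys (covG (FreeGroup (Fin n))) hs0.le hs1
  obtain ⟨W, hW, hW1, hW2⟩ := exists_W (FreeGroup (Fin n))
  obtain ⟨Z, hZ, hZ1, hZ2⟩ := exists_Z S hs0.le
  let X : ExtD (HH (FreeGroup (Fin n))) := ⟨Ek _, Ek_mul, Ek_star, Ek_sum, DD (S.π 1), DD_sep _,
    fun d hd k l => DD_comm _ (Ek_Lg k l) (Ek_dg k l) d hd⟩
  let θ₀ := cj ((dgE (ℕ × FreeGroup (Fin n))).comp (Cr (FreeGroup (Fin n))).subtype) hW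
  let θ₁ := cj θ₀ hZ
  have e₀ : ∀ g, θ₀ (lamC g) = Lg _ g * dgE _ ((covG _).Λ g) := hW1
  have e₁ : ∀ g, θ₁ (lamC g) = Lg _ g * dgE _ (S.π 1 g) := fun g => by rw [cj_apply, e₀, hZ2]
  have h₀ : ∀ c, θ₀ c ∈ X.D := Cr_induction θ₀ (DD_closed _) fun g => by
    rw [e₀]; exact mul_mem (Lg_DD _ g) (Λ_DD _ g)
  have h₁ : ∀ c, θ₁ c ∈ X.D := Cr_induction θ₁ (DD_closed _) fun g => by
    rw [e₁]; exact mul_mem (Lg_DD _ g) (π_DD _ g)
  have i₀ : ∀ c, ‖θ₀ c‖ = ‖c‖ := fun c => (norm_cj hW _).trans (norm_dgE _)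
  have i₁ : ∀ c, ‖θ₁ c‖ = ‖c‖ := fun c => (norm_cj hZ _).trans (i₀ c)
  have hγ : ∀ c, ‖θ₀ c - θ₁ c‖ ≤ 12 * s * ‖c‖ := fun c => by
    have e : θ₀ c - θ₁ c = (θ₀ c * (Z - 1) - (Z - 1) * θ₀ c) * star Z := by
      rw [cj_apply, sub_mul, mul_sub, sub_mul, sub_mul, sub_mul, mul_assoc _ Z, hZ.2]
      noncomm_ring
    rw [e, CStarRing.norm_mul_mem_unitary _ (Unitary.star_mem hZ), ← i₀]
    have h1 := (norm_mul_le (θ₀ c) (Z - 1)).trans (mul_le_mul_of_nonneg_left hZ1 (norm_nonneg _))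
    have h2 := (norm_mul_le (Z - 1) (θ₀ c)).trans (mul_le_mul_of_nonneg_right hZ1 (norm_nonneg _))
    linarith [norm_sub_le (θ₀ c * (Z - 1)) ((Z - 1) * θ₀ c)]
  have := Cr_sep (G := FreeGroup (Fin n))
  have := ell.separable (Ξ := FreeGroup (Fin n)) (H := ℂ)
  refine ⟨HH (FreeGroup (Fin n)), inferInstance, inferInstance, inferInstance, ell.separable,
    X.AA θ₀ h₀, X.AA θ₁ h₁, X.AA_closed _ _ i₀, X.AA_closed _ _ i₁, X.AA_sep _ _, X.AA_sep _ _,
    fun a ha ha1 => ?_, fun a ha ha1 => ?_, by rw [X.AA_cent, X.AA_cent], ?_⟩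
  · obtain ⟨b, hb, hb1, h⟩ := X.AA_near θ₀ h₀ i₀ θ₁ h₁ (by positivity) hγ a ha ha1
    exact ⟨b, hb, hb1, by linarith⟩
  · obtain ⟨b, hb, hb1, h⟩ := X.AA_near θ₁ h₁ i₁ θ₀ h₀ (γ := 12 * s) (by positivity)
      (fun c => by rw [norm_sub_rev]; exact hγ c) a ha ha1
    exact ⟨b, hb, hb1, by linarith⟩
  rintro ⟨u, hu, h⟩
  obtain ⟨Γ, hΓ⟩ := X.conj (tr _) tr_comm tr_pos tr_faith h₀ h₁ i₀ i₁ hu h
  let y : Fin n → HH (FreeGroup (Fin n)) →L[ℂ] HH (FreeGroup (Fin n)) := fun i =>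
    star u * Rg _ (FreeGroup.of i) * u
  have hy : ∀ i, ∀ d ∈ X.D, d * y i = y i * d := fun i => by
    have h1 : Rg _ (FreeGroup.of i) ∈ Set.centralizer (X.AA θ₁ h₁ : Set _) := by
      rw [X.AA_cent]
      exact ⟨DD_comm _ (fun g => Rg_Lg g _) fun x => Rg_dg x _, fun k l => (Ek_Rg k l _).symm⟩
    have h2 : y i ∈ Set.centralizer (X.AA θ₀ h₀ : Set _) := fun x hx => by
      have := congrArg (fun T => star u * T * u) (h1 _ ((h _).2 ⟨x, hx, rfl⟩))
      simpa only [y, mul_assoc, hu.1, mul_one, ← mul_assoc (star u) u, one_mul] using this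
    rw [X.AA_cent] at h2
    exact h2.1
  have hy1 : ∀ i, ‖y i‖ ≤ 1 := fun i => by
    have := norm_cj (Unitary.star_mem hu) (Rg _ (FreeGroup.of i))
    rw [star_star] at this
    exact this.trans_le (cmp_norm_le _)
  have hmu : ∀ i a b, dgE _ (mu a b) * y i = y i * dgE _ (mu a b) := fun i a b =>
    hy i _ (mu_DD _ a b)
  have b1 := avg_gen ((covG (FreeGroup (Fin n))).map (dgE (ℕ × FreeGroup (Fin n)))) (a := 0) (b := 0)
    (c := 1) ⟨by simp, by simp⟩ ⟨by simp, by simp⟩ (by simp) (by simp) hy1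
    fun i T => comm_dgE_of_mu (hmu i) _
  simp only [Cov.gen_zero, zero_mul, sub_zero, Cov.map_Λ, Fintype.card_fin] at b1
  replace b1 := (tens_bound Γ (fun i => lamC (FreeGroup.of i)) hmu).trans b1
  have b2 : ‖∑ i, u * θ₀ (Γ (lamC (FreeGroup.of i))) * star u * Rg _ (FreeGroup.of i)‖ ≤ 6 * √n := by
    rw [← norm_cj hW, ← norm_cj hu, Finset.mul_sum, Finset.sum_mul, Finset.mul_sum,
      Finset.sum_mul] at b1
    refine le_of_eq_of_le (congrArg _ (Finset.sum_congr rfl fun i _ => ?_)) b1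
    have c1 := hW2 (y i) (fun g => hy i _ (Lg_DD _ g)) (hmu i)
    have c2 : y i * star W = star W * y i := by
      calc y i * star W = star W * (W * y i) * star W := by rw [← mul_assoc, hW.1, one_mul]
        _ = star W * y i := by rw [c1, ← mul_assoc, mul_assoc, hW.2, mul_one]
    rw [mul_assoc W, mul_assoc _ (y i), c2]
    simp only [y, θ₀, cj_apply, mul_assoc, hu.2, mul_one]
    rfl
  let ξ : ℕ → HH (FreeGroup (Fin n)) := fun k => Ek _ k 0 (ell.single (0, 1) (ell.single 1 1))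
  have lim : Tendsto (fun k => ∑ i, ⟪ξ k, (θ₁ (lamC (FreeGroup.of i)) -
      u * θ₀ (Γ (lamC (FreeGroup.of i))) * star u) (Rg _ (FreeGroup.of i) (ξ k))⟫_ℂ) atTop (𝓝 0) := by
    rw [← Finset.sum_const_zero (s := Finset.univ (α := Fin n))]
    refine tendsto_finsetSum _ fun i _ => ?_
    have := (hΓ (lamC (FreeGroup.of i))
      (Rg _ (FreeGroup.of i) (ell.single (0, 1) (ell.single 1 1)))).norm
    rw [norm_zero] at this
    refine squeeze_zero_norm (fun k => (norm_inner_le_norm _ _).trans_eq ?_) this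
    rw [norm_test, one_mul]
    congr 2
    exact congrArg (fun T : HH _ →L[ℂ] HH _ => T _) (Ek_Rg k 0 (FreeGroup.of i))
  have b3 : (n : ℝ) * s ≤ 6 * √n := by
    have := (lim.const_sub (n * s : ℂ)).norm
    rw [sub_zero, norm_mul, Complex.norm_natCast, Complex.norm_real, Real.norm_of_nonneg hs0.le] at this
    refine le_of_tendsto' this fun k => ?_
    have e : (n * s : ℂ) - ∑ i, ⟪ξ k, (θ₁ (lamC (FreeGroup.of i)) -
        u * θ₀ (Γ (lamC (FreeGroup.of i))) * star u) (Rg _ (FreeGroup.of i) (ξ k))⟫_ℂ =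
        ⟪ξ k, (∑ i, u * θ₀ (Γ (lamC (FreeGroup.of i))) * star u * Rg _ (FreeGroup.of i)) (ξ k)⟫_ℂ := by
      have t : ∀ i, ⟪ξ k, θ₁ (lamC (FreeGroup.of i)) (Rg _ (FreeGroup.of i) (ξ k))⟫_ℂ = s :=
        fun i => by rw [e₁]; exact test S i k
      simp only [ContinuousLinearMap.sub_apply, inner_sub_right, t, Finset.sum_sub_distrib,
        ContinuousLinearMap.sum_apply, inner_sum]
      simp
    rw [e]
    refine (norm_inner_le_norm _ _).trans ?_
    rw [norm_test, one_mul]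
    exact (ContinuousLinearMap.le_of_opNorm_le _ b2 _).trans_eq (by rw [norm_test, mul_one])
  have hn0 : (0 : ℝ) < n := lt_of_le_of_lt (sq_nonneg _) hn
  have h4 : 6 / s < √n := Real.lt_sqrt_of_sq_lt hn
  rw [div_lt_iff₀ hs0] at h4
  have h5 := Real.mul_self_sqrt hn0.le
  nlinarith [Real.sqrt_pos.2 hn0]

end Crest.Agent.S0105
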