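import Crest.Statements.S0122
import Crest.Agent.R92.Main

set_option autoImplicit false
open Crest.AnalysisR.MassAction
open Crest Crest.AnalysisR Crest.AnalysisR.MassAction

namespace Crest.Agent.S0122

/-- For a finite reaction network on `d ≥ 1` species that is weakly reversible, with positive rate constants and mass-action kinetics, every positive stoichiometric class `P` contains a nonempty compact convex set `K` that is forward invariant and absorbing: from every point of `P` there is a solution defined for all forward time, it is unique, it stays coordinatewise positive, and it lies in `K` from some finite time on. -/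
theorem result
    (d : ℕ) (hd : 1 ≤ d) (R : Network d) (hR : IsWeaklyReversible R)
    (k : (Fin d → ℕ) × (Fin d → ℕ) → ℝ) (hk : ∀ r ∈ R, 0 < k r)
    (c : Fin d → ℝ) (hc : ∀ i, 0 < c i) :
    ∃ K : Set (Fin d → ℝ), K ⊆ positiveClass R c ∧ K.Nonempty ∧ IsCompact K ∧ Convex ℝ K ∧
      (∀ x : ℝ → (Fin d → ℝ), IsForwardSolution (field R k) x → x 0 ∈ K →
        ∀ t : ℝ, 0 ≤ t → x t ∈ K) ∧
      (∀ x₀ ∈ positiveClass R c,
        (∃ x : ℝ → (Fin d → ℝ), IsForwardSolution (field R k) x ∧ x 0 = x₀) ∧
        (∀ x x' : ℝ → (Fin d → ℝ), IsForwardSolution (field R k) x →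
          IsForwardSolution (field R k) x' → x 0 = x₀ → x' 0 = x₀ →
          ∀ t : ℝ, 0 ≤ t → x t = x' t) ∧
        (∀ x : ℝ → (Fin d → ℝ), IsForwardSolution (field R k) x → x 0 = x₀ →
          (∀ t : ℝ, 0 ≤ t → ∀ i, 0 < x t i) ∧
          ∃ T : ℝ, 0 ≤ T ∧ ∀ t : ℝ, T ≤ t → x t ∈ K)) := by
  exact Crest.Agent.R92.main R hR k hk c hc

end Crest.Agent.S0122
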