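import Crest.Statements.S0144
import Crest.Agent.R109.Approx

set_option autoImplicit false
universe u
open Crest Crest.AnalysisR Crest.AnalysisR.OperatorAlgebra

namespace Crest.Agent.S0144

/-- For some constant C > 0 and every 0 < ε < 1, some natural number R ≤ C/ε⁶ has this property: for every von Neumann algebra M on a complex Hilbert space, every maximal abelian unital ⋆-subalgebra A of M, every self-adjoint x in M, every finite set F of vectors and δ > 0, there are a self-adjoint y in M with ‖y‖ ≤ 3‖x‖ and ‖(y − x)ξ‖ < δ for ξ in F, R pairwise orthogonal projections p_i in A with sum 1 (some may be 0), and a self-adjoint a in A with ‖a‖ ≤ ‖y‖ and ‖∑ p_i y p_i − a‖ ≤ ε‖y‖. -/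
theorem result :
    ∃ C : ℝ, 0 < C ∧ ∀ ε : ℝ, 0 < ε → ε < 1 → ∃ R : ℕ, (R : ℝ) ≤ C / ε ^ 6 ∧
      ∀ (H : Type u) [NormedAddCommGroup H] [InnerProductSpace ℂ H] [CompleteSpace H]
        (M : VonNeumannAlgebra H) (A : StarSubalgebra ℂ (H →L[ℂ] H)),
        A ≤ M.toStarSubalgebra → (∀ a ∈ A, ∀ b ∈ A, a * b = b * a) →
        (∀ y ∈ M, (∀ a ∈ A, a * y = y * a) → y ∈ A) →
        ∀ x ∈ M, IsSelfAdjoint x → ∀ (F : Finset H) (δ : ℝ), 0 < δ →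
          ∃ y ∈ M, IsSelfAdjoint y ∧ ‖y‖ ≤ 3 * ‖x‖ ∧ (∀ ξ ∈ F, ‖(y - x) ξ‖ < δ) ∧
            ∃ p : Fin R → (H →L[ℂ] H),
              (∀ i, p i ∈ A ∧ IsStarProjection (p i)) ∧ (∀ i j, i ≠ j → p i * p j = 0) ∧
              ∑ i, p i = 1 ∧
              ∃ a ∈ A, IsSelfAdjoint a ∧ ‖a‖ ≤ ‖y‖ ∧ ‖∑ i, p i * y * p i - a‖ ≤ ε * ‖y‖ := by
  obtain ⟨C, hC, h⟩ := Crest.Agent.R109.approx_main.{u}
  refine ⟨C, hC, fun ε h0 h1 => ?_⟩
  obtain ⟨R, hR, h2⟩ := h ε h0 h1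
  refine ⟨R, hR, fun H _ _ _ M A hAM hA hAmax x hxM hx F δ hδ => ?_⟩
  obtain ⟨y, a1, a2, a3, a4, p, hp, a5⟩ :=
    h2 H M A ⟨fun a ha => hAM ha, hA, hAmax⟩ x hxM hx F δ hδ
  exact ⟨y, a1, a2, a3, a4, p, hp.pa, hp.orth, hp.sum, a5⟩

end Crest.Agent.S0144
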