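import Crest.Statements.S0145
import Crest.Agent.R110.Main

set_option autoImplicit false
open Crest Crest.AnalysisR Crest.AnalysisR.OperatorAlgebra

namespace Crest.Agent.S0145

/-- Let C be a complex C⋆-algebra, possibly without unit, in which every positive element h is properly infinite (for every ε > 0 some r, s satisfy ‖r⋆hr − h‖ < ε, ‖s⋆hs − h‖ < ε, ‖r⋆hs‖ < ε; this is h ⊕ h ≾ h written entrywise). Then for all positive a, b, every c and every ε > 0 there are s, t in C with ‖s⋆as − a‖ < ε, ‖t⋆bt − b‖ < ε and ‖s⋆ct‖ < ε. Positive elements are those of the form x⋆x. -/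
theorem result
    (C : Type*) [NonUnitalCStarAlgebra C]
    (hC : ∀ x : C, Crest.OpAlg.IsProperlyInfinite (star x * x))
    (a b c : C) (ha : ∃ x : C, a = star x * x) (hb : ∃ y : C, b = star y * y) (ε : ℝ) (hε : 0 < ε) :
    ∃ s t : C, ‖star s * a * s - a‖ < ε ∧ ‖star t * b * t - b‖ < ε ∧ ‖star s * c * t‖ < ε := by
  letI := CStarAlgebra.spectralOrder (Unitization ℂ C)
  haveI := CStarAlgebra.spectralOrderedRing (Unitization ℂ C)
  have hI : R110.Ctx (Set.range ((↑) : C → Unitization ℂ C)) := by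
    refine ⟨?_, ?_, ?_, ?_, ?_⟩
    · rintro _ ⟨x, rfl⟩ _ ⟨y, rfl⟩
      exact ⟨x + y, by simp⟩
    · rintro y _ ⟨x, rfl⟩
      refine ⟨y.fst • x + y.snd * x, ?_⟩
      conv_rhs => rw [← Unitization.inl_fst_add_inr_snd_eq y]
      simp [add_mul, Unitization.inl_mul_inr]
    · rintro y _ ⟨x, rfl⟩
      refine ⟨y.fst • x + x * y.snd, ?_⟩
      conv_rhs => rw [← Unitization.inl_fst_add_inr_snd_eq y]
      simp [mul_add, Unitization.inr_mul_inl]
    · rintro _ ⟨x, rfl⟩
      exact ⟨star x, by simp⟩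
    · rintro _ ⟨x, rfl⟩ δ hδ
      obtain ⟨r, s, h1, h2, h3⟩ := hC x δ hδ
      refine ⟨r, s, ?_, ?_, ?_⟩
      · rw [← Unitization.norm_inr (𝕜 := ℂ)] at h1; simpa using h1
      · rw [← Unitization.norm_inr (𝕜 := ℂ)] at h2; simpa using h2
      · rw [← Unitization.norm_inr (𝕜 := ℂ)] at h3; simpa using h3
  obtain ⟨x, rfl⟩ := ha
  obtain ⟨y, rfl⟩ := hb
  obtain ⟨_, ⟨s, rfl⟩, _, ⟨t, rfl⟩, h1, h2, h3⟩ := R110.main' hI ⟨star x * x, rfl⟩ ⟨star y * y, rfl⟩
    (by simpa using star_mul_self_nonneg (x : Unitization ℂ C))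
    (by simpa using star_mul_self_nonneg (y : Unitization ℂ C)) (c : Unitization ℂ C) hε
  refine ⟨s, t, ?_, ?_, ?_⟩
  · rw [← Unitization.norm_inr (𝕜 := ℂ)]; simpa using h1
  · rw [← Unitization.norm_inr (𝕜 := ℂ)]; simpa using h2
  · rw [← Unitization.norm_inr (𝕜 := ℂ)]; simpa using h3

end Crest.Agent.S0145
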