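import Crest.Statements.S0148
import Crest.Agent.R113.Hyp

set_option autoImplicit false
open Filter Topology
open Crest Crest.AnalysisR Crest.AnalysisR.OperatorAlgebra

namespace Crest.Agent.S0148

/-- On every infinite-dimensional separable complex Hilbert space there is a nonzero bounded operator T with ‖Tⁿ‖^(1/n) → 0 as n → ∞ such that the only closed subspaces mapped into themselves by every bounded operator commuting with T are the zero subspace and the whole space. -/
theorem result
    (H : Type*) [NormedAddCommGroup H] [InnerProductSpace ℂ H] [CompleteSpace H]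
    [TopologicalSpace.SeparableSpace H] (hH : ¬ FiniteDimensional ℂ H) :
    ∃ T : H →L[ℂ] H, T ≠ 0 ∧
      Tendsto (fun n : ℕ => ‖T ^ n‖ ^ (1 / (n : ℝ))) atTop (𝓝 0) ∧
      ∀ V : Submodule ℂ H, IsClosed (V : Set H) →
        (∀ A : H →L[ℂ] H, A * T = T * A → ∀ v ∈ V, A v ∈ V) → V = ⊥ ∨ V = ⊤ := by
  haveI := R113.fibre_separable
  obtain ⟨b⟩ := R113.exists_basis_nat H hH
  obtain ⟨b'⟩ := R113.exists_basis_nat _ R113.fibre_infinite
  exact R113.hyper_transport (b'.repr.trans b.repr.symm) R113.fibre_hyper

end Crest.Agent.S0148
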