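import Crest.Statements.S0149
import Crest.Agent.R113.Main
import Crest.Agent.R113.SepA
import Crest.Agent.R113.Phi
import Crest.Agent.R113.Trans

set_option autoImplicit false
open Crest.AnalysisR.RotationRep
open Crest Crest.AnalysisR Crest.AnalysisR.RotationRep

namespace Crest.Agent.S0149

/-- For every irrational θ in (0,1) there is a continuous real function f on ℂ, with values in [0,1] on the unit circle and vanishing there exactly at 1, with ∫ log f = −∞ over the circle (the lower integral of −log f(e^{it}) over (0, 2π] is infinite), such that for the generators U, V of the rotation algebra with angle θ in its left regular representation on ℓ²(ℤ × ℤ), each projection p in the von Neumann algebra of U, V with (1 − p) U f(V) p = 0 is 0 or 1 (f(V) by functional calculus). -/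
theorem result
    (θ : ℝ) (hθ₁ : Irrational θ) (hθ₂ : 0 < θ) (hθ₃ : θ < 1) :
    ∃ f : ℂ → ℝ, Continuous f ∧ (∀ z : ℂ, ‖z‖ = 1 → 0 ≤ f z ∧ f z ≤ 1) ∧
      (∀ z : ℂ, ‖z‖ = 1 → (f z = 0 ↔ z = 1)) ∧
      (∫⁻ t in Set.Ioc (0 : ℝ) (2 * Real.pi),
          ENNReal.ofReal (- Real.log (f (Complex.exp ((t : ℂ) * Complex.I)))) = ⊤) ∧
      ∀ U V : lp (fun _ : ℤ × ℤ => ℂ) 2 →L[ℂ] lp (fun _ : ℤ × ℤ => ℂ) 2, IsRotationPair θ U V →
        ∀ p : lp (fun _ : ℤ × ℤ => ℂ) 2 →L[ℂ] lp (fun _ : ℤ × ℤ => ℂ) 2,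
          p ∈ vonNeumannGenerated {U, V} → IsStarProjection p →
          (1 - p) * (U * cfc (fun z : ℂ => (f z : ℂ)) V) * p = 0 → p = 0 ∨ p = 1 := by
  obtain ⟨L⟩ := R113.exists_lev hθ₁
  have hU : ∀ i, L.i₀ ≤ i → (⋃ l ∈ Set.Ici i, L.W (max l L.i₀)) = L.S i := by
    intro i hi
    refine Set.iUnion₂_congr fun l hl => ?_
    rw [max_eq_left (hi.trans hl)]
  have hmono : Monotone fun i => R113.NN (max i L.i₀) := fun i j hij =>
    Nat.mul_le_mul_left _ (Nat.pow_le_pow_right (by norm_num) (max_le_max_right _ hij))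
  have htend : Filter.Tendsto (fun i => R113.NN (max i L.i₀)) Filter.atTop Filter.atTop := by
    refine Filter.tendsto_atTop_mono (fun i => ?_) Filter.tendsto_id
    have h1 : max i L.i₀ < 1000 ^ max i L.i₀ := Nat.lt_pow_self (by norm_num)
    have h2 := le_max_left i L.i₀
    simp only [id, R113.NN]
    omega
  obtain ⟨F, φ, hF, hF1, hF0, hφ, hI, ⟨d⟩⟩ := R113.exists_phi (θ := θ)
    (fun l => L.W (max l L.i₀)) (fun i => R113.NN (max i L.i₀)) (fun i => L.y (max i L.i₀))
    (fun i => L.W_closed _) (fun i h => L.J_zero _ h.1) (fun i x hx => L.J_small _ x hx.1)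
    (L.y_tend.comp (Filter.tendsto_atTop_mono (fun i => le_max_left i L.i₀) Filter.tendsto_id))
    (fun i => L.hit_W (le_max_right _ _)) hmono htend
    (L.S_tend.congr' (Filter.eventually_atTop.2 ⟨L.i₀, fun i hi => by simp only [hU i hi]⟩))
    (L.sep.congr hU fun i hi => by rw [max_eq_left hi])
  obtain ⟨f, hf, hf1, hf0, hfI, hfF⟩ := R113.exists_f hF hF1 hF0 hφ hI
  refine ⟨f, hf, hf1, hf0, hfI, fun U V hUV p hp hp' hinv => ?_⟩
  obtain ⟨P, hP, hPi, h0, h1⟩ := R113.transport hf hUV hp hp' hinv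
  have hπ : (R113.rot θ).π (fun x => f (fourier 1 x)) =
      (R113.rot θ).π (fun x => Real.exp (-φ x)) := by
    refine R113.Sys.π_congr ?_ ?_ ?_
    · simp only [hfF]
      exact R113.Bd.of_bound hF.measurable hF1
    · exact R113.Bd.of_bound (Real.measurable_exp.comp d.φ_meas.neg) (a := 0) (b := 1) fun x =>
        ⟨(Real.exp_pos _).le, Real.exp_le_one_iff.2 (neg_nonpos.2 (d.φ_nonneg x))⟩
    · have hz : ∀ᵐ x ∂(R113.rot θ).μ, x ≠ 0 := R113.ae_ne_zero
      filter_upwards [hz] with x hx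
      rw [hfF, hφ x hx]
  have hPi' : (R113.rot θ).Inv P fun x => Real.exp (-φ x) := by
    unfold R113.Sys.Inv at hPi ⊢
    rwa [hπ] at hPi
  exact (R113.main d (R113.rot_erg hθ₁) hP hPi').imp h0 h1

end Crest.Agent.S0149
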