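import Crest.Statements.S0150
import Crest.Agent.R113.Fib

set_option autoImplicit false
open Crest.AnalysisR.TwoAdic MeasureTheory
attribute [local instance] Crest.AnalysisR.TwoAdic.borelTwoAdic Crest.AnalysisR.TwoAdic.borelSpace_twoAdic
open Crest Crest.AnalysisR Crest.AnalysisR.TwoAdic

namespace Crest.Agent.S0150

/-- On L²(ℤ₂; ℓ²(ℤ)) (2-adic integers, Haar probability) measurable weights β_j > 0, b_j ∈ [0,1] give fibre shifts S_x δ_j = β_j(x) δ_{j+1} forming a bounded S and a contraction V commuting with S, acting along x ↦ x + 1 by V_x δ_j = b_j(x) δ_{j−1}, with: each S_x has exactly the tails, 0, ℓ²(ℤ) as closed invariant subspaces; ‖S‖ = e^{−10}, ‖Sⁿ‖ ≤ exp(−10⌊(n+1)²/4⌋); off a null set b_j > 0 and V_x maps each tail densely into the next lower one; S, V and bounded multipliers act transitively. -/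
theorem result :
    ∃ (β b : ℤ → ℤ_[2] → ℝ) (Sfib Vfib : ℤ_[2] → (seqHilbert →L[ℂ] seqHilbert))
      (S V : fibreSpace →L[ℂ] fibreSpace),
      (∀ j, Measurable (β j)) ∧ (∀ j x, 0 < β j x) ∧
      (∀ x j, Sfib x (basisVec j) = (β j x : ℂ) • basisVec (j + 1)) ∧
      (∀ f : fibreSpace, ∀ᵐ x ∂haarTwoAdic, (S f : ℤ_[2] → seqHilbert) x = Sfib x ((f : ℤ_[2] → seqHilbert) x)) ∧
      (∀ x, ∀ W : Submodule ℂ seqHilbert, IsClosed (W : Set seqHilbert) →
        ((∀ v ∈ W, Sfib x v ∈ W) ↔ (W = ⊥ ∨ W = ⊤ ∨ ∃ h : ℤ, W = tailSpace h))) ∧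
      S ≠ 0 ∧ ‖S‖ = Real.exp (-10) ∧
      (∀ n : ℕ, 1 ≤ n → ‖S ^ n‖ ≤ Real.exp (-10 * (((n + 1) ^ 2 / 4 : ℕ) : ℝ))) ∧
      ‖V‖ ≤ 1 ∧ V * S = S * V ∧
      (∀ j, Measurable (b j)) ∧ (∀ j x, 0 ≤ b j x ∧ b j x ≤ 1) ∧
      (∀ x j, Vfib x (basisVec j) = (b j x : ℂ) • basisVec (j - 1)) ∧
      (∀ f : fibreSpace, ∀ᵐ x ∂haarTwoAdic,
        (V f : ℤ_[2] → seqHilbert) (x + 1) = Vfib x ((f : ℤ_[2] → seqHilbert) x)) ∧
      (∃ N : Set ℤ_[2], haarTwoAdic N = 0 ∧ ∀ x, x ∉ N →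
        (∀ j, 0 < b j x) ∧
        (∀ h : ℤ, closure (Vfib x '' (tailSpace h : Set seqHilbert)) = (tailSpace (h - 1) : Set seqHilbert)) ∧
        closure (Set.range (Vfib x)) = Set.univ) ∧
      (∀ W : Submodule ℂ fibreSpace, IsClosed (W : Set fibreSpace) →
        (∀ f ∈ W, S f ∈ W) → (∀ f ∈ W, V f ∈ W) →
        (∀ g : ℤ_[2] → ℂ, Measurable g → (∃ C : ℝ, ∀ x, ‖g x‖ ≤ C) →
          ∀ f ∈ W, ∀ f' : fibreSpace,
            (∀ᵐ x ∂haarTwoAdic, (f' : ℤ_[2] → seqHilbert) x = g x • (f : ℤ_[2] → seqHilbert) x) → f' ∈ W) →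
        W = ⊥ ∨ W = ⊤) := by
  obtain ⟨u, b, hum, hu, hu0, hbm, hb, hb0, hrel⟩ := R113.exists_weights
  have hb1 : ∀ j x, |b j x| ≤ 1 := fun j x => by rw [abs_of_nonneg (hb j x).1]; exact (hb j x).2
  have hβm : ∀ j, Measurable fun x => Real.exp (-u j x) := fun j =>
    Real.measurable_exp.comp (hum j).neg
  have hA : ∀ x, ‖R113.wsh (fun j => Real.exp (-u j x)) 1‖ ≤ Real.exp (-10) := fun x =>
    R113.norm_le_of_apply (Real.exp_pos _).le (hu x).abs_le
      (R113.wsh_apply (hu x).abs_le_one)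
  have hB : ∀ x, ‖R113.wsh (fun j => b j x) (-1)‖ ≤ 1 := fun x =>
    R113.norm_le_of_apply zero_le_one (fun j => hb1 j x) (R113.wsh_apply fun j => hb1 j x)
  obtain ⟨S, hSn, hS⟩ := R113.exists_field (fun x => R113.wsh (fun j => Real.exp (-u j x)) 1)
    (Real.exp_pos _).le hA
    (fun f hf => R113.meas_wsh hβm (fun j x => (hu x).abs_le_one j) 1 hf) 0
  simp only [add_zero] at hS
  obtain ⟨V, hVn, hV⟩ := R113.exists_field (fun x => R113.wsh (fun j => b j x) (-1))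
    zero_le_one hB (fun f hf => R113.meas_wsh hbm hb1 (-1) hf) 1
  have hSge : Real.exp (-10) ≤ ‖S‖ := R113.field_norm_ge hS (Real.exp_pos _).le fun x => by
    rw [R113.wsh_basis (hu x).abs_le_one, hu0 x, zero_add]
  refine ⟨fun j x => Real.exp (-u j x), b, fun x => R113.wsh (fun j => Real.exp (-u j x)) 1,
    fun x => R113.wsh (fun j => b j x) (-1), S, V, hβm, fun j x => Real.exp_pos _,
    fun x j => R113.wsh_basis (hu x).abs_le_one j, hS, fun x W hW => (hu x).unicell W hW, ?_,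
    le_antisymm hSn hSge, fun n _ => ?_, hVn, ?_, hbm, hb, fun x j => ?_, hV,
    ⟨{-1}, R113.haar_singleton _, fun x hx => ⟨fun j => hb0 j x hx, fun h => ?_, ?_⟩⟩,
    R113.transitive hu hb hb0 hS hV⟩
  · rintro rfl
    rw [norm_zero] at hSge
    exact absurd hSge (not_le.2 (Real.exp_pos _))
  · exact R113.field_norm (A := fun x => R113.wsh (fun j => Real.exp (-u j x)) 1 ^ n)
      (R113.field_pow hS n) (Real.exp_pos _).le fun x => (hu x).norm_pow n
  · refine R113.field_comm hS hV fun x => ?_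
    ext1 v
    apply lp.ext
    funext j
    have e1 := R113.wsh_apply (e := -1) (fun j => hb1 j x)
      (R113.wsh (fun j => Real.exp (-u j x)) 1 v) (j + 1)
    have e2 := R113.wsh_apply (e := 1) (hu x).abs_le_one v j
    have e3 := R113.wsh_apply (e := 1) (hu (x + 1)).abs_le_one
      (R113.wsh (fun j => b j x) (-1) v) (j + -1)
    have e4 := R113.wsh_apply (e := -1) (fun j => hb1 j x) v j
    rw [show j + 1 + -1 = j by ring] at e1
    rw [show j + -1 + 1 = j by ring] at e3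
    have e5 := congrArg (fun t : ℝ => (t : ℂ)) (hrel j x)
    simp only [Complex.ofReal_mul] at e5
    show (R113.wsh (fun j => b j x) (-1) (R113.wsh (fun j => Real.exp (-u j x)) 1 v)) j =
      (R113.wsh (fun j => Real.exp (-u j (x + 1))) 1 (R113.wsh (fun j => b j x) (-1) v)) j
    rw [e1, e2, e3, e4, ← sub_eq_add_neg]
    linear_combination (v : ℤ → ℂ) j * e5
  · rw [R113.wsh_basis (fun j => hb1 j x), sub_eq_add_neg]
  · exact R113.closure_image_tail (fun j => hb1 j x) (fun j => hb0 j x hx) h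
  · exact R113.closure_range (fun j => hb1 j x) fun j => hb0 j x hx

end Crest.Agent.S0150
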