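import Crest.Statements.S0158
import Crest.Agent.R118.WalshB
import Crest.Agent.R118.TypeD
import Crest.Agent.R118P.Pisier

set_option autoImplicit false
open Crest.AnalysisR
open Crest Crest.AnalysisR

namespace Crest.Agent.S0158

/-- Let X be a nonzero real Banach space with the approximation property. If X has Rademacher cotype q with some constant and its dual space has Rademacher cotype r with some constant, for some q, r ≥ 2 (possibly different), then X is K-convex: its Rademacher projections are bounded on L₂ of the sign cubes uniformly in the dimension. Averages over signs are exact finite averages. -/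
theorem result
    (X : Type*) [NormedAddCommGroup X] [NormedSpace ℝ X] [CompleteSpace X] [Nontrivial X]
    (hAP : HasApproximationProperty X) (q r C D : ℝ) (hq : 2 ≤ q) (hr : 2 ≤ r)
    (hX : HasRademacherCotype X q C)
    (hX' : HasRademacherCotype (StrongDual ℝ X) r D) :
    IsKConvex X := by
  obtain ⟨A, ρ, hA, hρ, hρ1, hW⟩ := Crest.Agent.R118.walsh hAP q r C D hq hr hX hX'
  obtain ⟨J0, hJ⟩ := Crest.Agent.R118.typeDecay_of_walsh hA hρ hρ1 hW
  exact Crest.Agent.R118P.isKConvex_of_typeDecay X J0 hJ

end Crest.Agent.S0158
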