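import Crest.Statements.S0160
import Crest.Agent.R120.Irrep
import Crest.Agent.R120.Simple

set_option autoImplicit false
open Crest Crest.AnalysisR Crest.AnalysisR.OperatorAlgebra

namespace Crest.Agent.S0160

/-- There is a unital complex C⋆-algebra A that is infinite-dimensional, is simple (its only closed two-sided ideals are the zero ideal and A), carries a faithful tracial state, and whose irreducible representations on complex Hilbert spaces are pairwise unitarily equivalent. A representation is a ⋆-homomorphism into the bounded operators on a Hilbert space, not required to preserve the unit; irreducible ones are nonzero by definition; A and the Hilbert spaces are taken in the lowest universe. -/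
theorem result :
    ∃ (A : Type) (_ : CStarAlgebra A),
      ¬ FiniteDimensional ℂ A ∧
      (∀ I : TwoSidedIdeal A, IsClosed (I : Set A) → I = ⊥ ∨ I = ⊤) ∧
      (∃ τ : A →ₗ[ℂ] ℂ, Crest.OpAlg.IsFaithfulTracialState τ) ∧
      ∀ (H₁ : Type) [NormedAddCommGroup H₁] [InnerProductSpace ℂ H₁] [CompleteSpace H₁]
        (H₂ : Type) [NormedAddCommGroup H₂] [InnerProductSpace ℂ H₂] [CompleteSpace H₂]
        (π₁ : A →⋆ₙₐ[ℂ] (H₁ →L[ℂ] H₁)) (π₂ : A →⋆ₙₐ[ℂ] (H₂ →L[ℂ] H₂)),
        Crest.OpAlg.IsIrreducibleRep π₁ → Crest.OpAlg.IsIrreducibleRep π₂ →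
          Crest.OpAlg.AreUnitarilyEquivalent π₁ π₂ := by
  obtain ⟨L, hL⟩ := R120.exists_fam
  refine ⟨R120.Alg L, inferInstance, R120.not_finiteDimensional L, hL.simple,
    ⟨(R120.τ : R120.B →ₗ[ℂ] ℂ) ∘ₗ (R120.Alg L).subtype.toLinearMap, R120.τ_one, fun a => ?_,
      fun a ha => Subtype.ext (hL.faithful a.2 ha),
      fun a b => R120.τ_comm (hL.mem_R a.2) (hL.mem_R b.2)⟩, ?_⟩
  · have h : ((R120.τ : R120.B →ₗ[ℂ] ℂ) ∘ₗ (R120.Alg L).subtype.toLinearMap) (star a * a) =
        ((‖(a : R120.B) R120.Ω‖ ^ 2 : ℝ) : ℂ) := R120.τ_star_mul_self a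
    rw [h, Complex.ofReal_im, Complex.ofReal_re]
    exact ⟨rfl, by positivity⟩
  · intro H₁ _ _ _ H₂ _ _ _ π₁ π₂ h₁ h₂
    obtain ⟨σ₁, e₁, i₁, ξ₁, n₁⟩ := R120.exists_unital π₁ h₁.1 h₁.2
    obtain ⟨σ₂, e₂, i₂, ξ₂, n₂⟩ := R120.exists_unital π₂ h₂.1 h₂.2
    obtain ⟨U, hU⟩ := hL.equiv i₁ i₂ n₁ n₂
    exact ⟨U, fun a v => by rw [← e₁, ← e₂, hU]⟩

end Crest.Agent.S0160
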