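import Crest.Statements.S0163
import Crest.Agent.R123.Hopf
import Crest.Agent.R123.Manif

set_option autoImplicit false
open scoped Manifold ContDiff
open Crest Crest.AnalysisR

namespace Crest.Agent.S0163

open Crest.Agent.R123 in
/-- There is a compact smooth manifold without boundary (of some finite dimension, modelled on Euclidean space, with a compatible metric) carrying a continuously differentiable self-map whose topological entropy is zero while the map it induces on second singular homology with real coefficients has `2` as an eigenvalue; so topological entropy can be strictly smaller than the logarithm of the homological spectral radius for `C¹` self-maps. -/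
theorem result :
    ∃ (n : ℕ) (M : Type) (_ : MetricSpace M) (_ : CompactSpace M) (_ : Nonempty M)
      (_ : ChartedSpace (EuclideanSpace ℝ (Fin n)) M)
      (_ : IsManifold (modelWithCornersSelf ℝ (EuclideanSpace ℝ (Fin n))) ∞ M)
      (f : C(M, M)),
      ContMDiff (modelWithCornersSelf ℝ (EuclideanSpace ℝ (Fin n)))
          (modelWithCornersSelf ℝ (EuclideanSpace ℝ (Fin n))) 1 ⇑f ∧
        Dynamics.coverEntropy ⇑f Set.univ = 0 ∧
        Module.End.HasEigenvalue
          (((AlgebraicTopology.singularHomologyFunctor (ModuleCat.{0} ℝ) 2).obj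
              (ModuleCat.of ℝ ℝ)).map (TopCat.ofHom f)).hom (2 : ℝ) := by
  obtain ⟨δ, h0, h1, hrd⟩ := exists_read
  have hf := contMDiff_ff h0 hrd
  let L : (EuclideanSpace ℝ (Fin 1) × EuclideanSpace ℝ (Fin 2) × EuclideanSpace ℝ (Fin 5)) ≃L[ℝ]
      EuclideanSpace ℝ (Fin 8) := ContinuousLinearEquiv.ofFinrankEq (by simp)
  have : Nonempty MM := ⟨JJ (0, ⟨(1, 1), by simp⟩)⟩
  exact ⟨8, MM, inferInstance, inferInstance, inferInstance, trCS II L MM, tr_isManifold II L,
    ⟨ff h0, hf.continuous⟩, tr_contMDiff II L hf,
    coverEntropy_eq_zero hf.continuous (disp_tendsto h0 h1), eigen_ff h0 hf.continuous⟩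

end Crest.Agent.S0163
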