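import Crest.Statements.S0166
import Crest.Agent.R125.Blocks

set_option autoImplicit false
open Crest Crest.AnalysisR

namespace Crest.Agent.S0166

/-- There is a real Banach space (RealBanach record) that is separable, infinite-dimensional and reflexive, whose given norm has at every t > 0 averaged midpoint asymptotic modulus at least √(1 + t²/12) - 1 and at least (√(1 + t²/4) - 1)/2 and maximum-based midpoint modulus at least √(1 + t²/4) - 1, on which no equivalent norm is asymptotically uniformly convex, and in which for every k every map of the depth-k countably branching diamond graph of distortion at most D has 1 + k/4 ≤ D². -/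
theorem result :
    ∃ E : Crest.AnalysisR.RealBanach, E.IsSeparableInfiniteDim ∧ E.IsReflexive ∧
      (∀ t : ℝ, 0 < t → E.MidpointModulusGE E.norm t (Real.sqrt (1 + t ^ 2 / 12) - 1) ∧
        E.MidpointModulusGE E.norm t ((Real.sqrt (1 + t ^ 2 / 4) - 1) / 2) ∧
        E.MaxMidpointModulusGE E.norm t (Real.sqrt (1 + t ^ 2 / 4) - 1)) ∧
      (∀ N : E.X → ℝ, E.IsEquivNorm N → ¬ E.IsAUC N) ∧
      ∀ (k : ℕ) (f : Crest.AnalysisR.DiamondVertex k → E.X) (D : ℝ),
        E.HasDistortionLE k f D → 1 + (k : ℝ) / 4 ≤ D ^ 2 := by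
  have h := Crest.Agent.R125.not_auc_of_good (X := Crest.Agent.R125.EE)
    one_pos Crest.Agent.R125.good_EE
  refine ⟨⟨Crest.Agent.R125.EE, inferInstance, inferInstance, inferInstance⟩,
    ⟨Crest.Agent.R125.separable_l2,
      Crest.Agent.R125.infinite_of_not_auc (X := Crest.Agent.R125.EE) h⟩,
    Crest.Agent.R125.refl_EE, fun t ht => ⟨?_, ?_, ?_⟩, h, ?_⟩
  · intro (x : Crest.Agent.R125.EE) (hx : ‖x‖ = 1) η hη
    obtain ⟨F, hF, hy⟩ := Crest.Agent.R125.moduli_EE x hx ht hη
    exact ⟨F, hF, fun y hyF hy1 => (hy y hyF hy1).1⟩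
  · intro (x : Crest.Agent.R125.EE) (hx : ‖x‖ = 1) η hη
    obtain ⟨F, hF, hy⟩ := Crest.Agent.R125.moduli_EE x hx ht hη
    exact ⟨F, hF, fun y hyF hy1 => (hy y hyF hy1).2.1⟩
  · intro (x : Crest.Agent.R125.EE) (hx : ‖x‖ = 1) η hη
    obtain ⟨F, hF, hy⟩ := Crest.Agent.R125.moduli_EE x hx ht hη
    exact ⟨F, hF, fun y hyF hy1 => (hy y hyF hy1).2.2⟩
  · rintro k f D ⟨s, hs, hf⟩
    exact Crest.Agent.R125.diamond_distortion (Y := Crest.Agent.R125.EE)
      Crest.Agent.R125.midSq_EE k f D s hs hf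

end Crest.Agent.S0166
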