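import Crest.Statements.S0167
import Crest.Agent.R125.Daugavet
import Crest.Agent.R125.L1Sub

set_option autoImplicit false
open Crest Crest.AnalysisR

namespace Crest.Agent.S0167

/-- Let E be an infinite-dimensional closed subspace of the real L¹ of a probability space whose closed unit ball is totally bounded for convergence in measure and whose norm has the Daugavet property. Then at every unit x ∈ E and every t > 0 the averaged midpoint quantity sup_F inf_y ((‖x+ty‖+‖x-ty‖)/2 - 1) equals max(t/2, t-1) and the one-sided one sup_F inf_y (‖x+ty‖ - 1) equals max(0, t-2), as matching lower and upper bounds, and E admits no equivalent asymptotically uniformly convex norm. -/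
theorem result (Ω : Type) [MeasurableSpace Ω] (P : MeasureTheory.Measure Ω) [MeasureTheory.IsProbabilityMeasure P]
    (E : Submodule ℝ (MeasureTheory.Lp ℝ 1 P)) (hcl : IsClosed (E : Set (MeasureTheory.Lp ℝ 1 P)))
    (hinf : ¬ FiniteDimensional ℝ E)
    (htb : Crest.AnalysisR.L1Subspace.UnitBallTotallyBoundedInMeasure P E)
    (hD : Crest.AnalysisR.L1Subspace.HasDaugavetProperty E) :
    (∀ t : ℝ, 0 < t →
      (Crest.AnalysisR.L1Subspace.toRealBanach P E hcl).MidpointModulusGE
          (Crest.AnalysisR.L1Subspace.toRealBanach P E hcl).norm t (max (t / 2) (t - 1)) ∧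
        (Crest.AnalysisR.L1Subspace.toRealBanach P E hcl).MidpointModulusLE
          (Crest.AnalysisR.L1Subspace.toRealBanach P E hcl).norm t (max (t / 2) (t - 1)) ∧
        (Crest.AnalysisR.L1Subspace.toRealBanach P E hcl).OneSidedModulusGE
          (Crest.AnalysisR.L1Subspace.toRealBanach P E hcl).norm t (max 0 (t - 2)) ∧
        (Crest.AnalysisR.L1Subspace.toRealBanach P E hcl).OneSidedModulusLE
          (Crest.AnalysisR.L1Subspace.toRealBanach P E hcl).norm t (max 0 (t - 2))) ∧
      ∀ N : E → ℝ, (Crest.AnalysisR.L1Subspace.toRealBanach P E hcl).IsEquivNorm N →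
        ¬ (Crest.AnalysisR.L1Subspace.toRealBanach P E hcl).IsAUC N := by
  classical
  have hnt : Nontrivial E := by
    by_contra h
    rw [not_nontrivial_iff_subsingleton] at h
    exact hinf (Module.Finite.of_finite)
  have hlow : ∀ (x : E), ‖x‖ = 1 → ∃ ψ : E →L[ℝ] ℝ, ∀ y : E, ψ y = 0 → 1 ≤ ‖x + y‖ := by
    intro x hx
    obtain ⟨ψ, hψ1, hψ2⟩ := exists_dual_vector'' ℝ x
    refine ⟨ψ, fun y hy => ?_⟩
    have h1 := ψ.le_opNorm (x + y)
    rw [map_add, hy, hψ2, add_zero, hx] at h1
    have h2 := mul_le_mul_of_nonneg_right hψ1 (norm_nonneg (x + y))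
    simp only [RCLike.ofReal_one, norm_one] at h1
    linarith
  refine ⟨fun t ht => ⟨?_, ?_, ?_, ?_⟩, fun N hN =>
    Crest.Agent.R125.not_auc_of_good (X := E) (c := 1 / 2) (C := 1) (by norm_num)
      (Crest.Agent.R125.good_of_daugavet hD) N hN⟩
  · intro (x : E) (hx : ‖x‖ = 1) η hη
    obtain ⟨ε, hε, hmid⟩ := Crest.Agent.R125.mid_lower (P := P) (x : MeasureTheory.Lp ℝ 1 P) hx ht hη
    obtain ⟨s, -, hs⟩ := htb ε hε
    refine ⟨Crest.Agent.R125.kerSet (X := E)
      (s.image fun g => (Crest.Agent.R125.sgFun g).comp E.subtypeL),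
      Crest.Agent.R125.cof_kerSet (X := E) _, ?_⟩
    intro (y : E) hyF (hy : ‖y‖ = 1)
    change max (t / 2) (t - 1) - η ≤ (‖x + t • y‖ + ‖x - t • y‖) / 2 - 1
    obtain ⟨g, hg, hgd⟩ := hs y y.2 hy.le
    have h1 := hmid y g hy (hyF _ (Finset.mem_image_of_mem _ hg)) hgd
    have h2 : 2 * t ≤ ‖x + t • y‖ + ‖x - t • y‖ := by
      have := norm_sub_le (x + t • y) (x - t • y)
      rw [show x + t • y - (x - t • y) = (2 * t) • y by module, norm_smul, hy, Real.norm_eq_abs,
        abs_of_pos (by linarith)] at this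
      linarith
    have h3 : t / 2 - η ≤ (‖x + t • y‖ + ‖x - t • y‖) / 2 - 1 := h1
    rcases max_cases (t / 2) (t - 1) with h | h <;> rw [h.1] <;> linarith
  · intro (x : E) (hx : ‖x‖ = 1) F hF η hη
    obtain ⟨y, hyF, hy, hyt⟩ := Crest.Agent.R125.daugavet_dir (X := E) hD x hx hF hη
    refine ⟨y, hyF, hy, ?_⟩
    change (‖x + t • y‖ + ‖x - t • y‖) / 2 - 1 ≤ max (t / 2) (t - 1) + η
    have h1 := hyt t ht
    have h2 : ‖x - t • y‖ ≤ 1 + t := by
      refine (norm_sub_le _ _).trans ?_
      rw [norm_smul, hx, hy, Real.norm_eq_abs, abs_of_pos ht, mul_one]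
    have h3 := le_max_left (t / 2) (t - 1)
    have h4 := le_max_right (t / 2) (t - 1)
    rcases max_cases 0 (t - 2) with h | h <;> rw [h.1] at h1 <;> linarith
  · intro (x : E) (hx : ‖x‖ = 1) η hη
    obtain ⟨ψ, hψ⟩ := hlow x hx
    refine ⟨Crest.Agent.R125.kerSet (X := E) {ψ}, Crest.Agent.R125.cof_kerSet (X := E) _, ?_⟩
    intro (y : E) hyF (hy : ‖y‖ = 1)
    change max 0 (t - 2) - η ≤ ‖x + t • y‖ - 1
    have h1 := hψ (t • y) (by rw [map_smul, hyF ψ (Finset.mem_singleton_self _), smul_zero])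
    have h2 : t - 1 ≤ ‖x + t • y‖ := by
      have := norm_sub_le (x + t • y) x
      rw [add_sub_cancel_left, norm_smul, hy, hx, Real.norm_eq_abs, abs_of_pos ht] at this
      linarith
    rcases max_cases 0 (t - 2) with h | h <;> rw [h.1] <;> linarith
  · intro (x : E) (hx : ‖x‖ = 1) F hF η hη
    obtain ⟨y, hyF, hy, hyt⟩ := Crest.Agent.R125.daugavet_dir (X := E) hD x hx hF hη
    refine ⟨y, hyF, hy, ?_⟩
    change ‖x + t • y‖ - 1 ≤ max 0 (t - 2) + η
    have h1 := hyt t ht
    linarith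

end Crest.Agent.S0167
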