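import Crest.Statements.S0182
import Crest.Agent.R133.Main
import Crest.Agent.R133.Man
import Crest.Agent.R133.Sys
import Crest.Agent.R133.SysProp

set_option autoImplicit false
open MeasureTheory Crest.AnalysisR
open Crest Crest.AnalysisR

namespace Crest.Agent.S0182

/-- There is an ergodic, invertible, measure-preserving transformation of a standard probability space (isomorphic modulo null sets to the unit interval with Lebesgue measure) whose Kolmogorov–Sinai entropy is zero and which is not measurably conjugate, on invariant conull sets, to any C^∞ diffeomorphism preserving a probability measure with smooth strictly positive density on a compact finite-dimensional manifold, with or without boundary, orientable or not. -/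
theorem result :
    ∃ (X : Type) (_ : MeasurableSpace X) (μ : Measure X) (T : X ≃ᵐ X),
      IsProbabilityMeasure μ ∧ IsStandardProbability μ ∧ MeasurePreserving T μ μ ∧
      Ergodic T μ ∧ HasZeroEntropy μ T ∧ NoSmoothPositiveVolumeModel μ T := by
  obtain ⟨D⟩ := Crest.Agent.R133.exists_design
  obtain ⟨X, mX, sX, μ, T, hμ, hT, tw, hg⟩ := Crest.Agent.R133.exists_system D
  refine ⟨X, mX, μ, T, hμ, Crest.Agent.R133.isStandard tw.measure_singleton, hT,
    tw.ergodic hg hT, tw.zeroEntropy hg hT, ?_, ?_⟩
  · intro d M _ _ _ _ _ _ _ ν S hν hd hS hc
    obtain ⟨mo⟩ := Crest.Agent.R133.exists_model _ M ν S S.contMDiff hd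
    obtain ⟨tw'⟩ := tw.transfer hc
    exact Crest.Agent.R133.no_tower mo hS tw'
  · intro d M _ _ _ _ _ _ _ ν S hν hd hS hc
    obtain ⟨mo⟩ := Crest.Agent.R133.exists_model _ M ν S S.contMDiff hd
    obtain ⟨tw'⟩ := tw.transfer hc
    exact Crest.Agent.R133.no_tower mo hS tw'

end Crest.Agent.S0182
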