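import Crest.Statements.S0191
import Crest.Agent.R140.Chain

set_option autoImplicit false
open Crest.AnalysisR
open Crest Crest.AnalysisR

namespace Crest.Agent.S0191

/-- Every real Banach space that has Markov type p with some constant K, for some p > 1, carries an equivalent uniformly convex norm (it is superreflexive). Markov type is the finite-sum inequality E‖f(Z_t) − f(Z_0)‖^p ≤ K^p t E‖f(Z_1) − f(Z_0)‖^p over all finite stationary reversible Markov chains, all maps f from the state set and all t ≥ 1. -/
theorem result
    (X : Type*) [NormedAddCommGroup X] [NormedSpace ℝ X] [CompleteSpace X]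
    (p K : ℝ) (hp : 1 < p) (hK : 0 < K) (hX : HasMarkovType X p K) :
    HasEquivUniformlyConvexNorm X := by
  by_contra h
  obtain ⟨N, h1, h2, h3, h4⟩ := Crest.Agent.R140.exists_seminorm X p K hp hX h
  exact Crest.Agent.R140.no_seminorm N hp hK h1 h2 h3 h4

end Crest.Agent.S0191
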