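import Crest.Statements.S0209
import Crest.Agent.R149.Final

set_option autoImplicit false
open Crest Crest.ProbabilityR

namespace Crest.Agent.S0209

/-- There is a bounded continuous stable radial pair potential in three-space (energy of `N` particles `≥ -B N`) with `φ(r)` at most `C r^(-3-1/32)` in size for `r ≥ 1`, an open density interval centred at `5p/3`, `p > 0` the unit-separation packing density (`packingNumber L / L^3 → p`), and one `β_c ∈ [7/8, 9/8]` such that at each `ρ` in it the free energy per volume `-lim_L log Z_{[0,L]^3, ⌊ρL^3⌋}(β)/(β L^3)` exists for `β > 0`, with one-sided `β`-derivatives at `β_c`, left above right. -/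
theorem result :
    ∃ φ : ℝ → ℝ, Continuous φ ∧ (∃ M : ℝ, ∀ r : ℝ, |φ r| ≤ M) ∧
      (∃ B : ℝ, ∀ (N : ℕ) (x : Fin N → Crest.ProbabilityR.Continuum.Pt), -B * N ≤ Crest.ProbabilityR.Continuum.energy φ x) ∧
      (∃ C : ℝ, ∀ r : ℝ, 1 ≤ r → |φ r| ≤ C * r ^ (-(3 + 1 / 32 : ℝ))) ∧
      ∃ p η βc : ℝ, 0 < p ∧
        Filter.Tendsto (fun L : ℝ => (Crest.ProbabilityR.Continuum.packingNumber L : ℝ) / L ^ 3)
          Filter.atTop (nhds p) ∧
        0 < η ∧ η ≤ 5 * p / 3 ∧ 7 / 8 ≤ βc ∧ βc ≤ 9 / 8 ∧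
        ∃ f : ℝ → ℝ → ℝ,
          (∀ ρ : ℝ, 5 * p / 3 - η < ρ → ρ < 5 * p / 3 + η → ∀ β : ℝ, 0 < β →
            Filter.Tendsto (fun L : ℝ => -(1 / (β * L ^ 3)) *
                Real.log (Crest.ProbabilityR.Continuum.partitionFn φ L ⌊ρ * L ^ 3⌋₊ β))
              Filter.atTop (nhds (f β ρ))) ∧
          (∀ ρ : ℝ, 5 * p / 3 - η < ρ → ρ < 5 * p / 3 + η → ∃ Dl Dr : ℝ,
            HasDerivWithinAt (fun β => f β ρ) Dl (Set.Iio βc) βc ∧
            HasDerivWithinAt (fun β => f β ρ) Dr (Set.Ioi βc) βc ∧ Dr < Dl) := by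
  obtain ⟨p0, l, u, hp0, hlim, hl, hu, hpar⟩ := R149.exists_par
  have h := hpar _ (R149.sr_phiA hu)
  have ha := h.a_pos
  set a := u / (64 / 125 * p0) with ha'
  have hM : ∀ r : ℝ, |R149.phiA u r - a * R149.WI l r| ≤ 6 * u + a * ∑' j : ℕ, 8 * (1 / 8 : ℝ) ^ j := by
    intro r
    have h1 := R149.phiA_le hu r
    have h2 := h.sr.nonneg r
    have h3 := mul_le_mul_of_nonneg_left (R149.WI_le hl r) ha.le
    have h4 := mul_nonneg ha.le (R149.WI_nonneg hl r)
    rw [abs_le]; constructor <;> linarith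
  obtain ⟨βc, hβc, hk⟩ := h.kink
  refine ⟨fun r => R149.phiA u r - a * R149.WI l r,
    (R149.continuous_phiA u).sub (continuous_const.mul (R149.continuous_WI hl)), ⟨_, hM⟩, h.stable, ?_,
    p0, p0 / 100, βc, hp0, hlim, by positivity, by linarith, by linarith [hβc.1], by linarith [hβc.2],
    fun β ρ => -(1 / β) * R149.ss (fun r => β * (R149.phiA u r - a * R149.WI l r)) ρ,
    fun ρ h1 _ β hβ => h.tendsto_free (by linarith) hβ, fun ρ h1 h2 => hk ρ ⟨by linarith, by linarith⟩⟩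
  obtain ⟨C, hC⟩ := h.decay
  set M := 6 * u + a * ∑' j : ℕ, 8 * (1 / 8 : ℝ) ^ j
  have hM0 : 0 ≤ M := (abs_nonneg _).trans (hM 0)
  refine ⟨|C| + 16 * M, fun r hr => ?_⟩
  have hr0 : 0 ≤ r ^ (-(3 + 1 / 32 : ℝ)) := Real.rpow_nonneg (by linarith) _
  rcases le_total r 2 with h2 | h2
  · have g1 : (2 : ℝ) ^ (-(3 + 1 / 32 : ℝ)) ≤ r ^ (-(3 + 1 / 32 : ℝ)) :=
      Real.rpow_le_rpow_of_nonpos (by linarith) h2 (by norm_num)
    have g2 : (2 : ℝ) ^ (-(4 : ℝ)) ≤ (2 : ℝ) ^ (-(3 + 1 / 32 : ℝ)) :=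
      Real.rpow_le_rpow_of_exponent_le (by norm_num) (by norm_num)
    have g3 : (2 : ℝ) ^ (-(4 : ℝ)) = 1 / 16 := by
      rw [Real.rpow_neg (by norm_num), show (4 : ℝ) = ((4 : ℕ) : ℝ) by norm_num, Real.rpow_natCast]; norm_num
    have g4 := mul_le_mul_of_nonneg_left (g3.ge.trans (g2.trans g1)) hM0
    have g5 := mul_nonneg (abs_nonneg C) hr0
    have := hM r
    nlinarith
  · have g1 := hC r h2
    have g2 := mul_le_mul_of_nonneg_right (le_abs_self C) hr0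
    have g3 := mul_nonneg hM0 hr0
    nlinarith

end Crest.Agent.S0209
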