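import Crest.Statements.S0210
import Crest.Agent.R149.Final

set_option autoImplicit false
open Crest Crest.ProbabilityR

namespace Crest.Agent.S0210

/-- There is a measurable radial pair potential in three-space, finite and locally bounded at positive distances, tending to `+∞` at `0`, below `-a < 0` on an interval, with `r² φ(r)` integrable at large `r`, `r³ φ(r) → 0`, and stable on configurations of distinct points, whose canonical free energy per volume `-lim_L log Z_{[0,L]^3, ⌊ρL^3⌋}(β)/(β L^3)` exists for all `β, ρ > 0` and has, on some open density interval, at one `β_c ∈ (1/2, 3/2)` a left `β`-derivative strictly above the right. -/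
theorem result :
    ∃ φ : ℝ → ℝ, Measurable φ ∧
      (∀ a b : ℝ, 0 < a → a ≤ b → ∃ M : ℝ, ∀ r : ℝ, a ≤ r → r ≤ b → |φ r| ≤ M) ∧
      Filter.Tendsto φ (nhdsWithin 0 (Set.Ioi 0)) Filter.atTop ∧
      (∃ r₁ r₂ a : ℝ, 0 < r₁ ∧ r₁ < r₂ ∧ 0 < a ∧ ∀ r : ℝ, r₁ ≤ r → r ≤ r₂ → φ r ≤ -a) ∧
      (∃ R : ℝ, 0 < R ∧ MeasureTheory.IntegrableOn (fun r : ℝ => r ^ 2 * |φ r|) (Set.Ioi R)) ∧
      Filter.Tendsto (fun r : ℝ => r ^ 3 * φ r) Filter.atTop (nhds 0) ∧
      (∃ B : ℝ, ∀ (N : ℕ) (x : Fin N → Crest.ProbabilityR.Continuum.Pt), Function.Injective x →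
        -B * N ≤ Crest.ProbabilityR.Continuum.energy φ x) ∧
      ∃ f : ℝ → ℝ → ℝ,
        (∀ ρ : ℝ, 0 < ρ → ∀ β : ℝ, 0 < β →
          Filter.Tendsto (fun L : ℝ => -(1 / (β * L ^ 3)) *
              Real.log (Crest.ProbabilityR.Continuum.partitionFn φ L ⌊ρ * L ^ 3⌋₊ β))
            Filter.atTop (nhds (f β ρ))) ∧
        ∃ ρ₁ ρ₂ βc : ℝ, 0 ≤ ρ₁ ∧ ρ₁ < ρ₂ ∧ 1 / 2 < βc ∧ βc < 3 / 2 ∧
          ∀ ρ : ℝ, ρ₁ < ρ → ρ < ρ₂ → ∃ Dl Dr : ℝ,
            HasDerivWithinAt (fun β => f β ρ) Dl (Set.Iio βc) βc ∧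
            HasDerivWithinAt (fun β => f β ρ) Dr (Set.Ioi βc) βc ∧ Dr < Dl := by
  obtain ⟨p0, l, u, hp0, hlim, hl, hu, hpar⟩ := R149.exists_par
  have h := hpar _ (R149.sr_phiB hu)
  have hA := R149.sr_phiA hu
  have ha := h.a_pos
  set a := u / (64 / 125 * p0) with ha'
  set M := a * ∑' j : ℕ, 8 * (1 / 8 : ℝ) ^ j with hM
  have hW : ∀ r, a * R149.WI l r ≤ M := fun r => mul_le_mul_of_nonneg_left (R149.WI_le hl r) ha.le
  have hW0 : ∀ r, 0 ≤ a * R149.WI l r := fun r => mul_nonneg ha.le (R149.WI_nonneg hl r)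
  have hmeas : Measurable fun r => R149.phiA u r + R149.core u r - a * R149.WI l r :=
    h.sr.meas.sub ((R149.continuous_WI hl).measurable.const_mul _)
  obtain ⟨βc, hβc, hk⟩ := h.kink
  obtain ⟨C, hC⟩ := h.decay
  refine ⟨fun r => R149.phiA u r + R149.core u r - a * R149.WI l r, hmeas, ?_, ?_, ?_, ?_, ?_, ?_,
    fun β ρ => -(1 / β) * R149.ss (fun r => β * (R149.phiA u r + R149.core u r - a * R149.WI l r)) ρ,
    fun ρ hρ β hβ => h.tendsto_free hρ.le hβ, 16 / 5 * (64 / 125 * p0), 33 / 10 * (64 / 125 * p0), βc,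
    by positivity, by linarith, by linarith [hβc.1], by linarith [hβc.2], fun ρ h1 h2 => hk ρ ⟨h1.le, h2.le⟩⟩
  · intro c d hc _
    refine ⟨6 * u + 1 / c + M, fun r h1 _ => ?_⟩
    have g1 := R149.phiA_le hu r
    have g2 := hA.nonneg r
    have g3 := R149.core_nonneg u r
    have g4 : R149.core u r ≤ 1 / c := by
      have := one_div_le_one_div_of_le hc h1
      have := R149.dl_pos u
      have : 0 ≤ 16 / R149.dl u := by positivity
      exact max_le (by positivity) (by linarith)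
    have g5 := hW r
    have g6 := hW0 r
    have g7 : 0 < 1 / c := by positivity
    rw [abs_le]; constructor <;> linarith
  · have t : Filter.Tendsto (fun r : ℝ => r⁻¹ + (-(16 / R149.dl u) - M)) (nhdsWithin 0 (Set.Ioi 0)) Filter.atTop :=
      Filter.tendsto_atTop_add_const_right _ _ tendsto_inv_nhdsGT_zero
    refine Filter.tendsto_atTop_mono (fun r => ?_) t
    have g2 := hA.nonneg r
    have g3 : 1 / r - 16 / R149.dl u ≤ R149.core u r := le_max_right _ _
    have g5 := hW r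
    rw [one_div] at g3
    linarith
  · obtain ⟨b, hb, hb'⟩ := R149.WI_ge hl
    refine ⟨2, 3, a * b, by norm_num, by norm_num, by positivity, fun r h1 h2 => ?_⟩
    have g1 := h.sr.zero r (by unfold R149.om; linarith)
    have g2 := mul_le_mul_of_nonneg_left (hb' r (by linarith) h2) ha.le
    linarith
  · refine ⟨2, by norm_num, ?_⟩
    have hi : MeasureTheory.IntegrableOn (fun r : ℝ => C * r ^ (-(1 + 1 / 32 : ℝ))) (Set.Ioi 2) :=
      (integrableOn_Ioi_rpow_of_lt (by norm_num) (by norm_num)).const_mul C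
    refine hi.mono' ((measurable_id.pow_const 2).mul hmeas.abs).aestronglyMeasurable ?_
    filter_upwards [MeasureTheory.ae_restrict_mem measurableSet_Ioi] with r hr
    have hr' : (2 : ℝ) < r := hr
    have g1 := mul_le_mul_of_nonneg_left (hC r hr'.le) (sq_nonneg r)
    have e : r ^ 2 * (C * r ^ (-(3 + 1 / 32 : ℝ))) = C * r ^ (-(1 + 1 / 32 : ℝ)) := by
      rw [mul_left_comm, ← Real.rpow_natCast, ← Real.rpow_add (by linarith)]
      norm_num
    rw [Real.norm_eq_abs, abs_of_nonneg (by positivity), ← e]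
    exact g1
  · have t : Filter.Tendsto (fun r : ℝ => C * r ^ (-(1 / 32 : ℝ))) Filter.atTop (nhds (C * 0)) :=
      (tendsto_rpow_neg_atTop (by norm_num)).const_mul C
    rw [mul_zero] at t
    refine squeeze_zero_norm' ?_ t
    filter_upwards [Filter.eventually_ge_atTop 2] with r hr
    have g1 := mul_le_mul_of_nonneg_left (hC r hr) (by positivity : 0 ≤ r ^ 3)
    have e : r ^ 3 * (C * r ^ (-(3 + 1 / 32 : ℝ))) = C * r ^ (-(1 / 32 : ℝ)) := by
      rw [mul_left_comm, ← Real.rpow_natCast, ← Real.rpow_add (by linarith)]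
      norm_num
    rw [Real.norm_eq_abs, abs_mul, abs_of_nonneg (by positivity), ← e]
    exact g1
  · obtain ⟨B, hB⟩ := h.stable
    exact ⟨B, fun N x _ => hB N x⟩

end Crest.Agent.S0210
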