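import Crest.Statements.S0223
import Crest.Agent.R155.Model

set_option autoImplicit false
open Crest Crest.ProbabilityR

namespace Crest.Agent.S0223

/-- For a deck of `2 * 2 ^ d` cards and every number `t` of shuffles, the total variation distance between the law of the arrangement of the deck and the uniform law on all arrangements is at least `1 - 2 ^ (2 ^ d * t) / (2 * 2 ^ d)!`. -/
theorem result (d t : ℕ) :
    1 - (2 : ℝ) ^ (2 ^ d * t) / ((2 * 2 ^ d).factorial : ℝ)
      ≤ Crest.ProbabilityR.Shuffle.tvFromUniform (2 ^ d) t := by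
  classical
  unfold Crest.ProbabilityR.Shuffle.tvFromUniform
  set m := 2 ^ d with hm
  set P : Equiv.Perm (Fin (2 * m)) → ℝ := fun g => Crest.FinProb.uniformProb
    {cs : Fin t → Fin m → Bool | Crest.ProbabilityR.Shuffle.iterPos m t cs = ⇑g} with hP
  set A : Finset (Equiv.Perm (Fin (2 * m))) := Finset.univ.image (R155.sig (m := m) t) with hA
  have hN : (0 : ℝ) < ((2 * m).factorial : ℝ) := by exact_mod_cast Nat.factorial_pos _
  have hC : (0 : ℝ) < Fintype.card (Fin t → Fin m → Bool) := by exact_mod_cast Fintype.card_pos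
  have hcard : (A.card : ℝ) ≤ (2 : ℝ) ^ (m * t) := by
    have : A.card ≤ 2 ^ (m * t) := by
      refine Finset.card_image_le.trans (le_of_eq ?_)
      simp [← pow_mul]
    exact_mod_cast this
  have hP' : ∀ g, P g = ((Finset.univ.filter fun cs => R155.sig (m := m) t cs = g).card : ℝ) /
      Fintype.card (Fin t → Fin m → Bool) := by
    intro g
    simp only [hP, Crest.FinProb.uniformProb]
    congr 3
    ext cs
    simp only [Finset.mem_filter, Finset.mem_univ, true_and, Set.mem_setOf_eq, ← R155.coe_sig]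
    exact DFunLike.coe_fn_eq
  have hsum : ∑ g ∈ A, P g = 1 := by
    simp only [hP', ← Finset.sum_div]
    rw [div_eq_one_iff_eq hC.ne', ← Finset.card_univ,
      Finset.card_eq_sum_card_image (R155.sig (m := m) t) Finset.univ]
    push_cast
    rfl
  have hzero : ∀ g, g ∉ A → P g = 0 := by
    intro g hg
    rw [hP', Finset.filter_eq_empty_iff.2, Finset.card_empty, Nat.cast_zero, zero_div]
    intro cs _ e
    exact hg (Finset.mem_image.2 ⟨cs, Finset.mem_univ _, e⟩)
  have h1 : ∑ g ∈ A, (P g - 1 / ((2 * m).factorial : ℝ)) ≤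
      ∑ g ∈ A, |P g - 1 / ((2 * m).factorial : ℝ)| := Finset.sum_le_sum fun g _ => le_abs_self _
  have h2 : ∑ g ∈ Aᶜ, |P g - 1 / ((2 * m).factorial : ℝ)| =
      ∑ g ∈ Aᶜ, 1 / ((2 * m).factorial : ℝ) := by
    refine Finset.sum_congr rfl fun g hg => ?_
    rw [hzero g (Finset.mem_compl.1 hg), zero_sub, abs_neg, abs_of_pos (by positivity)]
  have h3 : ((Aᶜ).card : ℝ) = ((2 * m).factorial : ℝ) - A.card := by
    rw [Finset.card_compl, Nat.cast_sub (Finset.card_le_univ _), Fintype.card_perm, Fintype.card_fin]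
  rw [Finset.sum_sub_distrib, hsum] at h1
  simp only [Finset.sum_const, nsmul_eq_mul, h3] at h1 h2
  change _ ≤ 1 / 2 * ∑ g, |P g - 1 / ((2 * m).factorial : ℝ)|
  rw [← Finset.sum_add_sum_compl A, h2]
  have h4 : (A.card : ℝ) * (1 / ((2 * m).factorial : ℝ)) ≤
      (2 : ℝ) ^ (m * t) / ((2 * m).factorial : ℝ) := by
    rw [mul_one_div]; exact div_le_div_of_nonneg_right hcard hN.le
  have h5 : (((2 * m).factorial : ℝ) - A.card) * (1 / ((2 * m).factorial : ℝ)) =
      1 - (A.card : ℝ) * (1 / ((2 * m).factorial : ℝ)) := by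
    field_simp
  linarith

end Crest.Agent.S0223
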