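import Crest.Statements.S0247
import Crest.Agent.R164.Main

set_option autoImplicit false
open Crest Crest.ProbabilityR

namespace Crest.Agent.S0247

/-- Ising model with couplings `U_N^T Λ_N U_N`: `U_N` Haar-distributed orthogonal matrices (law invariant under right multiplication) on one probability space, `Λ_N` deterministic diagonal, empirical spectral law converging weakly to a law `μ` carried by `[λ₋, λ₊]` charging both edges, all eigenvalues eventually within `ε` of it: the variational value `inf_p (S(p) + G(p))` is finite, and the expected pressure `N^{-1} E log [2^{-N} Σ_σ e^{σ^T U^T Λ U σ/2}]` and a.s. the pressure tend to it. -/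
theorem result (μ : MeasureTheory.Measure ℝ)
    [MeasureTheory.IsProbabilityMeasure μ] (lamMinus lamPlus : ℝ) (hle : lamMinus ≤ lamPlus)
    (hsupp : μ (Set.Icc lamMinus lamPlus) = 1)
    (hedge : ∀ ε : ℝ, 0 < ε →
      0 < μ (Set.Icc lamMinus (lamMinus + ε)) ∧ 0 < μ (Set.Icc (lamPlus - ε) lamPlus))
    (eig : (N : ℕ) → Fin N → ℝ)
    (hweak : ∀ φ : ℝ → ℝ, Continuous φ → (∃ C : ℝ, ∀ x, |φ x| ≤ C) →
      Filter.Tendsto (fun N : ℕ => (1 / (N : ℝ)) * ∑ i : Fin N, φ (eig N i)) Filter.atTop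
        (nhds (∫ x, φ x ∂μ)))
    (hext : ∀ ε : ℝ, 0 < ε → ∀ᶠ N : ℕ in Filter.atTop, ∀ i : Fin N,
      lamMinus - ε ≤ eig N i ∧ eig N i ≤ lamPlus + ε)
    (Ω : Type) [MeasurableSpace Ω] (P : MeasureTheory.Measure Ω) [MeasureTheory.IsProbabilityMeasure P]
    (Us : (N : ℕ) → Ω → (Fin N → Fin N → ℝ)) (hmeas : ∀ N, Measurable (Us N))
    (horth : ∀ N, ∀ᵐ ω ∂P, Matrix.of (Us N ω) ∈ Matrix.orthogonalGroup (Fin N) ℝ)
    (hHaar : ∀ (N : ℕ) (O : Matrix (Fin N) (Fin N) ℝ), O ∈ Matrix.orthogonalGroup (Fin N) ℝ →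
      P.map (fun ω => fun i j => (Matrix.of (Us N ω) * O) i j) = P.map (Us N)) :
    ∃ F : ℝ, Crest.ProbabilityR.InvariantGlass.variationalValue μ lamPlus = (F : EReal) ∧
      Filter.Tendsto (fun N : ℕ => ∫ ω, Crest.ProbabilityR.InvariantGlass.pressureN (eig N) (Matrix.of (Us N ω)) ∂P)
        Filter.atTop (nhds F) ∧
      ∀ᵐ ω ∂P, Filter.Tendsto (fun N : ℕ => Crest.ProbabilityR.InvariantGlass.pressureN (eig N) (Matrix.of (Us N ω)))
        Filter.atTop (nhds F) :=
  Crest.Agent.R164.main_zero μ hle hsupp (fun ε h => (hedge ε h).2) eig hweak hext P Us hmeas horth hHaar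

end Crest.Agent.S0247
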