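import Crest.Statements.S0254
import Crest.Agent.R168.FusfLaw

set_option autoImplicit false
open Crest Crest.ProbabilityR

namespace Crest.Agent.S0254

open Filter Topology MeasureTheory Crest.Agent.R168

/-- One rule from (graph on `ℕ`, labels in `[0,1]^ℕ`) to edge sets, jointly measurable in (adjacency table, labels) and commuting on every input with every permutation of `ℕ` acting on graph, labels and pairs, gives i.i.d. uniform labels the free uniform spanning forest's law on every connected locally finite graph: along every exhaustion by finite connected induced pieces, for finite edge sets `F` the chance that the piece's uniform spanning tree contains `F` tends to that for the output. -/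
theorem result :
    ∃ Φ : SimpleGraph ℕ → (ℕ → unitInterval) → (Sym2 ℕ → Bool),
      Measurable (fun p : (ℕ → ℕ → Bool) × (ℕ → unitInterval) =>
          Φ (Crest.ProbabilityR.GraphTables.graphOfTable p.1) p.2) ∧
      (∀ (σ : Equiv.Perm ℕ) (G : SimpleGraph ℕ) (x : ℕ → unitInterval),
          Φ (G.comap ⇑σ) (x ∘ ⇑σ) = Φ G x ∘ Sym2.map ⇑σ) ∧
      ∀ G : SimpleGraph ℕ, G.Connected → (∀ v : ℕ, (G.neighborSet v).Finite) →
        ∀ S : ℕ → Finset ℕ, Monotone S → (∀ v : ℕ, ∃ n, v ∈ S n) →
          (∀ n, (G.induce (S n : Set ℕ)).Connected) →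
          ∀ F : Finset (Sym2 ℕ), (↑F : Set (Sym2 ℕ)) ⊆ G.edgeSet →
            Filter.Tendsto (fun n => Crest.ProbabilityR.SpanningTrees.ustContains G (S n) F) Filter.atTop
              (nhds (((Crest.ProbabilityR.Labels.labelMeasure ℕ).map (Φ G) {ω | ∀ e ∈ F, ω e = true}).toReal)) := by
  classical
  refine ⟨fun G x => PhiG G (ordL x) (restL x), ?_, fun σ G x => PhiG_comap σ G (ordL x) (restL x),
    fun G hG hloc S hm hu hS F hF => ?_⟩
  · refine measurable_PhiG (G := fun p : (ℕ → ℕ → Bool) × (ℕ → unitInterval) =>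
      GraphTables.graphOfTable p.1) (fun a b => ?_) (measurable_ordL.comp measurable_snd)
      (measurable_restL.comp measurable_snd)
    simp only [GraphTables.graphOfTable, SimpleGraph.fromRel_adj]
    have h : ∀ a b, Measurable fun p : (ℕ → ℕ → Bool) × (ℕ → unitInterval) => p.1 a b = true :=
      fun a b => measurableSet_setOfPred.1 (measurableSet_eq_fun (by fun_prop) measurable_const)
    exact measurable_const.and ((h a b).or (h b a))
  have hΨ : Measurable fun p : (ℕ → ℝ) × (ℕ × ℕ → ℝ) => PhiG G p.1 p.2 :=
    measurable_PhiG (G := fun _ => G) (fun _ _ => measurable_const) measurable_fst measurable_snd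
  have hΦ : Measurable fun x : ℕ → unitInterval => PhiG G (ordL x) (restL x) :=
    measurable_PhiG (G := fun _ => G) (fun _ _ => measurable_const) measurable_ordL measurable_restL
  have hres : Measurable fun ω : Sym2 ℕ → Bool => ω ∘ (Subtype.val : G.edgeSet → Sym2 ℕ) :=
    measurable_pi_lambda _ fun e => measurable_pi_apply _
  have hlab : IsProbabilityMeasure (Labels.labelMeasure ℕ) := by
    unfold Labels.labelMeasure; infer_instance
  obtain ⟨ν₀, hν₀⟩ : ∃ ν₀ : ProbabilityMeasure (G.edgeSet → Bool),
      (ν₀ : Measure (G.edgeSet → Bool)) = (Labels.labelMeasure ℕ).map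
        fun x => PhiG G (ordL x) (restL x) ∘ (Subtype.val : G.edgeSet → Sym2 ℕ) :=
    ⟨⟨_, Measure.isProbabilityMeasure_map (hres.comp hΦ).aemeasurable⟩, rfl⟩
  have hlim : Tendsto (β := ProbabilityMeasure (G.edgeSet → Bool))
      (fun n => (⟨ustMeas G (S n), isProb_ustMeas G (hS n)⟩ :
      ProbabilityMeasure (G.edgeSet → Bool))) atTop (𝓝 ν₀) := by
    refine tendsto_nhds_of_unique_mapClusterPt (X := ProbabilityMeasure (G.edgeSet → Bool))
      fun ν hν => ?_
    have hc := consistent_of_cluster G hG hloc hm hu hS ν hν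
    apply Subtype.ext
    refine Eq.trans (Eq.symm ?_) hν₀.symm
    exact law_of_fiber (ν : Measure (G.edgeSet → Bool))
      (Ψ := fun p : (ℕ → ℝ) × (ℕ × ℕ → ℝ) =>
        PhiG G p.1 p.2 ∘ (Subtype.val : G.edgeSet → Sym2 ℕ)) (hres.comp hΨ)
      fun o ho => law_PhiG G hloc ν hc ho
  let f : (G.edgeSet → Bool) → ℝ := fun ω => ∏ e ∈ F.attach, ind (ω ⟨e, hF e.2⟩)
  have hf : Continuous f := continuous_finsetProd _ fun e _ => continuous_of_bool _ ind
  have hfi : ∀ ω : Sym2 ℕ → Bool, f (ω ∘ Subtype.val) =
      {ω : Sym2 ℕ → Bool | ∀ e ∈ F, ω e = true}.indicator 1 ω := by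
    intro ω
    by_cases hω : ω ∈ {ω : Sym2 ℕ → Bool | ∀ e ∈ F, ω e = true}
    · rw [Set.indicator_of_mem hω]
      exact Finset.prod_eq_one fun e _ => by simp [ind, hω e e.2]
    · rw [Set.indicator_of_notMem hω]
      simp only [Set.mem_ofPred_eq, not_forall] at hω
      obtain ⟨e, he, h⟩ := hω
      exact Finset.prod_eq_zero (Finset.mem_attach _ ⟨e, he⟩) (by simp [ind, h])
  have hset : MeasurableSet {ω : Sym2 ℕ → Bool | ∀ e ∈ F, ω e = true} :=
    measurableSet_setOfPred.2 (Measurable.forall fun e => measurable_const.imp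
      (measurableSet_setOfPred.1 (measurableSet_eq_fun (measurable_pi_apply e) measurable_const)))
  have h1 := ((ProbabilityMeasure.continuous_integral_continuousMap
    (⟨f, hf⟩ : C(G.edgeSet → Bool, ℝ))).tendsto ν₀).comp hlim
  convert h1 using 2 with n
  · simp only [Function.comp, ContinuousMap.coe_mk, ProbabilityMeasure.coe_mk, integral_ustMeas,
      SpanningTrees.ustContains]
    congr 1
    · have : ∀ A, f (indic G A) = if F ⊆ A then 1 else 0 := by
        intro A
        have := hfi fun g => decide (g ∈ A)
        refine this.trans ?_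
        simp [Set.indicator_apply, Finset.subset_iff]
      simp only [this, Finset.sum_boole, trees, Finset.filter_filter]
      congr!
  · simp only [ContinuousMap.coe_mk]
    rw [hν₀, integral_map (φ := fun x => PhiG G (ordL x) (restL x) ∘
      (Subtype.val : G.edgeSet → Sym2 ℕ)) (hres.comp hΦ).aemeasurable hf.aestronglyMeasurable]
    simp only [hfi]
    rw [← integral_map (f := Set.indicator {ω : Sym2 ℕ → Bool | ∀ e ∈ F, ω e = true} 1)
      hΦ.aemeasurable (measurable_one.indicator hset).aestronglyMeasurable,
      integral_indicator_one hset]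
    rfl

end Crest.Agent.S0254
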