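import Crest.Statements.S0255
import Crest.Agent.R168.Labels
import Crest.Agent.R168.SR
import Crest.Agent.R168.Limsup

set_option autoImplicit false
open Crest Crest.ProbabilityR

namespace Crest.Agent.R168

open Filter Topology MeasureTheory ProbabilityTheory Set
open Crest.ProbabilityR.StronglyRayleigh

lemma exists_exhaustion (Γ : Type*) [Countable Γ] (a : Γ) :
    ∃ K : ℕ → Finset Γ, Monotone K ∧ (∀ n, a ∈ K n) ∧ ∀ w, ∃ n, w ∈ K n := by
  classical
  have : Nonempty Γ := ⟨a⟩
  obtain ⟨e, he⟩ := exists_surjective_nat Γ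
  refine ⟨fun n => insert a ((Finset.range n).image e), fun m n hmn => ?_, fun n => by simp,
    fun w => ?_⟩
  · exact Finset.insert_subset_insert _ (Finset.image_subset_image (Finset.range_mono hmn))
  · obtain ⟨k, rfl⟩ := he w
    exact ⟨k + 1, Finset.mem_insert_of_mem (Finset.mem_image_of_mem _ (by simp))⟩

variable {Γ : Type*} [Group Γ]

lemma tilt_shift (ν : Measure (Γ → Bool)) (hinv : IsShiftInvariant ν) (g : Γ) (K : Finset Γ)
    (v : Γ) (h : Γ → ℝ) :
    tilt ν (K.map (Equiv.mulLeft v).toEmbedding) v (h ∘ fun w => g⁻¹ * w) =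
      tilt ν (K.map (Equiv.mulLeft (g⁻¹ * v)).toEmbedding) (g⁻¹ * v) h := by
  have hm : Measurable (leftShift g : (Γ → Bool) → Γ → Bool) := by
    unfold leftShift; fun_prop
  have hν : ν.map (leftShift g) = ν := by
    ext A hA
    rw [Measure.map_apply hm hA, hinv g A hA]
  have hw : ∀ x : Γ → Bool, wt (K.map (Equiv.mulLeft v).toEmbedding) (h ∘ fun w => g⁻¹ * w)
      (leftShift g x) = wt (K.map (Equiv.mulLeft (g⁻¹ * v)).toEmbedding) h x := by
    intro x
    simp [wt, leftShift]
  unfold tilt
  conv_lhs => rw [← hν]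
  rw [integral_map hm.aemeasurable (measurable_wt _ _).aestronglyMeasurable,
    integral_map (f := fun x => ind (x v) * wt (K.map (Equiv.mulLeft v).toEmbedding)
      (h ∘ fun w => g⁻¹ * w) x) hm.aemeasurable
      ((measurable_ind.comp (measurable_pi_apply v)).mul (measurable_wt _ _)).aestronglyMeasurable]
  simp only [hw]
  rfl

end Crest.Agent.R168

namespace Crest.Agent.S0255

open Filter Topology MeasureTheory Crest.Agent.R168

/-- For a countable group `Γ` and a strongly Rayleigh probability law `ν` on binary configurations `Γ → Bool` that is invariant under every left shift `a ↦ (h ↦ a (g⁻¹ h))`, there is a measurable map from independent uniform labels indexed by `Γ` to configurations that commutes with every left shift and pushes the label law forward to `ν`. -/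
theorem result (Γ : Type*) [Group Γ]
    [Countable Γ] (ν : MeasureTheory.Measure (Γ → Bool)) [MeasureTheory.IsProbabilityMeasure ν]
    (hsr : Crest.ProbabilityR.StronglyRayleigh.IsStronglyRayleigh ν)
    (hinv : Crest.ProbabilityR.StronglyRayleigh.IsShiftInvariant ν) :
    ∃ Φ : (Γ → unitInterval) → (Γ → Bool), Measurable Φ ∧
      (∀ (g : Γ) (u : Γ → unitInterval),
        Φ (Crest.ProbabilityR.StronglyRayleigh.leftShift g u) =
          Crest.ProbabilityR.StronglyRayleigh.leftShift g (Φ u)) ∧
      (Crest.ProbabilityR.Labels.labelMeasure Γ).map Φ = ν := by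
  obtain ⟨K, hK, hK1, hKu⟩ := exists_exhaustion Γ 1
  obtain ⟨F, hF⟩ : ∃ F : Γ → ℕ → Finset Γ,
      F = fun v n => (K n).map (Equiv.mulLeft v).toEmbedding := ⟨_, rfl⟩
  obtain ⟨M, hMd⟩ : ∃ M : Γ → (Γ → ℝ) → ℝ,
      M = fun v h => limsup (fun n => tilt ν (F v n) v h) atTop := ⟨_, rfl⟩
  have hM : GoodPred M := by
    rw [hMd]
    refine goodPred_limsup (fun n v h => tilt ν (F v n) v h)
      (fun n v h => tilt_nonneg ν _ _ _) (fun n v h => tilt_le_one ν _ _ _)
      (fun n v h h' ρ hh => abs_tilt_sub hsr _ v ?_ h h' ρ hh)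
    rw [hF]
    exact Finset.mem_map.2 ⟨1, hK1 n, by simp⟩
  have hMm : ∀ v, Measurable (M v) := fun v => by
    rw [hMd]
    exact Measurable.limsup fun n => measurable_tilt ν _ _
  have hc : Consistent ν M := by
    intro v
    refine ⟨F v, fun m n hmn => ?_, fun w => ?_, fun h ℓ hℓ => ?_⟩
    · rw [hF]; exact Finset.map_subset_map.2 (hK hmn)
    · rw [hF]
      exact (hKu (v⁻¹ * w)).imp fun n hn => Finset.mem_map.2 ⟨_, hn, by simp⟩
    · rw [hMd]; exact hℓ.limsup_eq
  have hΨ : Measurable fun p : (Γ → ℝ) × (Γ × ℕ → ℝ) => Phi M (fun w v => p.1 w < p.1 v) p.2 :=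
    measurable_Phi (Ω := (Γ → ℝ) × (Γ × ℕ → ℝ)) (M := fun _ => M)
      (r := fun p w v => p.1 w < p.1 v) (U := fun p => p.2) (fun v => (hMm v).comp measurable_snd)
      (fun w v => measurableSet_lt (by fun_prop) (by fun_prop)) measurable_snd
  refine ⟨fun x => Phi M (fun w v => ordL x w < ordL x v) (restL x), ?_, fun g u => ?_, ?_⟩
  · exact measurable_Phi (Ω := Γ → unitInterval) (M := fun _ => M)
      (r := fun x w v => ordL x w < ordL x v) (U := restL) (fun v => (hMm v).comp measurable_snd)
      (fun w v => measurableSet_lt ((measurable_pi_apply w).comp measurable_ordL)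
        ((measurable_pi_apply v).comp measurable_ordL)) measurable_restL
  · exact Phi_pull (fun w => g⁻¹ * w) (M := M) (M₀ := M)
      (r₀ := fun w v => ordL (StronglyRayleigh.leftShift g u) w <
        ordL (StronglyRayleigh.leftShift g u) v)
      (r := fun w v => ordL u w < ordL u v) (fun v h => by simp only [hMd, hF, tilt_shift ν hinv])
      (fun w v => Iff.rfl) (restL u)
  · exact law_of_fiber ν
      (Ψ := fun p : (Γ → ℝ) × (Γ × ℕ → ℝ) => Phi M (fun w v => p.1 w < p.1 v) p.2) hΨ
      fun o ho => law_Phi ν hM hMm hc o ho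

end Crest.Agent.S0255
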