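import Crest.Statements.S0259
import Crest.Agent.R171.Main

set_option autoImplicit false
open Crest.AlgebraR.Steinberg
open Crest Crest.AlgebraR

namespace Crest.Agent.S0259

/-- Integral Gersten injectivity fails in degree three: there is a two-dimensional regular local domain A of mixed characteristic (0, 5), ramified in the sense that 5 lies in the square of its maximal ideal, for which the map from K_3(A) to K_3 of its fraction field (realised as the map on third integral homology of Steinberg groups induced by the inclusion of A into its fraction field) is not injective. -/
theorem result :
    ∃ (A : Type) (_ : CommRing A) (_ : IsDomain A) (_ : IsRegularLocalRing A),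
      ringKrullDim A = 2 ∧ CharZero A ∧ (5 : A) ∈ IsLocalRing.maximalIdeal A ^ 2 ∧
        ¬ Function.Injective (H3map (algebraMap A (FractionRing A))).hom :=
  Crest.Agent.R171.main

end Crest.Agent.S0259
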