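import Crest.Statements.S0277
import Crest.Agent.R185.Main

set_option autoImplicit false
open Crest Crest.AlgebraR

namespace Crest.Agent.S0277

/-- Let `G` be a group generated by a finite tuple `s` of elements, and suppose the word problem for `s` is decidable: membership in the set of words (lists of pairs of a generator index and an exponent sign) whose product in `G` is the identity is decided by a computable function. Then there are a finitely presented simple group and an injective homomorphism from `G` into it. -/
theorem result
    (G : Type*) [Group G] (k : ℕ) (s : Fin k → G) (hgen : Subgroup.closure (Set.range s) = ⊤)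
    (hdec : ComputablePred fun w : List (Fin k × Bool) => FreeGroup.lift s (FreeGroup.mk w) = 1) :
    ∃ (S : Type) (_ : Group S) (f : G →* S),
      Group.IsFinitelyPresented S ∧ IsSimpleGroup S ∧ Function.Injective f := by
  obtain ⟨S, _, f, h1, h2, _, h4⟩ := Crest.Agent.R185.main_simple G k s hgen hdec
  exact ⟨S, inferInstance, f, h2, h1, h4⟩

end Crest.Agent.S0277
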