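import Crest.Statements.S0279
import Crest.Agent.R185.Main

set_option autoImplicit false
open Crest Crest.AlgebraR

namespace Crest.Agent.S0279

/-- There is a group of type `F∞` — the fundamental group of an aspherical Hausdorff CW complex with finitely many cells in each dimension — into which every finitely presented group admits an injective homomorphism. -/
theorem result :
    ∃ (H : Type) (_ : Group H), Crest.Topology.HasFiniteTypeClassifyingComplex H ∧
      ∀ (G : Type) [Group G], Group.IsFinitelyPresented G →
        ∃ f : G →* H, Function.Injective f := by
  obtain ⟨H, _, h1, h2, h3⟩ := Crest.Agent.R185.main_universal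
  exact ⟨H, inferInstance, Crest.Agent.R185.bridge H h1 h2, h3⟩

end Crest.Agent.S0279
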