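import Crest.Statements.S0297
import Crest.Agent.R195.Base
import Crest.Agent.R195.Spec

set_option autoImplicit false
open Crest.AlgebraR.Specht
open Crest Crest.AlgebraR

namespace Crest.Agent.S0297

/-- For every m ≥ 1, let S be the Specht module of the staircase shape with rows of lengths m, m - 1, ..., 1, a complex representation of the symmetric group on the m(m+1)/2 letters filling that shape, built from polytabloids. Then every irreducible finite-dimensional complex representation of that symmetric group has a nonzero equivariant linear map into the tensor square S ⊗ S with the diagonal action: the tensor square of S contains every irreducible representation. -/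
theorem result (m : ℕ) (hm : 1 ≤ m)
    (W : Type) [AddCommGroup W] [Module ℂ W] [FiniteDimensional ℂ W]
    (σ : Representation ℂ (Equiv.Perm (Fin (staircaseShape m).card)) W) (hσ : Representation.IsIrreducible σ) :
    Nontrivial (Representation.IntertwiningMap σ
      (Representation.tprod (spechtRep (staircaseShape m)) (spechtRep (staircaseShape m)))) := by
  refine R195.Full.final (V := (spechtSubrep (staircaseShape m)).toSubmodule) _ σ hσ
    (R195.HV_staircase m) ?_
  rw [Fintype.card_fin, R195.card_staircase]
  exact R195.full_stair_all m

end Crest.Agent.S0297
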