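import Crest.Statements.S0298
import Crest.Agent.R195.Base

set_option autoImplicit false
open Crest Crest.AlgebraR

namespace Crest.Agent.S0298

/-- For every positive integer n other than 2, 4 and 9, the symmetric group on n letters has an irreducible finite-dimensional complex representation ρ such that every irreducible finite-dimensional complex representation has a nonzero equivariant linear map into the tensor square of ρ (with the diagonal action); that is, the tensor square of ρ contains every irreducible representation. -/
theorem result (n : ℕ) (hn : 0 < n)
    (h2 : n ≠ 2) (h4 : n ≠ 4) (h9 : n ≠ 9) :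
    ∃ (V : Type) (_ : AddCommGroup V) (_ : Module ℂ V) (_ : FiniteDimensional ℂ V)
      (ρ : Representation ℂ (Equiv.Perm (Fin n)) V), Representation.IsIrreducible ρ ∧
      ∀ (W : Type) [AddCommGroup W] [Module ℂ W] [FiniteDimensional ℂ W]
        (σ : Representation ℂ (Equiv.Perm (Fin n)) W), Representation.IsIrreducible σ →
        Nontrivial (Representation.IntertwiningMap σ (Representation.tprod ρ ρ)) := by
  obtain ⟨a, ha, hF⟩ := R195.exists_full n hn h2 h4 h9
  have ha' : R195.IsPar a (Fintype.card (Fin n)) := by rwa [Fintype.card_fin]
  refine ⟨R195.HWs (Fin n) ℂ a, inferInstance, inferInstance, R195.finiteDimensional_HWs a,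
    R195.Sp (Fin n) a, R195.Sp_irreducible ha', fun W _ _ _ σ hσ => ?_⟩
  exact R195.Full.final _ σ hσ (R195.HV_Sp ha') (by rwa [Fintype.card_fin])

end Crest.Agent.S0298
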