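import Crest.Statements.S0303
import Crest.Agent.R177.Two
import Crest.Agent.R177.Hyp
import Crest.Agent.R177.TF

set_option autoImplicit false
open Crest Crest.AlgebraR

namespace Crest.Agent.S0303

/-- There is a group in which only the identity has finite order, which is word-hyperbolic (it has a finite generating set whose word metric satisfies the four-point condition for some constant), and which is not residually finite (some non-identity element lies in every normal subgroup of finite index). -/
theorem result :
    ∃ (G : Type) (_ : Group G),
      (∀ g : G, IsOfFinOrder g → g = 1) ∧ Crest.GroupTheory.IsHyperbolicGroup G ∧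
        ¬ Group.ResiduallyFinite G := by
  obtain ⟨Hf, V, P, _, _, _, _, S, σ, τ, C, h1, h2, h3, h4, a, b, h5, h6⟩ := R177.two_core
  obtain ⟨S', T, _, _, ⟨Q⟩⟩ := R177.exists_triPres S h1 h2 _ τ h3 (R177.cs_of_isoP S h1 _ τ h3 C h4)
  exact ⟨R177.Grp S σ τ, inferInstance, Q.torsionFree,
    R177.hyperbolic_of_chainIso _ _ (R177.linv_linv h1) (R177.gx_linv S σ τ) (R177.gx_closure S σ τ)
      _ (R177.chainIso_of_isoP S h1 _ τ h3 C h4),
    R177.not_residuallyFinite a b h5 h6⟩

end Crest.Agent.S0303
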