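import Crest.Statements.S0324
import Crest.Agent.R211.Cover

set_option autoImplicit false
open MeasureTheory
open scoped ENNReal
open Crest Crest.GeometryTopology Crest.GeometryTopology.Convex

namespace Crest.Agent.S0324

/-- The regular tetrahedron `K` with vertices `(±1, 0, 0)`, `(0, ±1, √2)` is covered by finitely many cylinders `Bᵢ + ℝ uᵢ`, each with unit direction `uᵢ` and base `Bᵢ` a triangle (convex hull of three points) in the plane `uᵢ^⊥`, whose total base area `∑ᵢ area(Bᵢ)` is smaller, by a positive margin, than half the area of the orthogonal projection of `K` onto `v^⊥` for every unit vector `v`; areas are 2-dimensional Hausdorff measure. -/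
theorem result :
    ∃ (m : ℕ) (u p q r : Fin m → EuclideanSpace ℝ (Fin 3)),
      (∀ i, ‖u i‖ = 1) ∧
      (∀ i, inner ℝ (p i) (u i) = 0 ∧ inner ℝ (q i) (u i) = 0 ∧ inner ℝ (r i) (u i) = 0) ∧
      convexHull ℝ {!₂[1, 0, 0], !₂[-1, 0, 0], !₂[0, 1, Real.sqrt 2], !₂[0, -1, Real.sqrt 2]} ⊆
        ⋃ i, {x : EuclideanSpace ℝ (Fin 3) | ∃ b ∈ convexHull ℝ {p i, q i, r i}, ∃ t : ℝ, x = b + t • u i} ∧
      ∃ δ : ℝ, 0 < δ ∧ ∀ v : EuclideanSpace ℝ (Fin 3), ‖v‖ = 1 →
        ∑ i, (μH[(2 : ℝ)] (convexHull ℝ {p i, q i, r i})).toReal + δ ≤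
          (μH[(2 : ℝ)] ((fun y => y - inner ℝ y v • v) '' convexHull ℝ {!₂[1, 0, 0], !₂[-1, 0, 0], !₂[0, 1, Real.sqrt 2], !₂[0, -1, Real.sqrt 2]})).toReal / 2 := by
  obtain ⟨u, p, q, r, hc, hA⟩ := Crest.Agent.R211.cover_exact 8000000 le_rfl le_rfl
  set c : NNReal := Measure.addHaarScalarFactor
    (volume : Measure (EuclideanSpace ℝ (Fin 2))) μH[((2 : ℕ) : ℝ)] with hcd
  have hc0 : c ≠ 0 := Measure.addHaarScalarFactor_volume_hausdorffMeasure_ne_zero 2
  have hcpos : (0 : ℝ) < c := by positivity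
  have key : ∀ s : Set (EuclideanSpace ℝ (Fin 3)),
      (μH[(2 : ℝ)] s).toReal = (μHE[2] s).toReal / c := by
    intro s
    rw [Measure.euclideanHausdorffMeasure_def, ← hcd, Measure.smul_apply, ENNReal.smul_def,
      smul_eq_mul, ENNReal.toReal_mul]
    simp only [ENNReal.coe_toReal, Nat.cast_ofNat]
    field_simp
  have h2 : 0 < Real.sqrt 2 := by positivity
  refine ⟨_, u, p, q, r, hc.1, hc.2.1, hc.2.2,
    Real.sqrt 2 * (13 / 6000 * (1 / 2000) ^ 2) / c, by positivity, ?_⟩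
  intro v hv
  simp only [key, Crest.Agent.R211.toReal_triangle]
  rw [← Finset.sum_div, hA, ← add_div, div_right_comm]
  apply div_le_div_of_nonneg_right _ hcpos.le
  have h3 := Crest.Agent.R211.proj_K0_ge hv
  have h4 := Crest.Agent.R211.proj_lt_top hv Crest.Agent.R211.K0_compact
  have h5 := ENNReal.toReal_mono h4.ne h3
  rw [ENNReal.toReal_ofReal h2.le] at h5
  change _ ≤ (μHE[2] (Crest.Agent.R211.prj v '' Crest.Agent.R211.K0)).toReal / 2
  linarith

end Crest.Agent.S0324
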