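import Crest.Statements.S0325
import Crest.Agent.R211.Cover

set_option autoImplicit false
open MeasureTheory
open scoped ENNReal
open Crest Crest.GeometryTopology Crest.GeometryTopology.Convex

namespace Crest.Agent.S0325

/-- Let K be the regular tetrahedron with vertices (±1, 0, 0), (0, ±1, √2); areas are Lebesgue-normalised 2-dimensional Hausdorff measure. (1) The least area of an orthogonal projection of K onto a plane is √2: each map y ↦ y − ⟪y, v⟫ v with ‖v‖ = 1 sends K to a set of area ≥ √2, equal for some v. (2) For every 0 < ε ≤ 5·10⁻⁴, K is covered by 2⌈2/ε²⌉ cylinders Bᵢ + ℝ uᵢ, uᵢ a unit vector, Bᵢ a triangle (convex hull of three points) in uᵢ^⊥, of total area A with ‖A/√2 − 1/2 + 13 ε²/6000‖ ≤ 2 ε⁴. -/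
theorem result :
    ((∀ v : EuclideanSpace ℝ (Fin 3), ‖v‖ = 1 →
        ENNReal.ofReal (Real.sqrt 2) ≤ μHE[2] ((fun y => y - inner ℝ y v • v) '' convexHull ℝ {!₂[1, 0, 0], !₂[-1, 0, 0], !₂[0, 1, Real.sqrt 2], !₂[0, -1, Real.sqrt 2]})) ∧
      ∃ v : EuclideanSpace ℝ (Fin 3), ‖v‖ = 1 ∧
        μHE[2] ((fun y => y - inner ℝ y v • v) '' convexHull ℝ {!₂[1, 0, 0], !₂[-1, 0, 0], !₂[0, 1, Real.sqrt 2], !₂[0, -1, Real.sqrt 2]}) = ENNReal.ofReal (Real.sqrt 2)) ∧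
    ∀ ε : ℝ, 0 < ε → ε ≤ 1 / 2000 →
      ∃ (u p q r : Fin (2 * ⌈2 / ε ^ 2⌉₊) → EuclideanSpace ℝ (Fin 3)),
        (∀ i, ‖u i‖ = 1) ∧
        (∀ i, inner ℝ (p i) (u i) = 0 ∧ inner ℝ (q i) (u i) = 0 ∧ inner ℝ (r i) (u i) = 0) ∧
        convexHull ℝ {!₂[1, 0, 0], !₂[-1, 0, 0], !₂[0, 1, Real.sqrt 2], !₂[0, -1, Real.sqrt 2]} ⊆
          ⋃ i, {x : EuclideanSpace ℝ (Fin 3) | ∃ b ∈ convexHull ℝ {p i, q i, r i}, ∃ t : ℝ, x = b + t • u i} ∧
        abs ((∑ i, (μHE[2] (convexHull ℝ ({p i, q i, r i} : Set (EuclideanSpace ℝ (Fin 3))))).toReal) / Real.sqrt 2 -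
            (1 / 2 - 13 / 6000 * ε ^ 2)) ≤ 2 * ε ^ 4 := by
  refine ⟨⟨fun v hv => Crest.Agent.R211.proj_K0_ge hv,
    !₂[1, 0, 0], Crest.Agent.R211.norm_e0, Crest.Agent.R211.proj_K0_eq⟩, ?_⟩
  intro ε h0 h1
  have h2 : 0 < Real.sqrt 2 := by positivity
  have hε : ε ^ 2 ≤ (1 / 2000) ^ 2 := pow_le_pow_left₀ h0.le h1 2
  have hN : 8000000 ≤ ⌈2 / ε ^ 2⌉₊ := by
    have : ((8000000 : ℕ) : ℝ) ≤ 2 / ε ^ 2 := by
      rw [le_div_iff₀ (by positivity)]; push_cast; nlinarith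
    exact_mod_cast this.trans (Nat.le_ceil _)
  obtain ⟨u, p, q, r, hc, hA⟩ := Crest.Agent.R211.cover_exact _ hN
    (A := Real.sqrt 2 * (1 / 2 - 13 / 6000 * ε ^ 2))
    (mul_le_mul_of_nonneg_left (by linarith) h2.le)
  refine ⟨u, p, q, r, hc.1, hc.2.1, hc.2.2, ?_⟩
  simp only [Crest.Agent.R211.toReal_triangle, hA]
  rw [mul_div_cancel_left₀ _ h2.ne', sub_self, abs_zero]
  positivity

end Crest.Agent.S0325
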