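import Crest.Statements.S0327
import Crest.Agent.R211.Par

set_option autoImplicit false
open MeasureTheory
open scoped ENNReal
open Crest Crest.GeometryTopology Crest.GeometryTopology.Convex

namespace Crest.Agent.S0327

/-- Let K ⊂ ℝ³ be a regular tetrahedron (convex hull of four points with equal pairwise distances ℓ > 0); areas are Lebesgue-normalised 2-dimensional Hausdorff measure, π_v y = y − ⟪y, v⟫ v. (1) Finitely many cylinders Bᵢ + ℝ uᵢ, ‖uᵢ‖ = 1, with parallelogram bases Bᵢ = cᵢ + [0,1]aᵢ + [0,1]bᵢ in uᵢ^⊥ cover K, ∑ᵢ area(Bᵢ) being below half of area(π_v K) by a positive margin for all unit v, and ∑ᵢ area(Bᵢ)/area(π_{uᵢ} K) < 1/2. (2) The same with bounded relatively open subsets of the uᵢ^⊥ as bases. -/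
theorem result
    (w : Fin 4 → EuclideanSpace ℝ (Fin 3)) (ℓ : ℝ) (hℓ : 0 < ℓ)
    (hw : ∀ i j, i ≠ j → dist (w i) (w j) = ℓ) :
    (∃ (k : ℕ) (u c a b : Fin k → EuclideanSpace ℝ (Fin 3)),
      (∀ i, ‖u i‖ = 1) ∧
      (∀ i, inner ℝ (c i) (u i) = 0 ∧ inner ℝ (a i) (u i) = 0 ∧ inner ℝ (b i) (u i) = 0) ∧
      convexHull ℝ (Set.range w) ⊆ ⋃ i, {x : EuclideanSpace ℝ (Fin 3) |
        ∃ s ∈ Set.Icc (0 : ℝ) 1, ∃ t ∈ Set.Icc (0 : ℝ) 1, ∃ τ : ℝ, x = c i + s • a i + t • b i + τ • u i} ∧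
      (∃ δ : ℝ, 0 < δ ∧ ∀ v : EuclideanSpace ℝ (Fin 3), ‖v‖ = 1 →
        (∑ i, (μHE[2] {x : EuclideanSpace ℝ (Fin 3) |
            ∃ s ∈ Set.Icc (0 : ℝ) 1, ∃ t ∈ Set.Icc (0 : ℝ) 1, x = c i + s • a i + t • b i}).toReal) + δ ≤
          (μHE[2] ((fun y => y - inner ℝ y v • v) '' convexHull ℝ (Set.range w))).toReal / 2) ∧
      ∑ i, (μHE[2] {x : EuclideanSpace ℝ (Fin 3) |
            ∃ s ∈ Set.Icc (0 : ℝ) 1, ∃ t ∈ Set.Icc (0 : ℝ) 1, x = c i + s • a i + t • b i}).toReal /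
          (μHE[2] ((fun y => y - inner ℝ y (u i) • u i) '' convexHull ℝ (Set.range w))).toReal < 1 / 2) ∧
    (∃ (k : ℕ) (u : Fin k → EuclideanSpace ℝ (Fin 3)) (B : Fin k → Set (EuclideanSpace ℝ (Fin 3))),
      (∀ i, ‖u i‖ = 1) ∧
      (∀ i, Bornology.IsBounded (B i) ∧ ∃ O : Set (EuclideanSpace ℝ (Fin 3)), IsOpen O ∧
        B i = O ∩ {x | inner ℝ x (u i) = 0}) ∧
      convexHull ℝ (Set.range w) ⊆
        ⋃ i, {x : EuclideanSpace ℝ (Fin 3) | ∃ y ∈ B i, ∃ τ : ℝ, x = y + τ • u i} ∧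
      (∃ δ : ℝ, 0 < δ ∧ ∀ v : EuclideanSpace ℝ (Fin 3), ‖v‖ = 1 →
        (∑ i, (μHE[2] (B i)).toReal) + δ ≤
          (μHE[2] ((fun y => y - inner ℝ y v • v) '' convexHull ℝ (Set.range w))).toReal / 2) ∧
      ∑ i, (μHE[2] (B i)).toReal /
          (μHE[2] ((fun y => y - inner ℝ y (u i) • u i) '' convexHull ℝ (Set.range w))).toReal < 1 / 2) := by
  obtain ⟨m, k, u, c, a, b, hm0, hm, hc, hA⟩ := Crest.Agent.R211.regular_cover w ℓ hℓ hw
  constructor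
  · have := Crest.Agent.R211.final_ineq hm0 hm
      (fun i => (μHE[2] (Crest.Agent.R211.par (c i) (a i) (b i))).toReal)
      (fun i => ENNReal.toReal_nonneg) (by simpa only [Crest.Agent.R211.toReal_par] using hA) u hc.1
    exact ⟨k, u, c, a, b, hc.1, hc.2.1, hc.2.2, this.1, this.2⟩
  · obtain ⟨B, h1, h2, h3⟩ := hc.toOpen
      (η := (m / 2 - ∑ i, Crest.Agent.R211.gram (a i) (b i)) / 2) (by linarith)
    have := Crest.Agent.R211.final_ineq hm0 hm (fun i => (μHE[2] (B i)).toReal)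
      (fun i => ENNReal.toReal_nonneg) (by linarith) u hc.1
    exact ⟨k, u, B, hc.1, h1, h2, this.1, this.2⟩

end Crest.Agent.S0327
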