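import Crest.Statements.S0328
import Crest.Agent.R211.Sweep

set_option autoImplicit false
open MeasureTheory
open scoped ENNReal
open Crest Crest.GeometryTopology Crest.GeometryTopology.Convex

namespace Crest.Agent.S0328

/-- Unit e; a, b, p₀ ∈ e^⊥, a, b independent; α < β; L > 0; R ≥ 0, λ both continuous on [α, β]; w(t) ∈ e^⊥, w′ = λ(t)(a + tb). S = {p₀ + ρ(a + t b) + s(e + w t) : α ≤ t ≤ β, 0 ≤ ρ ≤ R t, ‖s‖ ≤ L}; A = κ ∫_α^β R²/(2√(1 + ‖w‖²)), κ = area spanned by a, b. For η > 0 a δ > 0 makes each partition t₀ < … < t_N of [α, β] of mesh ≤ δ, tags cᵢ, admit N cylinders (axes e + w(cᵢ), nondegenerate triangle bases) covering S, total area within η of A; same for S's pieces tᵢ ≤ t ≤ tᵢ₊₁ projected along these axes. -/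
theorem result
    (e a b p₀ : EuclideanSpace ℝ (Fin 3)) (he : ‖e‖ = 1)
    (ha : inner ℝ a e = 0) (hb : inner ℝ b e = 0) (hp₀ : inner ℝ p₀ e = 0)
    (hab : LinearIndependent ℝ ![a, b]) (L : ℝ) (hL : 0 < L) (α β : ℝ) (hαβ : α < β)
    (R : ℝ → ℝ) (hR : ContinuousOn R (Set.Icc α β)) (hR0 : ∀ t ∈ Set.Icc α β, 0 ≤ R t)
    (w : ℝ → EuclideanSpace ℝ (Fin 3)) (hw : ∀ t ∈ Set.Icc α β, inner ℝ (w t) e = 0)
    (lam : ℝ → ℝ) (hlam : ContinuousOn lam (Set.Icc α β))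
    (hw' : ∀ t ∈ Set.Icc α β, HasDerivWithinAt w (lam t • (a + t • b)) (Set.Icc α β) t)
    (η : ℝ) (hη : 0 < η) :
    ∃ δ : ℝ, 0 < δ ∧ ∀ (N : ℕ) (t : Fin (N + 1) → ℝ) (c : Fin N → ℝ),
      StrictMono t → t 0 = α → t (Fin.last N) = β →
      (∀ i : Fin N, t i.succ - t i.castSucc ≤ δ) →
      (∀ i : Fin N, t i.castSucc ≤ c i ∧ c i ≤ t i.succ) →
      (∃ (p q r : Fin N → EuclideanSpace ℝ (Fin 3)),
        (∀ i, inner ℝ (p i) (e + w (c i)) = 0 ∧ inner ℝ (q i) (e + w (c i)) = 0 ∧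
          inner ℝ (r i) (e + w (c i)) = 0) ∧
        (∀ i, AffineIndependent ℝ ![p i, q i, r i]) ∧
        {x : EuclideanSpace ℝ (Fin 3) | ∃ τ ∈ Set.Icc α β, ∃ ρ ∈ Set.Icc 0 (R τ), ∃ s : ℝ, abs s ≤ L ∧
            x = p₀ + ρ • (a + τ • b) + s • (e + w τ)} ⊆
          ⋃ i, {x : EuclideanSpace ℝ (Fin 3) | ∃ y ∈ convexHull ℝ {p i, q i, r i}, ∃ σ : ℝ,
            x = y + σ • (e + w (c i))} ∧
        abs ((∑ i, (μHE[2] (convexHull ℝ ({p i, q i, r i} : Set (EuclideanSpace ℝ (Fin 3))))).toReal) -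
            Real.sqrt (‖a‖ ^ 2 * ‖b‖ ^ 2 - inner ℝ a b ^ 2) *
              ∫ τ in α..β, R τ ^ 2 / (2 * Real.sqrt (1 + ‖w τ‖ ^ 2))) ≤ η) ∧
      abs ((∑ i : Fin N, (μHE[2] ((fun y => y - (inner ℝ y (e + w (c i)) / ‖e + w (c i)‖ ^ 2) • (e + w (c i))) ''
            {x : EuclideanSpace ℝ (Fin 3) | ∃ τ ∈ Set.Icc (t i.castSucc) (t i.succ), ∃ ρ ∈ Set.Icc 0 (R τ),
              ∃ s : ℝ, abs s ≤ L ∧ x = p₀ + ρ • (a + τ • b) + s • (e + w τ)})).toReal) -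
          Real.sqrt (‖a‖ ^ 2 * ‖b‖ ^ 2 - inner ℝ a b ^ 2) *
            ∫ τ in α..β, R τ ^ 2 / (2 * Real.sqrt (1 + ‖w τ‖ ^ 2))) ≤ η := by
  have hβα : 0 < β - α := by linarith
  obtain ⟨δ, hδ, H⟩ := Crest.Agent.R211.radial_sweep e a b p₀ he ha hb hab L hL α β hαβ R hR hR0 w hw
    lam hlam hw' (η / (β - α)) (by positivity)
  refine ⟨δ, hδ, fun N t c hmono h0 hN hmesh hc => ?_⟩
  have hlo : ∀ i, α ≤ t i := fun i => h0 ▸ hmono.monotone (Fin.zero_le i)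
  have hhi : ∀ i, t i ≤ β := fun i => hN ▸ hmono.monotone (Fin.le_last i)
  choose p q r h1 h2 h3 h4 h5 using fun i : Fin N => H (t i.castSucc) (t i.succ) (c i) (hlo _)
    (hmono i.castSucc_lt_succ) (hhi _) (hmesh i) (hc i)
  set G : ℝ → ℝ := fun τ => R τ ^ 2 / (2 * Real.sqrt (1 + ‖w τ‖ ^ 2)) with hG
  have hwc : ContinuousOn w (Set.Icc α β) := fun t ht => (hw' t ht).continuousWithinAt
  have hGc : ContinuousOn G (Set.Icc α β) := by
    apply ContinuousOn.div (hR.pow 2)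
      (continuousOn_const.mul ((continuousOn_const.add (hwc.norm.pow 2)).sqrt))
    intro t _
    change 2 * Real.sqrt (1 + ‖w t‖ ^ 2) ≠ 0
    positivity
  have hint : ∀ i, IntervalIntegrable G volume α (t i) := fun i =>
    (hGc.mono (Set.uIcc_subset_Icc ⟨le_rfl, hαβ.le⟩ ⟨hlo i, hhi i⟩)).intervalIntegrable
  have hsum : ∫ τ in α..β, G τ = ∑ i : Fin N, ∫ τ in t i.castSucc..t i.succ, G τ := by
    have := Crest.Agent.R211.fin_telescope (fun i => ∫ τ in α..t i, G τ)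
    simp only [intervalIntegral.integral_interval_sub_left (hint _) (hint _)] at this
    rw [this, h0, hN]
  have fin : ∀ A : Fin N → ℝ, (∀ i, |A i - Crest.Agent.R211.gram a b *
      ∫ τ in t i.castSucc..t i.succ, G τ| ≤ η / (β - α) * (t i.succ - t i.castSucc)) →
      |(∑ i, A i) - Crest.Agent.R211.gram a b * ∫ τ in α..β, G τ| ≤ η := by
    intro A hA
    rw [hsum, Finset.mul_sum, ← Finset.sum_sub_distrib]
    refine (Finset.abs_sum_le_sum_abs _ _).trans ((Finset.sum_le_sum fun i _ => hA i).trans ?_)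
    rw [← Finset.mul_sum, Crest.Agent.R211.fin_telescope, h0, hN, div_mul_cancel₀ _ hβα.ne']
  refine ⟨⟨p, q, r, h1, h2, ?_, fin _ h4⟩, ?_⟩
  · rintro x ⟨τ, hτ, hx⟩
    obtain ⟨i, hi⟩ := Crest.Agent.R211.fin_locate t (by rw [h0, hN]; exact hαβ) (h0 ▸ hτ.1) (hN ▸ hτ.2)
    exact Set.mem_iUnion.2 ⟨i, h3 i ⟨τ, hi, hx⟩⟩
  · simp only [Crest.Agent.R211.prj_unit_eq]
    exact fin _ h5

end Crest.Agent.S0328
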