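import Crest.Statements.S0329
import Crest.Agent.R211.Square
import Crest.Agent.R211.Par

set_option autoImplicit false
open MeasureTheory
open scoped ENNReal
open Crest Crest.GeometryTopology Crest.GeometryTopology.Convex

namespace Crest.Agent.S0329

/-- Let h, M > 0, D ⊂ ℝ² be compact with Lebesgue-null boundary, and V : ℝ² → ℝ² be C¹ on an open set containing D with tr DV(p) = 0 and −1/M² < det DV(p) < 0 for p ∈ D. For every ε > 0 the set of points (x, p₁ + x V₁(p), h (p₂ + x V₂(p))) ∈ ℝ³ with p ∈ D, −M ≤ x ≤ M is covered by finitely many cylinders Bᵢ + ℝ uᵢ, ‖uᵢ‖ = 1, with bases Bᵢ bounded relatively open subsets of the planes uᵢ^⊥ and ∑ᵢ area(Bᵢ) ≤ h ∫_D (1 + V₁² + h² V₂²)^(−1/2) + ε (areas: normalised 2-dimensional Hausdorff measure). -/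
theorem result
    (h M : ℝ) (hh : 0 < h) (hM : 0 < M) (D : Set (EuclideanSpace ℝ (Fin 2))) (hD : IsCompact D)
    (hbd : volume (frontier D) = 0)
    (V : EuclideanSpace ℝ (Fin 2) → EuclideanSpace ℝ (Fin 2)) (U : Set (EuclideanSpace ℝ (Fin 2)))
    (hU : IsOpen U) (hDU : D ⊆ U) (hV : ContDiffOn ℝ 1 V U)
    (htr : ∀ p ∈ D, LinearMap.trace ℝ _ (fderiv ℝ V p).toLinearMap = 0)
    (hdet : ∀ p ∈ D, -(M ^ 2)⁻¹ < LinearMap.det (fderiv ℝ V p).toLinearMap ∧
      LinearMap.det (fderiv ℝ V p).toLinearMap < 0)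
    (ε : ℝ) (hε : 0 < ε) :
    ∃ (k : ℕ) (u : Fin k → EuclideanSpace ℝ (Fin 3)) (B : Fin k → Set (EuclideanSpace ℝ (Fin 3))),
      (∀ i, ‖u i‖ = 1) ∧
      (∀ i, Bornology.IsBounded (B i) ∧ ∃ O : Set (EuclideanSpace ℝ (Fin 3)), IsOpen O ∧
        B i = O ∩ {x | inner ℝ x (u i) = 0}) ∧
      {z : EuclideanSpace ℝ (Fin 3) | ∃ p ∈ D, ∃ x : ℝ, abs x ≤ M ∧
          z = !₂[x, p 0 + x * V p 0, h * (p 1 + x * V p 1)]} ⊆
        ⋃ i, {z : EuclideanSpace ℝ (Fin 3) | ∃ y ∈ B i, ∃ τ : ℝ, z = y + τ • u i} ∧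
      ∑ i, (μHE[2] (B i)).toReal ≤
        h * (∫ p in D, 1 / Real.sqrt (1 + (V p 0) ^ 2 + h ^ 2 * (V p 1) ^ 2)) + ε := by
  obtain ⟨k, c, a, b, g, h1, h2, h3⟩ :=
    (Crest.Agent.R211.sqCover_ruled D hD V U hU hDU hV M h hM htr
      (fun p hp => ⟨(hdet p hp).1, (hdet p hp).2.le⟩) (ε / (2 * h)) (by positivity)).toFin
  let ι : EuclideanSpace ℝ (Fin 2) → EuclideanSpace ℝ (Fin 3) := fun ξ => !₂[0, ξ 0, h * ξ 1]
  let d : Fin k → EuclideanSpace ℝ (Fin 3) := fun i => !₂[1, g i 0, h * g i 1]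
  have hd : ∀ i, d i ≠ 0 := fun i h0 => by
    have := congrArg (fun z : EuclideanSpace ℝ (Fin 3) => z 0) h0
    simp [d] at this
  have hu : ∀ i, ‖Crest.Agent.R211.unit (d i)‖ = 1 := fun i => Crest.Agent.R211.norm_unit (hd i)
  have hc : Crest.Agent.R211.ParCover
      {z : EuclideanSpace ℝ (Fin 3) | ∃ p ∈ D, ∃ x : ℝ, abs x ≤ M ∧
          z = !₂[x, p 0 + x * V p 0, h * (p 1 + x * V p 1)]}
      (fun i => Crest.Agent.R211.unit (d i))
      (fun i => Crest.Agent.R211.prj (Crest.Agent.R211.unit (d i)) (ι (c i)))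
      (fun i => Crest.Agent.R211.prj (Crest.Agent.R211.unit (d i)) (ι (a i)))
      (fun i => Crest.Agent.R211.prj (Crest.Agent.R211.unit (d i)) (ι (b i))) := by
    refine ⟨hu, fun i => ⟨Crest.Agent.R211.prj_inner (hu i) _, Crest.Agent.R211.prj_inner (hu i) _,
      Crest.Agent.R211.prj_inner (hu i) _⟩, ?_⟩
    rintro z ⟨p, hp, x, hx, hz⟩
    obtain ⟨i, s, hs, t, ht, e⟩ := Set.mem_iUnion.1 (h2 (a := (x, p + x • V p)) ⟨p, hp, hx, rfl⟩)
    simp only at e
    have e0 := congrArg (fun z : EuclideanSpace ℝ (Fin 2) => z 0) e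
    have e1 := congrArg (fun z : EuclideanSpace ℝ (Fin 2) => z 1) e
    simp only [PiLp.add_apply, PiLp.smul_apply, smul_eq_mul] at e0 e1
    have hz' : z = ι (c i) + s • ι (a i) + t • ι (b i) + x • d i := by
      rw [hz]
      ext j; fin_cases j
      · simp [ι, d]
      · simp [ι, d]; linarith
      · simp [ι, d]; linear_combination h * e1
    refine Set.mem_iUnion.2 ⟨i, s, hs, t, ht, inner ℝ z (Crest.Agent.R211.unit (d i)), ?_⟩
    have : Crest.Agent.R211.prj (Crest.Agent.R211.unit (d i)) z =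
        Crest.Agent.R211.prj (Crest.Agent.R211.unit (d i)) (ι (c i)) +
        s • Crest.Agent.R211.prj (Crest.Agent.R211.unit (d i)) (ι (a i)) +
        t • Crest.Agent.R211.prj (Crest.Agent.R211.unit (d i)) (ι (b i)) := by
      conv_lhs => rw [hz']
      simp only [map_add, Crest.Agent.R211.prj_smul_self (hd i), map_smul, add_zero]
    rw [← this, Crest.Agent.R211.prj_apply]
    abel
  obtain ⟨B, b1, b2, b3⟩ := hc.toOpen (η := ε / 2) (by positivity)
  refine ⟨k, _, B, hu, b1, b2, b3.trans ?_⟩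
  have hg : ∀ i, Crest.Agent.R211.gram (Crest.Agent.R211.prj (Crest.Agent.R211.unit (d i)) (ι (a i)))
      (Crest.Agent.R211.prj (Crest.Agent.R211.unit (d i)) (ι (b i))) =
      h * (‖a i‖ ^ 2 * Crest.Agent.R211.J h (g i)) := by
    intro i
    rw [Crest.Agent.R211.gram_prj (hu i), Crest.Agent.R211.det3_unit]
    have n1 : ‖d i‖ = Real.sqrt (1 + (g i 0) ^ 2 + h ^ 2 * (g i 1) ^ 2) := by
      rw [← Real.sqrt_sq (norm_nonneg (d i)), Crest.Agent.R211.normsq3]
      congr 1; simp [d]; ring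
    have n2 : Crest.Agent.R211.det3 (ι (a i)) (ι (b i)) (d i) =
        h * (a i 0 * b i 1 - a i 1 * b i 0) := by
      simp [Crest.Agent.R211.det3, ι, d]; ring
    have n3 : |a i 0 * b i 1 - a i 1 * b i 0| = ‖a i‖ ^ 2 := by
      obtain ⟨-, p1, p2⟩ := h1 i
      apply (pow_left_inj₀ (abs_nonneg _) (by positivity) two_ne_zero).1
      have q1 := Crest.Agent.R211.normsq2 (a i)
      have q2 := Crest.Agent.R211.normsq2 (b i)
      rw [p1] at q2
      rw [Crest.Agent.R211.inner2] at p2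
      rw [sq_abs]
      have : (‖a i‖ ^ 2) ^ 2 = (a i 0 ^ 2 + a i 1 ^ 2) * (b i 0 ^ 2 + b i 1 ^ 2) := by
        rw [← q1, ← q2]; ring
      rw [this]
      linear_combination (-(a i 0 * b i 0 + a i 1 * b i 1)) * p2
    rw [n2, abs_div, abs_mul, n3, abs_of_pos hh, abs_norm, n1, Crest.Agent.R211.J]
    ring
  simp only [hg]
  rw [← Finset.mul_sum]
  have h4 := mul_le_mul_of_nonneg_left h3 hh.le
  have h5 : h * (ε / (2 * h)) = ε / 2 := by field_simp
  simp only [Crest.Agent.R211.J] at h4 ⊢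
  linarith

end Crest.Agent.S0329
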