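import Crest.Statements.S0336
import Crest.Agent.R217.H5
import Crest.Agent.R217.Padic
import Crest.Agent.R217.Mfd
import Crest.Agent.R217.Deg2
import Crest.Agent.R217.SgStep

set_option autoImplicit false
open scoped Manifold ContDiff
open Crest Crest.GeometryTopology

namespace Crest.Agent.S0336

/-- Let n ≥ 1. If a locally compact, second-countable, Hausdorff topological group acts faithfully and jointly continuously on a connected, second-countable, Hausdorff topological n-manifold without boundary (a space with an atlas of charts into ℝⁿ), then the group, with its given topology, admits an atlas of charts into some ℝᵈ for which it is a smooth Lie group. -/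
theorem result
    (n : ℕ) (hn : 1 ≤ n)
    (M : Type*) [TopologicalSpace M] [T2Space M] [SecondCountableTopology M] [ConnectedSpace M]
    [ChartedSpace (EuclideanSpace ℝ (Fin n)) M]
    (G : Type*) [Group G] [TopologicalSpace G] [IsTopologicalGroup G] [T2Space G]
    [SecondCountableTopology G] [LocallyCompactSpace G]
    [MulAction G M] [ContinuousSMul G M] [FaithfulSMul G M] :
    ∃ (d : ℕ) (c : ChartedSpace (EuclideanSpace ℝ (Fin d)) G),
      @LieGroup ℝ _ (EuclideanSpace ℝ (Fin d)) _ (EuclideanSpace ℝ (Fin d)) _ _
        𝓘(ℝ, EuclideanSpace ℝ (Fin d)) ∞ G _ _ c := by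
  refine R217.lie_of_nss G ?_
  exact R217.nss_of_faithful (M := M) (V := EuclideanSpace ℝ (Fin n))
    (R217.fixProp_of_odd (fun m => (R217.hasBase m).degTh) _) G (R217.exists_padic_hom G)

end Crest.Agent.S0336
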