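import Crest.Statements.S0351
import Crest.Agent.R227.Main

set_option autoImplicit false
open Crest.LubinTate
open Crest Crest.GeometryTopology

namespace Crest.Agent.S0351

/-- Let p be prime, n ≥ 1, k the field with p^n elements, Γ a commutative formal group law over k with p-series X^(p^n), H a universal deformation of Γ over E₀ = W(k)[[u₁,…,u_{n-1}]], and M ≥ 1. Put I_0(H) = 0 and let I_{h+1}(H) be generated by I_h(H) and the coefficient of X^(p^h) in the p-series of H. An ideal of E₀ stable under all automorphisms of Γ congruent to X modulo X^M is prime exactly when it is one of I_0(H), …, I_n(H), and radical exactly when it is one of these or all of E₀. -/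
theorem result
    (p : ℕ) [Fact p.Prime] (n : ℕ) (hn : 1 ≤ n)
    (Γ : FormalGroup (GaloisField p n)) [Γ.IsComm]
    (hΓ : mulSeries Γ p = PowerSeries.X ^ (p ^ n))
    (H : FormalGroup (LTRing p n)) [H.IsComm] (hH : IsUniversalDeformation p n Γ H)
    (M : ℕ) (hM : 1 ≤ M) :
    (∀ P : Ideal (LTRing p n),
        (P.IsPrime ∧ IsStableIdeal p n Γ H M P) ↔ ∃ h : ℕ, h ≤ n ∧ P = heightIdeal p n H h) ∧
    (∀ J : Ideal (LTRing p n),
        (J.IsRadical ∧ IsStableIdeal p n Γ H M J) ↔
          (∃ h : ℕ, h ≤ n ∧ J = heightIdeal p n H h) ∨ J = ⊤) := by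
  obtain ⟨τ, ϑ, hτ, hϑ, h1⟩ := R227.exists_transfer hn hΓ hH
  have hH' := R227.HH_map_residue p n hn
  have hU := R227.isUniversal_transfer hH hH' τ hτ hϑ h1
  obtain ⟨m1, m2⟩ := R227.main_std hn hU M
  let t : LTRing p n →+* LTRing p n := τ
  have ht : Function.Bijective t := τ.bijective
  have hcm : ∀ J : Ideal (LTRing p n), Ideal.comap t (Ideal.map t J) = J := fun J =>
    Ideal.comap_map_of_bijective t ht
  have hmc : ∀ J : Ideal (LTRing p n), Ideal.map t (Ideal.comap t J) = J := fun J =>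
    Ideal.map_comap_of_surjective t ht.2 J
  have hhi : ∀ h ≤ n, heightIdeal p n H h = Ideal.comap t (R227.Jid p n h) := fun h hh => by
    rw [← R227.heightIdeal_of_iso hϑ h1 hh, R227.heightIdeal_map, hcm]
  have hst : ∀ J : Ideal (LTRing p n), IsStableIdeal p n Γ H M (Ideal.comap t J) ↔
      IsStableIdeal p n (R227.GG p n) (R227.HH p n) M J :=
    R227.stable_transfer hH.1 hH' τ hτ hϑ h1 M
  have hex : ∀ J : Ideal (LTRing p n), (∃ h : ℕ, h ≤ n ∧ J = R227.Jid p n h) ↔
      ∃ h : ℕ, h ≤ n ∧ Ideal.comap t J = heightIdeal p n H h := fun J => by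
    refine exists_congr fun h => and_congr_right fun hh => ?_
    rw [hhi h hh]
    exact ⟨fun e => by rw [e], fun e => by rw [← hmc J, e, hmc]⟩
  refine ⟨fun P => ?_, fun J => ?_⟩
  · obtain ⟨P', rfl⟩ : ∃ P', P = Ideal.comap t P' := ⟨_, (hcm P).symm⟩
    rw [← hex, ← m1, hst]
    refine and_congr_left fun _ => ⟨fun h => ?_, fun h => Ideal.comap_isPrime t P'⟩
    rw [← hmc P']
    exact Ideal.map_isPrime_of_surjective ht.2 (by
      rw [(RingHom.injective_iff_ker_eq_bot t).1 ht.1]; exact bot_le)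
  · obtain ⟨J', rfl⟩ : ∃ J', J = Ideal.comap t J' := ⟨_, (hcm J).symm⟩
    have htop : Ideal.comap t J' = ⊤ ↔ J' = ⊤ := Ideal.comap_eq_top_iff
    rw [← hex, htop, ← m2, hst]
    refine and_congr_left fun _ => ⟨fun h => ?_, fun h => h.comap t⟩
    rintro a ⟨m, hm⟩
    obtain ⟨b, rfl⟩ := ht.2 a
    exact h ⟨m, by rw [Ideal.mem_comap, map_pow]; exact hm⟩

end Crest.Agent.S0351
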