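import Crest.Statements.S0392
import Crest.Agent.R254.Final

set_option autoImplicit false
open Crest.GeometryTopology
universe u v
open Crest Crest.GeometryTopology

namespace Crest.Agent.S0392

/-- There is a universal constant `Λ` such that every infinite-dimensional real Banach space contains a compact subset that is doubling with constant at most `Λ` and admits no map into any finite-dimensional real normed space that is Lipschitz with a Lipschitz inverse on its image, whatever the two Lipschitz constants. Doubling is measured with closed balls centred at points of the subset. -/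
theorem result :
    ∃ Λ : ℕ, ∀ (B : Type u) [NormedAddCommGroup B] [NormedSpace ℝ B] [CompleteSpace B],
      ¬ FiniteDimensional ℝ B →
      ∃ K : Set B, IsCompact K ∧ DoublingConstLE K Λ ∧
        ∀ (Y : Type v) [NormedAddCommGroup Y] [NormedSpace ℝ Y] [FiniteDimensional ℝ Y]
          (f : K → Y) (c C : NNReal), ¬ (LipschitzWith C f ∧ AntilipschitzWith c f) := by
  classical
  refine ⟨Crest.Agent.R254.Lam0 + 1, fun B _ _ _ hB => ?_⟩
  obtain ⟨K, h1, h2, h3⟩ := Crest.Agent.R254.main hB
  refine ⟨K, h1, Crest.Agent.R254.doubling_of_pack h2, fun Y _ _ _ f c C hf => ?_⟩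
  let L := toEuclidean (E := Y)
  have hL := (L.lipschitz.comp hf.1)
  have hA := (L.antilipschitz.comp hf.2)
  set c' : ℝ := ((c * ‖(L.symm : EuclideanSpace ℝ (Fin (Module.finrank ℝ Y)) →L[ℝ] Y)‖₊ : NNReal) : ℝ)
    with hc'
  have hc0 : 0 ≤ c' := NNReal.coe_nonneg _
  refine h3 (Module.finrank ℝ Y) (1 / (c' + 1))
    ((‖(L : Y →L[ℝ] EuclideanSpace ℝ (Fin (Module.finrank ℝ Y)))‖₊ * C : NNReal) : ℝ) (by positivity)
    (fun p => if h : p ∈ K then L (f ⟨p, h⟩) else 0) (fun p hp q hq => ⟨?_, ?_⟩)
  rotate_left
  · have := hL.dist_le_mul ⟨p, hp⟩ ⟨q, hq⟩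
    simp only [dif_pos hp, dif_pos hq]
    rw [Subtype.dist_eq, dist_eq_norm, dist_eq_norm] at this
    exact this
  · have := hA.le_mul_dist ⟨p, hp⟩ ⟨q, hq⟩
    simp only [dif_pos hp, dif_pos hq]
    rw [Subtype.dist_eq, dist_eq_norm, dist_eq_norm] at this
    rw [div_mul_eq_mul_div, one_mul, div_le_iff₀ (by positivity)]
    simp only [Function.comp_apply] at this
    nlinarith [norm_nonneg (L (f ⟨p, hp⟩) - L (f ⟨q, hq⟩))]

end Crest.Agent.S0392
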