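import Crest.Statements.S0397
import Crest.Agent.R259.Core
import Crest.Agent.R259.Uniform
import Crest.Agent.R259.Avoid

set_option autoImplicit false
open Crest Crest.AlgGeometry

namespace Crest.Agent.S0397

open MvPolynomial Crest.Agent.R259 in
theorem support_subset_iff (f : MvPolynomial (Fin 2) ℂ) (d : ℕ) :
    f.support ⊆ (Finset.range (d + 1)).biUnion
      (fun e => Finset.finsuppAntidiag (Finset.univ : Finset (Fin 2)) e) ↔ f.totalDegree ≤ d := by
  rw [totalDegree, Finset.sup_le_iff]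
  refine forall_congr' fun μ => forall_congr' fun _ => ?_
  have h1 : (μ.sum fun _ e => e) = ∑ i, μ i := by
    rw [Finsupp.sum_fintype _ _ (fun _ => rfl)]
  simp only [Finset.mem_biUnion, Finset.mem_range, Finset.mem_finsuppAntidiag, h1]
  constructor
  · rintro ⟨e, he, h2, -⟩
    exact Nat.le_of_lt_succ (h2 ▸ he)
  · intro h
    exact ⟨_, Nat.lt_succ_of_le h, rfl, Finset.subset_univ _⟩

open MvPolynomial Crest.Agent.R259 in
theorem exists_g (r : ℕ) (hr : 10 ≤ r) (d : ℕ) (m : Fin r → ℕ) :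
    ∃ g : MvPolynomial (Fin r × Fin 2) ℂ, g ≠ 0 ∧ ∀ p : Fin r → Fin 2 → ℂ,
      eval (fun ij : Fin r × Fin 2 => p ij.1 ij.2) g ≠ 0 → 1 ≤ d →
      ∀ f : MvPolynomial (Fin 2) ℂ, f ≠ 0 → f.totalDegree ≤ d → (∀ i, f ∈ mI (p i) ^ m i) →
        (∑ i, (m i : ℝ)) < (d : ℝ) * Real.sqrt (r : ℝ) := by
  classical
  by_cases hq : ∃ q : Fin r → Fin 2 → ℂ, Emp ((Finset.range (d + 1)).biUnion
      (fun e => Finset.finsuppAntidiag (Finset.univ : Finset (Fin 2)) e)) m q
  · obtain ⟨q, hq⟩ := hq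
    obtain ⟨g, hg0, hg⟩ := exists_cond _ m q hq
    exact ⟨g, hg0, fun p hp _ f hf0 hfd hfm =>
      absurd (hg p hp f ((support_subset_iff f d).mpr hfd) hfm) hf0⟩
  · refine ⟨1, one_ne_zero, fun p _ hd f _ _ _ => ?_⟩
    by_contra hlt
    obtain ⟨a, m', hm', ham, h9, h⟩ := uniform r hr d hd m (not_lt.mp hlt) fun q => by
      have h1 : ¬ Emp _ m q := fun h => hq ⟨q, h⟩
      simp only [Emp, not_forall] at h1
      obtain ⟨f, hfE, hfm, hf0⟩ := h1
      exact ⟨f, hf0, (support_subset_iff f d).mp hfE, hfm⟩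
    exact core r a m' hm' ham h9 h

/-- For every `r ≥ 10` there is a countable family of nonzero polynomial conditions on `r`-tuples of points of the complex affine plane, avoided by at least one tuple, such that at every tuple avoiding all of them the following holds: if a nonzero polynomial in two variables of total degree at most `d`, with `d ≥ 1`, vanishes to order at least `m i` at the `i`-th point for every `i`, then `∑ m i < d * √r`. -/
theorem result (r : ℕ) (hr : 10 ≤ r) :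
    ∃ S : Set (MvPolynomial (Fin r × Fin 2) ℂ),
      S.Countable ∧ (∀ g ∈ S, g ≠ 0) ∧
      (∃ p : Fin r → Fin 2 → ℂ, ∀ g ∈ S, MvPolynomial.eval (fun ij : Fin r × Fin 2 => p ij.1 ij.2) g ≠ 0) ∧
      ∀ p : Fin r → Fin 2 → ℂ, (∀ g ∈ S, MvPolynomial.eval (fun ij : Fin r × Fin 2 => p ij.1 ij.2) g ≠ 0) →
        ∀ (d : ℕ) (f : MvPolynomial (Fin 2) ℂ) (m : Fin r → ℕ),
          1 ≤ d → f ≠ 0 → f.totalDegree ≤ d →
          (∀ i, Crest.AlgGeometry.VanishesToOrder f (p i) (m i)) →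
          (∑ i, (m i : ℝ)) < (d : ℝ) * Real.sqrt (r : ℝ) := by
  choose g hg0 hg using exists_g r hr
  have hc : (Set.range fun dm : ℕ × (Fin r → ℕ) => g dm.1 dm.2).Countable := Set.countable_range _
  have h0 : ∀ g' ∈ (Set.range fun dm : ℕ × (Fin r → ℕ) => g dm.1 dm.2), g' ≠ 0 := by
    rintro _ ⟨dm, rfl⟩
    exact hg0 _ _
  refine ⟨_, hc, h0, ?_, fun p hp d f m hd hf0 hfd hfm => ?_⟩
  · obtain ⟨x, hx⟩ := Crest.Agent.R259.exists_avoid _ hc h0
    exact ⟨fun i j => x (i, j), hx⟩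
  · exact hg d m p (hp _ ⟨(d, m), rfl⟩) hd f hf0 hfd
      fun i => (Crest.Agent.R259.vanishes_iff _ _ _).mp (hfm i)

end Crest.Agent.S0397
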