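import Crest.Statements.S0408
import Crest.Agent.R268.Coord

set_option autoImplicit false
set_option maxSynthPendingDepth 6
open Crest Crest.AlgGeometry

namespace Crest.Agent.S0408

open Crest.Agent.R268 MvPolynomial

section Model
variable {A : Type*} [CommRing A]

def mx (a b c d : A) : A := b ^ 2 + a * c - d ^ 2
def mT (a b c d : A) : A := c * mx a b c d ^ 2 - 2 * b * mx a b c d * d - a * d ^ 2
def mp (a b c d : A) : A := a - (2 * d - mT a b c d) * mx a b c d ^ 2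
def ms (a b c d : A) : A := b + (2 * d - mT a b c d) * mx a b c d * d
def mF (a b c d : A) : A := c + (2 * d - mT a b c d) * d ^ 2
def mu (a b c d : A) : A := mT a b c d - d

variable {A' Φ : Type*} [CommRing A'] [FunLike Φ A A'] [RingHomClass Φ A A'] (φ : Φ)

lemma map_mx (a b c d : A) : φ (mx a b c d) = mx (φ a) (φ b) (φ c) (φ d) := by
  simp only [mx, map_add, map_sub, map_mul, map_pow]
lemma map_mT (a b c d : A) : φ (mT a b c d) = mT (φ a) (φ b) (φ c) (φ d) := by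
  simp only [mT, map_sub, map_mul, map_pow, map_mx, map_ofNat]
lemma map_mp (a b c d : A) : φ (mp a b c d) = mp (φ a) (φ b) (φ c) (φ d) := by
  simp only [mp, map_sub, map_mul, map_pow, map_mx, map_mT, map_ofNat]
lemma map_ms (a b c d : A) : φ (ms a b c d) = ms (φ a) (φ b) (φ c) (φ d) := by
  simp only [ms, map_add, map_sub, map_mul, map_mx, map_mT, map_ofNat]
lemma map_mF (a b c d : A) : φ (mF a b c d) = mF (φ a) (φ b) (φ c) (φ d) := by
  simp only [mF, map_add, map_sub, map_mul, map_pow, map_mT, map_ofNat]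
lemma map_mu (a b c d : A) : φ (mu a b c d) = mu (φ a) (φ b) (φ c) (φ d) := by
  simp only [mu, map_sub, map_mT]

lemma xx_model (a b c d : A) :
    xx false (mp a b c d) (ms a b c d) (mu a b c d) (mF a b c d) = mx a b c d := by
  have hT : mT a b c d = c * mx a b c d ^ 2 - 2 * b * mx a b c d * d - a * d ^ 2 := rfl
  have hx : mx a b c d = b ^ 2 + a * c - d ^ 2 := rfl
  simp only [xx, hf, ll, Bool.false_eq_true, ↓reduceIte, mp, ms, mu, mF]
  linear_combination (2 * d - mT a b c d) * hT - hx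

lemma HH_model (a b c d : A) :
    HH false (mp a b c d) (ms a b c d) (mu a b c d) (mF a b c d) d = 0 := by
  have hT : mT a b c d = c * mx a b c d ^ 2 - 2 * b * mx a b c d * d - a * d ^ 2 := rfl
  rw [HH, xx_model]
  simp only [ll, kd, Bool.false_eq_true, ↓reduceIte, mp, ms, mu, mF]
  linear_combination -hT

lemma model_inv (p s u F J : A) (h : HH false p s u F J = 0) : ∃ a b c : A,
    mp a b c J = p ∧ ms a b c J = s ∧ mu a b c J = u ∧ mF a b c J = F := by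
  obtain ⟨x, hx⟩ : ∃ x, x = s ^ 2 - u ^ 2 + p * F := ⟨_, rfl⟩
  have : xx false p s u F = x := by simp [xx, hf, ll, hx, sub_eq_add_neg]
  rw [HH, this] at h
  simp only [ll, kd, Bool.false_eq_true, ↓reduceIte] at h
  have e1 : mx (p + (J - u) * x ^ 2) (s - (J - u) * x * J) (F - (J - u) * J ^ 2) J = x := by
    rw [mx]; linear_combination (J - u) * h - hx
  have e2 : mT (p + (J - u) * x ^ 2) (s - (J - u) * x * J) (F - (J - u) * J ^ 2) J = u + J := by
    rw [mT, e1]; linear_combination h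
  refine ⟨p + (J - u) * x ^ 2, s - (J - u) * x * J, F - (J - u) * J ^ 2, ?_, ?_, ?_, ?_⟩
  · rw [mp, e1, e2]; ring
  · rw [ms, e1, e2]; ring
  · rw [mu, e2]; ring
  · rw [mF, e2]; ring

lemma model_gen [Algebra ℂ A] (a b c d : A) (S : Subalgebra ℂ A) (hp : mp a b c d ∈ S)
    (hs : ms a b c d ∈ S) (hu : mu a b c d ∈ S) (hF : mF a b c d ∈ S) (hJ : d ∈ S) :
    a ∈ S ∧ b ∈ S ∧ c ∈ S := by
  have hx : mx a b c d ∈ S := xx_model a b c d ▸ xx_mem false S hp hs hu hF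
  have hT : mT a b c d ∈ S := by
    rw [show mT a b c d = mu a b c d + d by rw [mu]; ring]; exact add_mem hu hJ
  have hτ : 2 * d - mT a b c d ∈ S := sub_mem (mul_mem (ofNat_mem _ 2) hJ) hT
  refine ⟨?_, ?_, ?_⟩
  · have := add_mem hp (mul_mem hτ (pow_mem hx 2))
    rwa [mp, sub_add_cancel] at this
  · have := sub_mem hs (mul_mem (mul_mem hτ hx) hJ)
    rwa [ms, add_sub_cancel_right] at this
  · have := sub_mem hF (mul_mem hτ (pow_mem hJ 2))
    rwa [mF, add_sub_cancel_right] at this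

end Model

abbrev P4 := MvPolynomial (Fin 4) ℂ

noncomputable def p : P4 := mp (X 0) (X 1) (X 2) (X 3)
noncomputable def s : P4 := ms (X 0) (X 1) (X 2) (X 3)
noncomputable def u : P4 := mu (X 0) (X 1) (X 2) (X 3)
noncomputable def F : P4 := mF (X 0) (X 1) (X 2) (X 3)
noncomputable def J : P4 := X 3

lemma hH : HH false p s u F J = 0 := HH_model _ _ _ _

lemma gen : Algebra.adjoin ℂ {p, s, u, F, J} = ⊤ := by
  set S := Algebra.adjoin ℂ {p, s, u, F, J}
  have hp : p ∈ S := Algebra.subset_adjoin (by simp)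
  have hs : s ∈ S := Algebra.subset_adjoin (by simp)
  have hu : u ∈ S := Algebra.subset_adjoin (by simp)
  have hF : F ∈ S := Algebra.subset_adjoin (by simp)
  have hJ : J ∈ S := Algebra.subset_adjoin (by simp)
  obtain ⟨h0, h1, h2⟩ := model_gen (X 0 : P4) (X 1) (X 2) (X 3) S hp hs hu hF hJ
  have hX : ∀ i, X i ∈ S := by
    intro i
    fin_cases i
    exacts [h0, h1, h2, hJ]
  rw [eq_top_iff]
  rintro f -
  induction f using MvPolynomial.induction_on with
  | C a => exact Subalgebra.algebraMap_mem _ a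
  | add p q hp hq => exact add_mem hp hq
  | mul_X p i hp => exact mul_mem hp (hX i)

lemma univ {B : Type*} [CommRing B] [Algebra ℂ B] (p' s' u' F' J' : B)
    (h : HH false p' s' u' F' J' = 0) :
    ∃ φ : P4 →ₐ[ℂ] B, φ p = p' ∧ φ s = s' ∧ φ u = u' ∧ φ F = F' ∧ φ J = J' := by
  obtain ⟨a, b, c, h1, h2, h3, h4⟩ := model_inv p' s' u' F' J' h
  refine ⟨aeval ![a, b, c, J'], ?_, ?_, ?_, ?_, ?_⟩
  · rw [p, map_mp]; simpa using h1
  · rw [s, map_ms]; simpa using h2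
  · rw [u, map_mu]; simpa using h3
  · rw [F, map_mF]; simpa using h4
  · simp [J]

lemma stable : ∃ σ : Polynomial P4 ≃ₐ[ℂ] Polynomial P4,
    σ (Polynomial.C p) = Polynomial.C (X 0) := by
  obtain ⟨s₁, u₁, F₁, J₁, h₁, m₁⟩ := shift false (Polynomial.C p) (Polynomial.C s)
    (Polynomial.C u) (Polynomial.C F) (Polynomial.C J) Polynomial.X
  rw [← map_HH, hH, map_zero, zero_add, show kk false = 1 from rfl, pow_one] at h₁
  obtain ⟨F', w', m₂⟩ := coord_node _ _ _ _ _ _ h₁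
  let φ : MvPolynomial (Fin 5) ℂ →ₐ[ℂ] Polynomial P4 := aeval ![w', Polynomial.C p, s₁, u₁, F']
  have hφ : Function.Surjective φ := by
    have r : ∀ i, ![w', Polynomial.C p, s₁, u₁, F'] i ∈ φ.range := fun i => ⟨X i, by simp [φ]⟩
    obtain ⟨a1, a2, a3⟩ := m₂ φ.range (r 1) (r 2) (r 3) (r 4) (r 0)
    obtain ⟨b1, b2, b3, b4⟩ := m₁ φ.range (r 1) a3 (r 2) (r 3) a1 a2
    refine poly_top (S := φ.range) gen ?_ a3
    rintro a (rfl | rfl | rfl | rfl | rfl)
    exacts [r 1, b1, b2, b3, b4]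
  let e := AlgEquiv.ofBijective φ
    (bij_of_two_surj φ (finSuccEquiv ℂ 4).symm.toAlgHom hφ (finSuccEquiv ℂ 4).symm.surjective)
  refine ⟨e.symm.trans (finSuccEquiv ℂ 4), ?_⟩
  have : e (X 1) = Polynomial.C p := by simp [e, φ]
  rw [AlgEquiv.trans_apply, ← this, AlgEquiv.symm_apply_apply]
  exact finSuccEquiv_X_succ (j := 0)

lemma not_coord : ¬ ∃ τ : P4 ≃ₐ[ℂ] P4, τ p = X 0 := by
  rintro ⟨τ, hτ⟩
  obtain ⟨j, e0, e1, e2, e3, e4⟩ := univ _ _ _ _ _ (HH_Lam false).2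
  obtain ⟨hj, hr⟩ := model_embed false _ _ _ _ _ gen hH j e0 e1 e2 e3 e4
  refine no_poly false (j.comp τ.symm.toAlgHom) (hj.comp τ.symm.injective) ?_ (Or.inr ?_)
  · rw [AlgHom.range_comp, (AlgHom.range_eq_top τ.symm.toAlgHom).2 τ.symm.surjective,
      Algebra.map_top, hr]
  · change j (τ.symm (X 0)) = _
    rw [← hτ, AlgEquiv.symm_apply_apply, e0]

lemma fibre_aux (c : ℂ) (v : Fin 3 → P4 ⧸ Ideal.span {p - C c})
    (hv : ∀ S : Subalgebra ℂ (P4 ⧸ Ideal.span {p - C c}), (∀ i, v i ∈ S) →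
      Ideal.Quotient.mk _ s ∈ S ∧ Ideal.Quotient.mk _ u ∈ S ∧ Ideal.Quotient.mk _ F ∈ S ∧
        Ideal.Quotient.mk _ J ∈ S)
    (s' u' F' J' : MvPolynomial (Fin 3) ℂ) (h : HH false (algebraMap ℂ _ c) s' u' F' J' = 0)
    (hX : ∀ S : Subalgebra ℂ (MvPolynomial (Fin 3) ℂ), s' ∈ S → u' ∈ S → F' ∈ S → J' ∈ S →
      ∀ i, X i ∈ S) :
    Nonempty ((P4 ⧸ Ideal.span {p - C c}) ≃ₐ[ℂ] MvPolynomial (Fin 3) ℂ) := by
  let φ : MvPolynomial (Fin 3) ℂ →ₐ[ℂ] P4 ⧸ Ideal.span {p - C c} := aeval v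
  have hφ : Function.Surjective φ := by
    obtain ⟨a1, a2, a3, a4⟩ := hv φ.range fun i => ⟨X i, by simp [φ]⟩
    have : Algebra.adjoin ℂ {p, s, u, F, J} ≤
        φ.range.comap (Ideal.Quotient.mkₐ ℂ (Ideal.span {p - C c})) := by
      apply Algebra.adjoin_le
      rintro a (rfl | rfl | rfl | rfl | rfl)
      · change Ideal.Quotient.mk _ p ∈ φ.range
        rw [Ideal.Quotient.eq.2 (Ideal.mem_span_singleton_self (p - C c))]
        exact Subalgebra.algebraMap_mem _ c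
      exacts [a1, a2, a3, a4]
    intro y
    obtain ⟨f, rfl⟩ := Ideal.Quotient.mk_surjective y
    exact this (gen ▸ Algebra.mem_top : f ∈ _)
  obtain ⟨φ₀, e0, e1, e2, e3, e4⟩ := univ _ _ _ _ _ h
  let ψ : (P4 ⧸ Ideal.span {p - C c}) →ₐ[ℂ] MvPolynomial (Fin 3) ℂ :=
    Ideal.Quotient.liftₐ _ φ₀ (by
      intro a ha
      obtain ⟨b, rfl⟩ := Ideal.mem_span_singleton'.1 ha
      rw [map_mul, map_sub, e0, ← algebraMap_eq, AlgHom.commutes, sub_self, mul_zero])
  have hψ : Function.Surjective ψ := by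
    have r : ∀ a, φ₀ a ∈ ψ.range := fun a => ⟨Ideal.Quotient.mk _ a, rfl⟩
    exact surj_of_X ψ (hX ψ.range (e1 ▸ r _) (e2 ▸ r _) (e3 ▸ r _) (e4 ▸ r _))
  exact ⟨(AlgEquiv.ofBijective φ (bij_of_two_surj φ ψ hφ hψ)).symm⟩

lemma fibre (c : ℂ) :
    Nonempty ((P4 ⧸ Ideal.span {p - C c}) ≃ₐ[ℂ] MvPolynomial (Fin 3) ℂ) := by
  have h0 := congrArg (Ideal.Quotient.mk (Ideal.span {p - C c})) hH
  rw [map_HH, map_zero, Ideal.Quotient.eq.2 (Ideal.mem_span_singleton_self (p - C c))] at h0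
  by_cases hc : c = 0
  · have h1 : Ideal.Quotient.mk (Ideal.span {p - C c}) (C c) = 0 := by rw [hc]; simp
    rw [h1] at h0
    obtain ⟨F', m⟩ := coord_zero _ _ _ _ h0
    obtain ⟨F₂, J₂, h₂, m₂⟩ := coord_zero' (X 0 : MvPolynomial (Fin 3) ℂ) (X 1) (X 2)
    refine fibre_aux c ![Ideal.Quotient.mk _ s, Ideal.Quotient.mk _ u, F'] (fun S hS => ?_)
      (X 0) (X 1) F₂ J₂ (by rw [hc, map_zero]; exact h₂) (fun S a1 a2 a3 a4 i => ?_)
    · obtain ⟨b1, b2⟩ := m S (hS 0) (hS 1) (hS 2)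
      exact ⟨hS 0, hS 1, b1, b2⟩
    · fin_cases i
      exacts [a1, a2, m₂ S a1 a2 a3 a4]
  · have hq : ∀ (B : Type) [CommRing B] [Algebra ℂ B],
        algebraMap ℂ B c * algebraMap ℂ B c⁻¹ = 1 := by
      intro B _ _
      rw [← map_mul, mul_inv_cancel₀ hc, map_one]
    obtain ⟨x, y, z, m⟩ := coord_unit _ _ _ _ _ _ (hq _) h0
    obtain ⟨s₂, u₂, F₂, J₂, h₂, m₂⟩ :=
      coord_unit' _ _ (X 0 : MvPolynomial (Fin 3) ℂ) (X 1) (X 2) (hq _)
    refine fibre_aux c ![x, y, z] (fun S hS => ?_) s₂ u₂ F₂ J₂ h₂ (fun S a1 a2 a3 a4 i => ?_)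
    · exact m S (Subalgebra.algebraMap_mem _ _) (hS 0) (hS 1) (hS 2)
    · obtain ⟨b1, b2, b3⟩ := m₂ S (Subalgebra.algebraMap_mem _ _) a1 a2 a3 a4
      fin_cases i
      exacts [b1, b2, b3]

/-- There is a polynomial f in four variables over the complex numbers with all of the following properties: some ℂ-algebra automorphism of the polynomial ring in one further variable over ℂ[x₀,x₁,x₂,x₃] sends f to x₀; no ℂ-algebra automorphism of ℂ[x₀,x₁,x₂,x₃] sends f to x₀; and for every complex number c, the quotient of ℂ[x₀,x₁,x₂,x₃] by the ideal generated by f - c is isomorphic as a ℂ-algebra to a polynomial ring in three variables. -/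
theorem result :
    ∃ f : MvPolynomial (Fin 4) ℂ,
      (∃ σ : Polynomial (MvPolynomial (Fin 4) ℂ) ≃ₐ[ℂ] Polynomial (MvPolynomial (Fin 4) ℂ),
          σ (Polynomial.C f) = Polynomial.C (MvPolynomial.X 0)) ∧
      (¬ ∃ τ : MvPolynomial (Fin 4) ℂ ≃ₐ[ℂ] MvPolynomial (Fin 4) ℂ, τ f = MvPolynomial.X 0) ∧
      ∀ c : ℂ, Nonempty ((MvPolynomial (Fin 4) ℂ ⧸ Ideal.span {f - MvPolynomial.C c}) ≃ₐ[ℂ]
        MvPolynomial (Fin 3) ℂ) := by
  exact ⟨p, stable, not_coord, fibre⟩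

end Crest.Agent.S0408
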