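import Crest.Statements.S0409
import Crest.Agent.R268.Crit

set_option autoImplicit false
open Crest Crest.AlgGeometry

namespace Crest.Agent.S0409

local notation "P" => MvPolynomial (Fin 4) ℂ
local notation "P3" => MvPolynomial (Fin 3) ℂ

/-- There is a polynomial F in four variables over the complex numbers with all of the following properties: the quotient of ℂ[x₀,x₁,x₂,x₃] by the ideal generated by F is isomorphic as a ℂ-algebra to a polynomial ring in three variables; all four partial derivatives of F vanish at some point of ℂ⁴; and no ℂ-algebra automorphism of ℂ[x₀,x₁,x₂,x₃] sends F to x₀. -/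
theorem result :
    ∃ F : MvPolynomial (Fin 4) ℂ,
      Nonempty ((MvPolynomial (Fin 4) ℂ ⧸ Ideal.span {F}) ≃ₐ[ℂ] MvPolynomial (Fin 3) ℂ) ∧
      (∃ p : Fin 4 → ℂ, ∀ i : Fin 4, MvPolynomial.eval p (MvPolynomial.pderiv i F) = 0) ∧
      ¬ ∃ τ : MvPolynomial (Fin 4) ℂ ≃ₐ[ℂ] MvPolynomial (Fin 4) ℂ, τ F = MvPolynomial.X 0 := by
  classical
  let h : P := MvPolynomial.X 0
  let u : P := MvPolynomial.X 1
  let v : P := MvPolynomial.X 2
  let w : P := MvPolynomial.X 3
  let pt : Fin 4 → ℂ := ![2, 0, -1 / 2, 1 / 2]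
  have crit : ∀ D : Derivation ℂ P P, MvPolynomial.eval pt (D (R268.cc h u v w - 1)) = 0 := by
    intro D
    rw [map_sub, D.map_one_eq_zero, sub_zero]
    apply R268.crit_point h u v w (MvPolynomial.eval pt) <;> simp [h, u, v, w, pt]
  refine ⟨R268.cc h u v w - 1, ⟨?_⟩, ⟨pt, fun i => crit _⟩, ?_⟩
  · let x' : P3 := MvPolynomial.X 0
    let y' : P3 := MvPolynomial.X 1
    let V : P3 := MvPolynomial.X 2
    have hh : R268.bh (1 : P3) 1 x' y' ≠ 0 := by
      intro h0
      have := congrArg (MvPolynomial.eval (fun _ => (0 : ℂ))) h0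
      simp [x', y', R268.bh_zero] at this
    obtain ⟨e1, e2, e3, e4⟩ := R268.fwd_bwd (1 : P3) 1 x' y' V (by simp) hh
    let φ : P →ₐ[ℂ] P3 := MvPolynomial.aeval
      ![R268.bh 1 1 x' y', R268.bu 1 1 x' y' V, R268.bv 1 1 x' y' V, R268.bw 1 1 x' y' V]
    have φh : φ h = R268.bh 1 1 x' y' := by simp [φ, h]
    have φu : φ u = R268.bu 1 1 x' y' V := by simp [φ, u]
    have φv : φ v = R268.bv 1 1 x' y' V := by simp [φ, v]
    have φw : φ w = R268.bw 1 1 x' y' V := by simp [φ, w]
    have hφ : ∀ a ∈ Ideal.span {R268.cc h u v w - 1}, φ a = 0 := by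
      intro a ha
      obtain ⟨b, rfl⟩ := Ideal.mem_span_singleton'.1 ha
      rw [map_mul, map_sub, R268.map_cc, φh, φu, φv, φw, e1]; simp
    let π := Ideal.Quotient.mkₐ ℂ (Ideal.span {R268.cc h u v w - 1})
    let ψ : P3 →ₐ[ℂ] (P ⧸ Ideal.span {R268.cc h u v w - 1}) := MvPolynomial.aeval
      ![π (R268.cx' h u v w), π (R268.cy' h u v w), π (R268.cV h u v w)]
    have hc : R268.cc (π h) (π u) (π v) (π w) = 1 := by
      rw [← R268.map_cc, ← sub_eq_zero, ← map_one π, ← map_sub]
      exact Ideal.Quotient.eq_zero_iff_mem.2 (Ideal.subset_span rfl)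
    obtain ⟨f1, f2, f3, f4⟩ := R268.bwd_fwd (π h) (π u) (π v) (π w) 1 (by rw [hc, one_mul])
    rw [hc] at f1 f2 f3 f4
    have ψx : ψ x' = R268.cx' (π h) (π u) (π v) (π w) := by simp [ψ, x']
    have ψy : ψ y' = R268.cy' (π h) (π u) (π v) (π w) := by simp [ψ, y']
    have ψV : ψ V = R268.cV (π h) (π u) (π v) (π w) := by simp [ψ, V]
    refine AlgEquiv.ofAlgHom (Ideal.Quotient.liftₐ _ φ hφ) ψ ?_ ?_
    · have hl : ∀ a, Ideal.Quotient.liftₐ _ φ hφ (π a) = φ a := fun a => rfl
      apply MvPolynomial.algHom_ext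
      intro i
      fin_cases i
      · change Ideal.Quotient.liftₐ _ φ hφ (ψ x') = x'
        rw [ψx, R268.map_cx', hl, hl, hl, hl, φh, φu, φv, φw, e2]
      · change Ideal.Quotient.liftₐ _ φ hφ (ψ y') = y'
        rw [ψy, R268.map_cy', hl, hl, hl, hl, φh, φu, φv, φw, e3]
      · change Ideal.Quotient.liftₐ _ φ hφ (ψ V) = V
        rw [ψV, R268.map_cV, hl, hl, hl, hl, φh, φu, φv, φw, e4]
    · apply Ideal.Quotient.algHom_ext
      apply MvPolynomial.algHom_ext
      intro i
      fin_cases i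
      · change ψ (φ h) = π h
        rw [φh, R268.map_bh, map_one, ψx, ψy, f1]
      · change ψ (φ u) = π u
        rw [φu, R268.map_bu, map_one, ψx, ψy, ψV, f2]
      · change ψ (φ v) = π v
        rw [φv, R268.map_bv, map_one, ψx, ψy, ψV, f3]
      · change ψ (φ w) = π w
        rw [φw, R268.map_bw, map_one, ψx, ψy, ψV, f4]
  · rintro ⟨τ, hτ⟩
    have := crit (R268.conjDer τ (MvPolynomial.pderiv 0))
    rw [R268.conjDer_apply, hτ] at this
    simp at this

end Crest.Agent.S0409
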