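import Crest.Statements.S0432
import Crest.Agent.R287.Fin

set_option autoImplicit false
open Crest.Enc
open Crest Crest.LogicCS

namespace Crest.Agent.S0432

/-- Strings are finite lists of natural-number symbols; a family of strings is coded by the number of its members followed by the self-delimiting codes of the members. There is a polynomial-time map on bit strings sending the code of every finite family to the code of a string that contains each member as a contiguous substring and is at most twice as long as any string with that property. -/
theorem result :
    ∃ f : List Bool → List Bool, Crest.Complexity.PolyTime f ∧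
      ∀ S : List (List ℕ), ∃ T : List ℕ,
        f (natCode S.length ++ (S.map listCode).flatten) = listCode T ∧
        (∀ s ∈ S, s <:+: T) ∧
        ∀ T' : List ℕ, (∀ s ∈ S, s <:+: T') → T.length ≤ 2 * T'.length := by
  obtain ⟨f, hf, h⟩ := R287.exists_scs
  let ps : List Bool → List (List ℕ) := fun w =>
    (PTime.parseRep PTime.parseList (min w.length (PTime.parseNat w).1) (PTime.parseNat w).2).1
  have hps : PTime.PT ps :=
    (PTime.PT.parseRep (p := fun _ => PTime.parseList) (by fun_prop) (fun _ => PTime.parseList_len)
      (by fun_prop) (by fun_prop) (by fun_prop)).fst
  refine ⟨fun w => listCode (f (ps w)), PTime.PT.polyTime (PTime.PT.listCode (hf.comp hps)), fun S => ?_⟩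
  refine ⟨f S, ?_, (h S).1, (h S).2⟩
  have h1 := PTime.length_le_flatten listCode S (fun x => by simp [listCode, natCode])
  have h2 : ps (natCode S.length ++ (S.map listCode).flatten) = S := by
    simp only [ps]
    rw [PTime.parseNat_natCode, min_eq_right (by simp at h1 ⊢; omega)]
    have := PTime.parseRep_code PTime.parseList listCode S (fun x _ r => PTime.parseList_listCode x r) []
    rw [List.append_nil] at this
    rw [this]
  simp only [h2]

end Crest.Agent.S0432
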