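import Crest.Statements.S0438
import Crest.Agent.R290.WLGame
import Crest.Agent.R290.PLBasic
import Crest.Agent.R290.PLGame
import Crest.Agent.R290.PLDetect

set_option autoImplicit false
open Crest.WLRefine Crest.WLRefine.ParityLift
open Crest Crest.LogicCS

namespace Crest.Agent.S0438

/-- Fix k ≥ 4; t = k+1 (joint updates) or k (separate). For every choice system on t domains the two parity lifts of its base graph (parities all even, versus odd at main type 0) are simple with equally many vertices — ≤ A·(t·2^(t−2+3·C(t−1,2)) + 12·C(t,3)) if domains and label sets have size ≤ A —, and are k-dimensionally equivalent, also by pure tuples in the disjoint union, exactly when no successful choice exists; a successful one shows at round 2 joint (1 separate) in both comparisons. -/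
theorem result (k : ℕ) (hk : 4 ≤ k) :
    (∀ C : ChoiceSystem (k + 1),
      IsSimple (asMatrix (liftAdj C (lift0Parity (k + 1)))) ∧ IsSimple (asMatrix (liftAdj C (liftStarParity (k + 1)))) ∧
      Fintype.card (LiftV C (lift0Parity (k + 1))) = Fintype.card (LiftV C (liftStarParity (k + 1))) ∧
      (∀ A : ℕ, 1 ≤ A → C.SizeAtMost A →
        Fintype.card (LiftV C (lift0Parity (k + 1))) ≤ A * orderFactor (k + 1)) ∧
      (JEquiv k (asMatrix (liftAdj C (lift0Parity (k + 1)))) (asMatrix (liftAdj C (liftStarParity (k + 1)))) ↔ ¬ C.Successful) ∧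
      (PureJEquiv k (asMatrix (liftAdj C (lift0Parity (k + 1)))) (asMatrix (liftAdj C (liftStarParity (k + 1)))) ↔ ¬ C.Successful) ∧
      (C.Successful → (Finset.univ.val.map (jcolor (asMatrix (liftAdj C (lift0Parity (k + 1)))) k 2)) ≠
          Finset.univ.val.map (jcolor (asMatrix (liftAdj C (liftStarParity (k + 1)))) k 2) ∧
        ¬ PureJHistEq k 2 (asMatrix (liftAdj C (lift0Parity (k + 1)))) (asMatrix (liftAdj C (liftStarParity (k + 1)))))) ∧
    (∀ C : ChoiceSystem k,
      IsSimple (asMatrix (liftAdj C (lift0Parity k))) ∧ IsSimple (asMatrix (liftAdj C (liftStarParity k))) ∧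
      Fintype.card (LiftV C (lift0Parity k)) = Fintype.card (LiftV C (liftStarParity k)) ∧
      (∀ A : ℕ, 1 ≤ A → C.SizeAtMost A →
        Fintype.card (LiftV C (lift0Parity k)) ≤ A * orderFactor k) ∧
      (SEquiv k (asMatrix (liftAdj C (lift0Parity k))) (asMatrix (liftAdj C (liftStarParity k))) ↔ ¬ C.Successful) ∧
      (PureSEquiv k (asMatrix (liftAdj C (lift0Parity k))) (asMatrix (liftAdj C (liftStarParity k))) ↔ ¬ C.Successful) ∧
      (C.Successful → (Finset.univ.val.map (scolor (asMatrix (liftAdj C (lift0Parity k))) k 1)) ≠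
          Finset.univ.val.map (scolor (asMatrix (liftAdj C (liftStarParity k))) k 1) ∧
        ¬ PureSHistEq k 1 (asMatrix (liftAdj C (lift0Parity k))) (asMatrix (liftAdj C (liftStarParity k))))) := by
  have key : ∀ (t : ℕ), 4 ≤ t → ∀ C : ChoiceSystem t,
      (¬ C.Successful → R290.Game t (asMatrix (liftAdj C (lift0Parity t)))
        (asMatrix (liftAdj C (liftStarParity t)))) ∧
      (C.Successful → ∃ v : Fin t → Fin _, R290.QCl (asMatrix (liftAdj C (lift0Parity t))) v) ∧
      (∀ v : Fin t → Fin _, ¬ R290.QCl (asMatrix (liftAdj C (liftStarParity t))) v) := by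
    intro t ht C
    refine ⟨fun h => (R290.parity_game ht C h).transport (Fintype.equivFin _) (Fintype.equivFin _)
      (fun x y => by simp [asMatrix]) (fun x y => by simp [asMatrix]), fun h => ?_, fun v hv => ?_⟩
    · obtain ⟨v, hv⟩ := R290.lift0_qcl ht C h
      exact ⟨_, (R290.QCl.transport (Fintype.equivFin _) (fun x y => by simp [asMatrix]) v).2 hv⟩
    · refine R290.liftStar_no_qcl ht C ((Fintype.equivFin _).symm ∘ v) ?_
      exact (R290.QCl.transport (A := asMatrix (liftAdj C (liftStarParity t)))
        (Fintype.equivFin _).symm (fun x y => rfl) v).2 hv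
  refine ⟨fun C => ?_, fun C => ?_⟩
  · obtain ⟨h1, h2, h3⟩ := key (k + 1) (by omega) C
    have d1 : C.Successful →
        (Finset.univ.val.map (jcolor (asMatrix (liftAdj C (lift0Parity (k + 1)))) k 2)) ≠
          Finset.univ.val.map (jcolor (asMatrix (liftAdj C (liftStarParity (k + 1)))) k 2) :=
      fun h he => by
        obtain ⟨v, hv⟩ := h2 h
        obtain ⟨v', hv'⟩ := R290.qcl_of_jhist hk he hv
        exact h3 v' hv'
    have d2 : C.Successful → ¬ PureJHistEq k 2 (asMatrix (liftAdj C (lift0Parity (k + 1))))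
        (asMatrix (liftAdj C (liftStarParity (k + 1)))) := fun h he => by
      obtain ⟨v, hv⟩ := h2 h
      obtain ⟨v', hv'⟩ := R290.qcl_of_pureJ hk he hv
      exact h3 v' hv'
    exact ⟨R290.lift_simple _ _, R290.lift_simple _ _, R290.lift_card_eq (by omega) C,
      fun A _ hA => R290.lift_card_le (by omega) C A hA,
      ⟨fun he h => d1 h (he 2), fun h => (h1 h).jEquiv (by omega)⟩,
      ⟨fun he h => d2 h (he 2), fun h => (h1 h).pureJEquiv (by omega)⟩, fun h => ⟨d1 h, d2 h⟩⟩
  · obtain ⟨h1, h2, h3⟩ := key k hk C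
    have d1 : C.Successful →
        (Finset.univ.val.map (scolor (asMatrix (liftAdj C (lift0Parity k))) k 1)) ≠
          Finset.univ.val.map (scolor (asMatrix (liftAdj C (liftStarParity k))) k 1) :=
      fun h he => by
        obtain ⟨v, hv⟩ := h2 h
        obtain ⟨v', hv'⟩ := R290.qcl_of_shist hk he hv
        exact h3 v' hv'
    have d2 : C.Successful → ¬ PureSHistEq k 1 (asMatrix (liftAdj C (lift0Parity k)))
        (asMatrix (liftAdj C (liftStarParity k))) := fun h he => by
      obtain ⟨v, hv⟩ := h2 h
      obtain ⟨v', hv'⟩ := R290.qcl_of_pureS hk he hv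
      exact h3 v' hv'
    exact ⟨R290.lift_simple _ _, R290.lift_simple _ _, R290.lift_card_eq hk C,
      fun A _ hA => R290.lift_card_le hk C A hA,
      ⟨fun he h => d1 h (he 1), fun h => (h1 h).sEquiv le_rfl⟩,
      ⟨fun he h => d2 h (he 1), fun h => (h1 h).pureSEquiv le_rfl⟩, fun h => ⟨d1 h, d2 h⟩⟩

end Crest.Agent.S0438
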