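import Crest.Statements.S0441
import Crest.Agent.R292.Main
import Crest.Agent.R292.BridgeA
import Crest.Agent.R292.BridgeB

set_option autoImplicit false
open Crest.LogicCS.Degrees
open Crest Crest.LogicCS

namespace Crest.Agent.S0441

open Crest.Agent.R292 in
/-- The degree of an oracle. -/
noncomputable def deg (X : Orc) : SetDegree := ⟨degOf {n | X n = true}, _, rfl⟩

open Crest.Agent.R292 in
theorem deg_le_iff (X Y : Orc) : deg X ≤ deg Y ↔ Red X Y :=
  ⟨fun h => red_of_setReducible h, fun h => setReducible_of_red h⟩

open Crest.Agent.R292 in
theorem deg_surj : Function.Surjective deg := by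
  classical
  rintro ⟨d, A, rfl⟩
  refine ⟨fun n => decide (n ∈ A), Subtype.ext ?_⟩
  have : {n | decide (n ∈ A) = true} = A := by ext n; simp
  simp only [deg, this]

open Crest.Agent.R292 in
theorem aut_of_orderIso (π : SetDegree ≃o SetDegree) :
    Aut (fun X => Function.surjInv deg_surj (π (deg X)))
      (fun X => Function.surjInv deg_surj (π.symm (deg X))) := by
  constructor <;> intros <;>
    simp only [← deg_le_iff, Function.surjInv_eq, OrderIso.le_iff_le, OrderIso.apply_symm_apply,
      OrderIso.symm_apply_apply, le_refl]

/-- Every order automorphism of the partially ordered set of Turing degrees of sets of natural numbers is the identity. The degrees of sets are taken inside the library's degree structure of partial functions, as the classes of characteristic functions, with the induced order. -/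
theorem result (π : SetDegree ≃o SetDegree) : π = OrderIso.refl SetDegree := by
  have h := aut_of_orderIso π
  ext1
  funext d
  obtain ⟨X, rfl⟩ := deg_surj d
  have h1 := (deg_le_iff _ _).2 (Crest.Agent.R292.final h X)
  have h2 := (deg_le_iff _ _).2 (Crest.Agent.R292.final h.symm X)
  simp only [Function.surjInv_eq] at h1 h2
  exact le_antisymm h2 (π.symm_apply_le.1 h1)

end Crest.Agent.S0441
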