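import Crest.Statements.S0453
import Crest.Agent.R299.Kernel

set_option autoImplicit false
open Finset
open Crest Crest.LogicCS

namespace Crest.Agent.S0453

open Crest.SwitchChain Crest.Agent.R299

variable {n : ℕ}

lemma choose_pos' (hn : 4 ≤ n) : (0 : ℝ) < n.choose 4 := by
  exact_mod_cast Nat.choose_pos hn

lemma ker_symm (G G' : Finset (Edge n)) : kernel n G G' = kernel n G' G := by
  simp only [kernel, pc_symm G G', eq_comm]

lemma ker_sum {d : Fin n → ℕ} {G : Finset (Edge n)} (hG : G ∈ realizations d)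
    (φ : Finset (Edge n) → ℝ) : ∑ G' ∈ realizations d, kernel n G G' * φ G'
      = φ G / 2 + (psum fun F F' => φ (switchResult G F F')) / (12 * (n.choose 4 : ℝ)) := by
  rw [← sum_pc hG, sum_div]
  simp only [kernel, add_mul, sum_add_distrib, ite_mul, zero_mul, sum_ite_eq, if_pos hG]
  congr 1
  · ring
  · exact sum_congr rfl fun _ _ => by ring

lemma ker_row (hn : 4 ≤ n) {d : Fin n → ℕ} {G : Finset (Edge n)} (hG : G ∈ realizations d) :
    ∑ G' ∈ realizations d, kernel n G G' = 1 := by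
  have := ker_sum hG (fun _ => 1)
  simp only [mul_one, psum_const] at this
  rw [this]
  have := choose_pos' hn
  field_simp; ring

lemma form_eq (hn : 4 ≤ n) (d : Fin n → ℕ) (f : Finset (Edge n) → ℝ) :
    ∑ G ∈ realizations d, f G * (f G - ∑ G' ∈ realizations d, kernel n G G' * f G')
      = (∑ G ∈ realizations d, psum fun F F' => (f G - f (switchResult G F F')) ^ 2)
        / (24 * (n.choose 4 : ℝ)) := by
  have h1 : ∑ G ∈ realizations d, ∑ G' ∈ realizations d, kernel n G G' * (f G - f G') ^ 2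
      = (∑ G ∈ realizations d, psum fun F F' => (f G - f (switchResult G F F')) ^ 2)
        / (12 * (n.choose 4 : ℝ)) := by
    rw [sum_div]
    exact sum_congr rfl fun G hG => by rw [ker_sum hG]; simp
  have h2 : ∑ G ∈ realizations d, ∑ G' ∈ realizations d, kernel n G G' * f G ^ 2
      = ∑ G ∈ realizations d, f G ^ 2 :=
    sum_congr rfl fun G hG => by rw [← sum_mul, ker_row hn hG, one_mul]
  have h3 : ∑ G ∈ realizations d, ∑ G' ∈ realizations d, kernel n G G' * f G' ^ 2
      = ∑ G ∈ realizations d, f G ^ 2 := by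
    rw [sum_comm, ← h2]
    exact sum_congr rfl fun G _ => sum_congr rfl fun G' _ => by rw [ker_symm]
  have h4 : ∑ G ∈ realizations d, ∑ G' ∈ realizations d, kernel n G G' * (f G - f G') ^ 2
      = 2 * ∑ G ∈ realizations d, f G * (f G - ∑ G' ∈ realizations d, kernel n G G' * f G') := by
    have : ∀ G G', kernel n G G' * (f G - f G') ^ 2 = kernel n G G' * f G ^ 2
        + kernel n G G' * f G' ^ 2 - 2 * (f G * (kernel n G G' * f G')) := by intro G G'; ring
    simp only [this, sum_sub_distrib, sum_add_distrib, h2, h3, ← mul_sum, mul_sub, ← sq]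
    ring
  have := choose_pos' hn
  rw [h4] at h1
  field_simp at h1 ⊢
  linarith

lemma poincare (hn : 4 ≤ n) (d : Fin n → ℕ) (hd : (realizations d).Nonempty)
    (f : Finset (Edge n) → ℝ) :
    ((realizations d).card : ℝ) * (∑ G ∈ realizations d, f G ^ 2) - (∑ G ∈ realizations d, f G) ^ 2
      ≤ 24 * (n : ℝ) ^ 2 * (n.choose 4 : ℝ) * (realizations d).card *
        ∑ G ∈ realizations d, f G * (f G - ∑ G' ∈ realizations d, kernel n G G' * f G') := by
  obtain ⟨c, hc⟩ := real_poincare d hd f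
  rw [form_eq hn]
  set D := ∑ G ∈ realizations d, psum fun F F' => (f G - f (switchResult G F F')) ^ 2 with hD
  have hD0 : 0 ≤ D := sum_nonneg fun _ _ => sum_nonneg fun _ _ => sum_nonneg fun _ _ =>
    sum_nonneg fun _ _ => sq_nonneg _
  have hp := choose_pos' hn
  set N : ℝ := ((realizations d).card : ℝ) with hN
  have hN0 : 0 ≤ N := Nat.cast_nonneg _
  have e : 24 * (n : ℝ) ^ 2 * (n.choose 4 : ℝ) * N * (D / (24 * (n.choose 4 : ℝ)))
      = N * ((n : ℝ) ^ 2 * D) := by field_simp
  rw [e]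
  have h16 : (16 : ℝ) ≤ (n : ℝ) ^ 2 := by
    have : (4 : ℝ) ≤ n := by exact_mod_cast hn
    nlinarith
  have h1 : ∑ G ∈ realizations d, (f G - c) ^ 2
      = ∑ G ∈ realizations d, f G ^ 2 - 2 * c * ∑ G ∈ realizations d, f G + N * c ^ 2 := by
    simp only [sub_sq, sum_add_distrib, sum_sub_distrib, sum_const, nsmul_eq_mul, mul_sum]
    congr 2
    exact sum_congr rfl fun _ _ => by ring
  have h2 : ∑ G ∈ realizations d, (f G - c) ^ 2 ≤ (n : ℝ) ^ 2 * D :=
    hc.trans (mul_le_mul_of_nonneg_right h16 hD0)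
  have h3 := mul_le_mul_of_nonneg_left h2 hN0
  rw [h1] at h3
  nlinarith [sq_nonneg (∑ G ∈ realizations d, f G - N * c)]

lemma contract (hn : 4 ≤ n) (d : Fin n → ℕ) (hd : (realizations d).Nonempty)
    (g : Finset (Edge n) → ℝ) (hg : ∑ G ∈ realizations d, g G = 0) :
    ∑ G ∈ realizations d, (∑ G' ∈ realizations d, kernel n G G' * g G') ^ 2
      ≤ (1 - 1 / (n : ℝ) ^ 6) * ∑ G ∈ realizations d, g G ^ 2 := by
  have hp := choose_pos' hn
  set R := realizations d with hR
  let Q : Finset (Edge n) → Finset (Edge n) → ℝ := fun G G' =>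
    (proposalCount G G' : ℝ) / (6 * (n.choose 4 : ℝ))
  have Q0 : ∀ G G', 0 ≤ Q G G' := fun G G' => by positivity
  have Qrow : ∀ G ∈ R, ∑ G' ∈ R, Q G G' = 1 := by
    intro G hG
    have := sum_pc hG (fun _ => 1)
    simp only [mul_one, psum_const] at this
    simp only [Q, ← sum_div, hR, this]
    field_simp
  have hP : ∀ G ∈ R, ∑ G' ∈ R, kernel n G G' * g G' = (g G + ∑ G' ∈ R, Q G G' * g G') / 2 := by
    intro G hG
    simp only [kernel, add_mul, sum_add_distrib, ite_mul, zero_mul, sum_ite_eq, if_pos hG, add_div,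
      sum_div, Q]
    congr 1
    · ring
    · exact sum_congr rfl fun _ _ => by field_simp; ring
  have hQ : ∑ G ∈ R, (∑ G' ∈ R, Q G G' * g G') ^ 2 ≤ ∑ G ∈ R, g G ^ 2 := by
    calc ∑ G ∈ R, (∑ G' ∈ R, Q G G' * g G') ^ 2 ≤ ∑ G ∈ R, ∑ G' ∈ R, Q G G' * g G' ^ 2 := by
          apply sum_le_sum; intro G hG
          have := sum_sq_le_sum_mul_sum_of_sq_le_mul R (r := fun G' => Q G G' * g G')
            (f := fun G' => Q G G') (g := fun G' => Q G G' * g G' ^ 2) (fun G' _ => Q0 G G')
            (fun G' _ => mul_nonneg (Q0 G G') (sq_nonneg _)) (fun G' _ => le_of_eq (by ring))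
          rwa [Qrow G hG, one_mul] at this
      _ = ∑ G ∈ R, g G ^ 2 := by
          rw [sum_comm]
          refine sum_congr rfl fun G hG => ?_
          rw [← sum_mul, sum_congr rfl (fun G' _ => show Q G' G = Q G G' by
            simp only [Q, pc_symm G' G]), Qrow G hG, one_mul]
  have h1 : ∑ G ∈ R, (∑ G' ∈ R, kernel n G G' * g G') ^ 2
      ≤ ∑ G ∈ R, g G * ∑ G' ∈ R, kernel n G G' * g G' := by
    have : ∑ G ∈ R, g G * ∑ G' ∈ R, kernel n G G' * g G'
        - ∑ G ∈ R, (∑ G' ∈ R, kernel n G G' * g G') ^ 2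
        = (∑ G ∈ R, g G ^ 2 - ∑ G ∈ R, (∑ G' ∈ R, Q G G' * g G') ^ 2) / 4 := by
      rw [← sum_sub_distrib, ← sum_sub_distrib, sum_div]
      exact sum_congr rfl fun G hG => by rw [hP G hG]; ring
    linarith
  have h2 := poincare hn d hd g
  rw [← hR, hg] at h2
  have hN : (0 : ℝ) < R.card := by exact_mod_cast card_pos.mpr hd
  set Φ := ∑ G ∈ R, g G * (g G - ∑ G' ∈ R, kernel n G G' * g G') with hΦ
  have hΦ' : Φ = ∑ G ∈ R, g G ^ 2 - ∑ G ∈ R, g G * ∑ G' ∈ R, kernel n G G' * g G' := by
    rw [hΦ, ← sum_sub_distrib]; exact sum_congr rfl fun _ _ => by ring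
  have hΦ0 : 0 ≤ Φ := by
    rw [hΦ, hR, form_eq hn]
    exact div_nonneg (sum_nonneg fun _ _ => sum_nonneg fun _ _ => sum_nonneg fun _ _ =>
      sum_nonneg fun _ _ => sq_nonneg _) (by positivity)
  have hch : 24 * (n.choose 4 : ℝ) ≤ (n : ℝ) ^ 4 := by
    have := Nat.descFactorial_le_pow n 4
    rw [Nat.descFactorial_eq_factorial_mul_choose] at this
    exact_mod_cast this
  have h3 : ∑ G ∈ R, g G ^ 2 ≤ 24 * (n : ℝ) ^ 2 * (n.choose 4 : ℝ) * Φ := by
    apply le_of_mul_le_mul_left _ hN
    nlinarith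
  have h4 : ∑ G ∈ R, g G ^ 2 ≤ (n : ℝ) ^ 6 * Φ := by
    refine h3.trans (mul_le_mul_of_nonneg_right ?_ hΦ0)
    nlinarith [mul_le_mul_of_nonneg_left hch (sq_nonneg (n : ℝ))]
  have hn0 : (0 : ℝ) < (n : ℝ) ^ 6 := by
    have : (0 : ℝ) < n := by exact_mod_cast (by omega : 0 < n)
    positivity
  have h5 : 1 / (n : ℝ) ^ 6 * ∑ G ∈ R, g G ^ 2 ≤ Φ := by
    rw [one_div, inv_mul_le_iff₀ hn0]; exact h4
  linarith

lemma pow_facts (hn : 4 ≤ n) (d : Fin n → ℕ) {G : Finset (Edge n)} (hG : G ∈ realizations d)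
    (t : ℕ) : (∀ G', G' ∉ realizations d → (kernel n ^ t) G G' = 0) ∧
      ∑ G' ∈ realizations d, (kernel n ^ t) G G' = 1 ∧
      ∑ G' ∈ realizations d, ((kernel n ^ t) G G' - 1 / ((realizations d).card : ℝ)) ^ 2
        ≤ (1 - 1 / (n : ℝ) ^ 6) ^ t := by
  have hN : (1 : ℝ) ≤ (realizations d).card := by exact_mod_cast card_pos.mpr ⟨G, hG⟩
  induction t with
  | zero =>
    refine ⟨fun G' h => ?_, ?_, ?_⟩
    · rw [pow_zero, Matrix.one_apply_ne]; rintro rfl; exact h hG
    · simp [Matrix.one_apply, hG]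
    · have : ∀ G', ((1 : Matrix _ _ ℝ) G G' - 1 / ((realizations d).card : ℝ)) ^ 2
          = (if G = G' then 1 - 2 / ((realizations d).card : ℝ) else 0)
            + 1 / ((realizations d).card : ℝ) ^ 2 := by
        intro G'; rw [Matrix.one_apply]; split_ifs <;> ring
      simp only [pow_zero, this, sum_add_distrib, sum_ite_eq, if_pos hG, sum_const, nsmul_eq_mul]
      have h0 : (0 : ℝ) < (realizations d).card := by linarith
      have : ((realizations d).card : ℝ) * (1 / ((realizations d).card : ℝ) ^ 2)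
          = 1 / (realizations d).card := by field_simp
      rw [this]
      have : (0 : ℝ) < 1 / (realizations d).card := by positivity
      rw [show (2 : ℝ) / (realizations d).card = 2 * (1 / (realizations d).card) by ring]
      linarith
  | succ t ih =>
    obtain ⟨i1, i2, i3⟩ := ih
    have hs : ∀ G', (kernel n ^ (t + 1)) G G'
        = ∑ H ∈ realizations d, kernel n G' H * (kernel n ^ t) G H := by
      intro G'
      rw [pow_succ, Matrix.mul_apply, ← sum_subset (subset_univ (realizations d))]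
      · exact sum_congr rfl fun H _ => by rw [ker_symm, mul_comm]
      · intro H _ hH; rw [i1 H hH, zero_mul]
    refine ⟨fun G' h => ?_, ?_, ?_⟩
    · rw [hs]
      refine sum_eq_zero fun H hH => ?_
      rw [ker_symm, kernel, pc_zero hH h, if_neg (by rintro rfl; exact h hH)]
      simp
    · simp only [hs]
      rw [sum_comm, ← i2]
      refine sum_congr rfl fun H hH => ?_
      rw [← sum_mul, sum_congr rfl (fun G' _ => ker_symm G' H), ker_row hn hH, one_mul]
    · have c := contract hn d ⟨G, hG⟩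
        (fun H => (kernel n ^ t) G H - 1 / ((realizations d).card : ℝ)) (by
          rw [sum_sub_distrib, i2, sum_const, nsmul_eq_mul]; field_simp; ring)
      have e : ∀ G' ∈ realizations d, (kernel n ^ (t + 1)) G G' - 1 / ((realizations d).card : ℝ)
          = ∑ H ∈ realizations d,
            kernel n G' H * ((kernel n ^ t) G H - 1 / ((realizations d).card : ℝ)) := by
        intro G' hG'
        simp only [hs, mul_sub, sum_sub_distrib, ← sum_mul, ker_row hn hG', one_mul]
      rw [sum_congr rfl fun G' hG' => by rw [e G' hG'], pow_succ, mul_comm]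
      refine c.trans (mul_le_mul_of_nonneg_left i3 ?_)
      have : (1 : ℝ) ≤ (n : ℝ) ^ 6 := one_le_pow₀ (by exact_mod_cast (by omega : 1 ≤ n))
      have : 1 / (n : ℝ) ^ 6 ≤ 1 := by rw [div_le_one (by linarith)]; exact this
      linarith

lemma card_le (d : Fin n → ℕ) : (realizations d).card ≤ 2 ^ (n ^ 2) := by
  refine (card_le_univ _).trans ?_
  rw [Fintype.card_finset]
  apply Nat.pow_le_pow_right (by norm_num)
  refine (Fintype.card_subtype_le _).trans ?_
  refine (Fintype.card_le_of_surjective (fun p : Fin n × Fin n => s(p.1, p.2)) ?_).trans ?_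
  · intro e
    induction e using Sym2.ind with
    | _ p q => exact ⟨(p, q), rfl⟩
  · simp [sq]

/-- For every n ≥ 4 and every labeled degree vector on n vertices with a simple realization: the lazy switch chain (hold with probability 1/2, else take a uniform four-vertex set and a uniform ordered pair of distinct perfect matchings on it, swapping the first for the second when the first is present and the second absent) is, from every realization, within total variation 1/4 of uniform on the realizations after some t ≤ 2n^8 steps; and Var(f) ≤ 24 n² C(n,4) ⟨f, (I − P) f⟩ for the uniform law. -/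
theorem result (n : ℕ) (hn : 4 ≤ n)
    (d : Fin n → ℕ) (hd : (Crest.SwitchChain.realizations d).Nonempty) :
    (∃ t : ℕ, t ≤ 2 * n ^ 8 ∧ ∀ G ∈ Crest.SwitchChain.realizations d,
        Crest.SwitchChain.tvDist (fun G' => (Crest.SwitchChain.kernel n ^ t) G G')
          (Crest.SwitchChain.unifOn (Crest.SwitchChain.realizations d)) ≤ 1 / 4) ∧
      ∀ f : Finset (Crest.SwitchChain.Edge n) → ℝ,
        ((Crest.SwitchChain.realizations d).card : ℝ) *
              (∑ G ∈ Crest.SwitchChain.realizations d, f G ^ 2) -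
            (∑ G ∈ Crest.SwitchChain.realizations d, f G) ^ 2 ≤
          24 * (n : ℝ) ^ 2 * (n.choose 4 : ℝ) * (Crest.SwitchChain.realizations d).card *
            ∑ G ∈ Crest.SwitchChain.realizations d,
              f G * (f G - ∑ G' ∈ Crest.SwitchChain.realizations d,
                Crest.SwitchChain.kernel n G G' * f G') := by
  refine ⟨⟨2 * n ^ 8, le_rfl, fun G hG => ?_⟩, poincare hn d hd⟩
  obtain ⟨i1, -, i3⟩ := pow_facts hn d hG (2 * n ^ 8)
  unfold tvDist
  have e : ∑ a, |(kernel n ^ (2 * n ^ 8)) G a - unifOn (realizations d) a|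
      = ∑ a ∈ realizations d, |(kernel n ^ (2 * n ^ 8)) G a - 1 / ((realizations d).card : ℝ)| := by
    rw [← sum_subset (subset_univ (realizations d))]
    · exact sum_congr rfl fun a ha => by rw [unifOn, if_pos ha]
    · intro a _ ha; rw [i1 a ha, unifOn, if_neg ha]; simp
  rw [e]
  have cs := sq_sum_le_card_mul_sum_sq (s := realizations d)
    (f := fun a => |(kernel n ^ (2 * n ^ 8)) G a - 1 / ((realizations d).card : ℝ)|)
  simp only [sq_abs] at cs
  have hm : (1 : ℝ) ≤ (n : ℝ) ^ 6 := one_le_pow₀ (by exact_mod_cast (by omega : 1 ≤ n))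
  have h1 : (1 - 1 / (n : ℝ) ^ 6) ^ (n ^ 6) ≤ 1 / 2 := by
    have a : 1 - 1 / (n : ℝ) ^ 6 ≤ Real.exp (-(1 / (n : ℝ) ^ 6)) := by
      linarith [Real.add_one_le_exp (-(1 / (n : ℝ) ^ 6))]
    have b : 0 ≤ 1 - 1 / (n : ℝ) ^ 6 := by
      have : 1 / (n : ℝ) ^ 6 ≤ 1 := by rw [div_le_one (by linarith)]; exact hm
      linarith
    refine (pow_le_pow_left₀ b a _).trans ?_
    rw [← Real.exp_nat_mul, show ((n ^ 6 : ℕ) : ℝ) * -(1 / (n : ℝ) ^ 6) = -1 by
      push_cast; field_simp, Real.exp_neg, one_div]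
    apply inv_anti₀ (by norm_num)
    linarith [Real.add_one_le_exp 1]
  have h2 : (1 - 1 / (n : ℝ) ^ 6) ^ (2 * n ^ 8) ≤ (1 / 2) ^ (n ^ 2 + n ^ 2) := by
    rw [show 2 * n ^ 8 = n ^ 6 * (n ^ 2 + n ^ 2) by ring, pow_mul]
    refine pow_le_pow_left₀ (pow_nonneg ?_ _) h1 _
    have : 1 / (n : ℝ) ^ 6 ≤ 1 := by rw [div_le_one (by linarith)]; exact hm
    linarith
  have h3 : ((realizations d).card : ℝ) ≤ 2 ^ (n ^ 2) := by exact_mod_cast card_le d
  have h4 : ((1 : ℝ) / 2) ^ (n ^ 2) ≤ (1 / 2) ^ 2 :=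
    pow_le_pow_of_le_one (by norm_num) (by norm_num) (by nlinarith)
  have h5 : ((realizations d).card : ℝ) * ∑ a ∈ realizations d,
      ((kernel n ^ (2 * n ^ 8)) G a - 1 / ((realizations d).card : ℝ)) ^ 2 ≤ (1 / 2) ^ 2 := by
    calc _ ≤ (2 : ℝ) ^ (n ^ 2) * (1 / 2) ^ (n ^ 2 + n ^ 2) :=
          mul_le_mul h3 (i3.trans h2) (sum_nonneg fun _ _ => sq_nonneg _) (by positivity)
      _ = (1 / 2) ^ (n ^ 2) := by rw [pow_add, ← mul_assoc, ← mul_pow]; simp
      _ ≤ _ := h4
  have h6 := abs_le_of_sq_le_sq' (cs.trans h5) (by norm_num)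
  linarith [h6.2]

end Crest.Agent.S0453
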