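import Crest.Statements.S0479
import Crest.Agent.R309.Top

set_option autoImplicit false
open Crest.Enc Crest.FinProb Crest.Randomized Crest.Tables
open Crest Crest.LogicCS

namespace Crest.Agent.S0479

/-- A randomized polynomial-time approximation scheme counts contingency tables with cell bounds: one algorithm and one polynomial r such that, on the codes of margins, of cell bounds, of rationals ε, δ in (0,1) and a unary block of length ⌈1/ε⌉, run with r(input length) fair random bits, every tape yields the code of a nonnegative rational, which with probability at least 1 − δ is within a factor 1 ± ε of the number of bounded tables, and which is 0 on every tape when there is no such table. -/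
theorem result :
    ∃ (A : List Bool × List Bool → List Bool) (r : Polynomial ℕ), RandPolyTime A ∧
      ∀ (m n : ℕ) (rs : Fin m → ℕ) (cs : Fin n → ℕ) (b : Fin m → Fin n → ℕ) (ε δ : ℚ),
        0 < ε → ε < 1 → 0 < δ → δ < 1 →
        (∀ ω : Fin (r.eval (marginsCode rs cs ++ boundsCode b ++ ratCode ε ++ ratCode δ ++ List.replicate ⌈ε⁻¹⌉₊ true).length) → Bool,
          ∃ z : ℚ, 0 ≤ z ∧ A (marginsCode rs cs ++ boundsCode b ++ ratCode ε ++ ratCode δ ++ List.replicate ⌈ε⁻¹⌉₊ true, List.ofFn ω) = ratCode z) ∧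
        (numBoundedTables rs cs b = 0 →
          ∀ ω : Fin (r.eval (marginsCode rs cs ++ boundsCode b ++ ratCode ε ++ ratCode δ ++
              List.replicate ⌈ε⁻¹⌉₊ true).length) → Bool,
            A (marginsCode rs cs ++ boundsCode b ++ ratCode ε ++ ratCode δ ++
              List.replicate ⌈ε⁻¹⌉₊ true, List.ofFn ω) = ratCode 0) ∧
        1 - (δ : ℝ) ≤ uniformProb {ω : Fin (r.eval (marginsCode rs cs ++ boundsCode b ++ ratCode ε ++
              ratCode δ ++ List.replicate ⌈ε⁻¹⌉₊ true).length) → Bool |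
            ∃ z : ℚ, A (marginsCode rs cs ++ boundsCode b ++ ratCode ε ++ ratCode δ ++
                List.replicate ⌈ε⁻¹⌉₊ true, List.ofFn ω) = ratCode z ∧
              (1 - ε) * numBoundedTables rs cs b ≤ z ∧ z ≤ (1 + ε) * numBoundedTables rs cs b} := by
  open Crest.Agent.R309 Crest.Agent.PTime in
  obtain ⟨r, hr⟩ := exists_poly (fun n => clen (n ^ 2 + 100)) (by fun_prop)
  refine ⟨fun p => ratCode (R309.cntA (R309.inst1 p.1) (R309.sOf p.1) p.2), r, R309.randPT (by fun_prop), ?_⟩
  intro m n rs cs b ε δ hε hε1 hδ hδ1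
  generalize hw : marginsCode rs cs ++ boundsCode b ++ ratCode ε ++ ratCode δ ++
    List.replicate ⌈ε⁻¹⌉₊ true = w
  have hw' : w = marginsCode rs cs ++ (boundsCode b ++ (ratCode ε ++ (ratCode δ ++
    List.replicate ⌈ε⁻¹⌉₊ true))) := by rw [← hw]; simp only [List.append_assoc]
  have hI : R309.inst1 w = R309.tabI rs cs b := by rw [hw']; exact R309.inst1_code _ _ _ _
  have hS : R309.Sized (R309.tabI rs cs b) (R309.sOf w) := by rw [hw']; exact R309.sized1 _ _ _ _
  have hW := R309.tabI_wf rs cs b
  have h100 := R309.hundred_le_sOf w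
  have hle := R309.le_sOf w
  simp only [hI]
  refine ⟨fun ω => ⟨_, R309.cntA_nonneg hW hS h100 _, rfl⟩, fun h0 ω => ?_, ?_⟩
  · rw [R309.cntA_zero (by rw [R309.card_flows]; exact h0)]
  · have hlen : R309.clen (R309.sOf w) ≤ r.eval w.length := hr w.length
    have hsp := R309.cntA_spec hW hS h100 hlen
    rw [R309.card_flows] at hsp
    have hδ' : (1 : ℝ) / 2 ^ R309.sOf w ≤ δ :=
      R309.inv_pow_le_rat hδ (le_trans (by rw [hw']; simp only [List.length_append]; omega) hle)
    have hε' : 1 / (R309.sOf w : ℚ) ≤ ε := by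
      have h1 : ⌈ε⁻¹⌉₊ ≤ R309.sOf w :=
        le_trans (by rw [hw']; simp only [List.length_append, List.length_replicate]; omega) hle
      have h2 : ε⁻¹ ≤ (R309.sOf w : ℚ) := (Nat.le_ceil _).trans (by exact_mod_cast h1)
      rw [one_div]
      exact inv_le_of_inv_le₀ hε h2
    rw [R309.uniformProb_eq_Ex (r.eval w.length) (fun l => ∃ z : ℚ,
      ratCode (R309.cntA (R309.tabI rs cs b) (R309.sOf w) l) = ratCode z ∧
        (1 - ε) * numBoundedTables rs cs b ≤ z ∧ z ≤ (1 + ε) * numBoundedTables rs cs b)]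
    simp only [R309.ind_not] at hsp
    rw [R309.Ex_sub, R309.Ex_const] at hsp
    refine le_trans (by linarith) (R309.Ex_mono (f := fun t => R309.ind
      ((1 - 1 / (R309.sOf w : ℚ)) * (numBoundedTables rs cs b) ≤ R309.cntA (R309.tabI rs cs b) (R309.sOf w) t ∧
        R309.cntA (R309.tabI rs cs b) (R309.sOf w) t ≤ (1 + 1 / (R309.sOf w : ℚ)) * (numBoundedTables rs cs b)))
      fun l _ => ?_)
    by_cases h : (1 - 1 / (R309.sOf w : ℚ)) * (numBoundedTables rs cs b) ≤
        R309.cntA (R309.tabI rs cs b) (R309.sOf w) l ∧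
        R309.cntA (R309.tabI rs cs b) (R309.sOf w) l ≤ (1 + 1 / (R309.sOf w : ℚ)) * (numBoundedTables rs cs b)
    · have hN : (0 : ℚ) ≤ numBoundedTables rs cs b := Nat.cast_nonneg _
      rw [R309.ind_true h, R309.ind_true ⟨_, rfl,
        le_trans (mul_le_mul_of_nonneg_right (sub_le_sub_left hε' 1) hN) h.1,
        le_trans h.2 (mul_le_mul_of_nonneg_right (add_le_add_right hε' 1) hN)⟩]
    · rw [R309.ind_false h]; exact R309.ind_nonneg _

end Crest.Agent.S0479
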