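import Crest.Statements.S0480
import Crest.Agent.R309.Top

set_option autoImplicit false
open Crest.Enc Crest.FinProb Crest.Randomized Crest.Tables
open Crest Crest.LogicCS

namespace Crest.Agent.S0480

/-- An almost-uniform sampler for contingency tables in randomized polynomial time: one algorithm and one polynomial r such that, on the code of margins with equal totals followed by a unary block of length k ≥ 1, run with r(input length) fair random bits, every tape yields the code of a table with those margins, and half the sum over matrices of the absolute difference between the probability of being output and the uniform weight on such tables is at most 2^(−k). -/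
theorem result :
    ∃ (A : List Bool × List Bool → List Bool) (r : Polynomial ℕ), RandPolyTime A ∧
      ∀ (m n : ℕ) (rs : Fin m → ℕ) (cs : Fin n → ℕ) (k : ℕ), 1 ≤ k → ∑ i, rs i = ∑ j, cs j →
        (∀ ω : Fin (r.eval (marginsCode rs cs ++ List.replicate k true).length) → Bool,
          ∃ X : Fin m → Fin n → ℕ, IsTable rs cs X ∧
            A (marginsCode rs cs ++ List.replicate k true, List.ofFn ω) = matrixCode X) ∧
        (∑ X : (i : Fin m) → (j : Fin n) → Fin (∑ i, rs i + 1),
            |uniformProb {ω : Fin (r.eval (marginsCode rs cs ++ List.replicate k true).length) → Bool |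
                A (marginsCode rs cs ++ List.replicate k true, List.ofFn ω) =
                  matrixCode (fun i j => (X i j : ℕ))} -
              uniformTableWeight rs cs (fun i j => (X i j : ℕ))|) / 2
          ≤ (2 : ℝ)⁻¹ ^ k := by
  open Crest.Agent.R309 Crest.Agent.PTime in
  obtain ⟨r, hr⟩ := exists_poly (fun n => 5 * (n ^ 2 + 100) * tlen (n ^ 2 + 100)) (by fun_prop)
  refine ⟨fun p => R309.outCode (R309.pm p.1) (R309.pn p.1) (R309.smpA (R309.inst2 p.1) (R309.sOf p.1) p.2), r,
    R309.randPT (by fun_prop), ?_⟩
  intro m n rs cs k hk hsum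
  have hI := R309.inst2_code rs cs (List.replicate k true)
  have hS := R309.sized2 rs cs (List.replicate k true)
  have hm := R309.pm_code rs cs (List.replicate k true)
  have hn := R309.pn_code rs cs (List.replicate k true)
  have hk' : k ≤ (marginsCode rs cs ++ List.replicate k true).length := by simp
  generalize marginsCode rs cs ++ List.replicate k true = w at hI hS hm hn hk' ⊢
  have hW := R309.tabI_wf rs cs (fun _ _ => ∑ i, rs i)
  have h100 := R309.hundred_le_sOf w
  have hle := R309.le_sOf w
  obtain ⟨X0, hX0⟩ := R309.exists_table rs cs hsum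
  have hf : R309.IsFlow (R309.tabI rs cs (fun _ _ => ∑ i, rs i)) (R309.flatZ X0) :=
    (R309.isFlow_tabI _ _ _ _).2 ⟨X0, hX0, R309.table_le hX0, rfl⟩
  simp only [hI, hm, hn]
  have hout : ∀ t, ∃ X, IsTable rs cs X ∧
      R309.smpA (R309.tabI rs cs (fun _ _ => ∑ i, rs i)) (R309.sOf w) t = R309.flatZ X := fun t => by
    obtain ⟨X, h1, _, h2⟩ := (R309.isFlow_tabI _ _ _ _).1 (R309.smpA_flow hW hS h100 hf t)
    exact ⟨X, h1, h2⟩
  refine ⟨fun ω => ?_, ?_⟩
  · obtain ⟨X, h1, h2⟩ := hout (List.ofFn ω)
    exact ⟨X, h1, by rw [h2, R309.outCode_flatZ]⟩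
  · have hlen : 5 * R309.sOf w * R309.tlen (R309.sOf w) ≤ r.eval w.length := hr w.length
    have htv := R309.smpA_tv hW hS h100 hf hlen
    exact R309.tv_tables rs cs _ hout _ htv (hk'.trans hle)

end Crest.Agent.S0480
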