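import Crest.Statements.S0499
import Crest.Agent.R322.Learner

set_option autoImplicit false
open Crest Crest.LogicCS

namespace Crest.Agent.S0499

/-- For each A > 0 there are c > 0 and d₀ such that for all d ≥ d₀, naturals M ≤ A·d² and T, and 0 < ε ≤ 1/10: if a randomized one-pass learner with at most 2^M states (own seed independent of the data; transitions read one pair (x_t, ⟪x_t, s⟫) at a time; optional early stopping; unit-vector output from stopping index, seed and final state), fed T independent standard Gaussian samples in ℝ^d with s uniform on the sphere, is within angle ε of s with probability ≥ 2/3, then T ≥ c·d·log(1/ε). -/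
theorem result :
    ∀ A : ℝ, 0 < A → ∃ c : ℝ, 0 < c ∧ ∃ d₀ : ℕ, ∀ d ≥ d₀, ∀ (M T : ℕ),
      (M : ℝ) ≤ A * (d : ℝ) ^ 2 → ∀ ε : ℝ, 0 < ε → ε ≤ 1 / 10 →
        ∀ L : Crest.StreamLearn.RLearner d T M,
          2 / 3 ≤ L.successProb ε → c * d * Real.log (1 / ε) ≤ T := by
  intro A hA
  refine ⟨1 / (4 * (80 * A + 46)), by positivity, 8, fun d hd M T hM ε hε hε1 L h => ?_⟩
  have h1 := Crest.Agent.R322.T_large L hd hε1 h
  have h2 := Crest.Agent.R322.main_ineq L hd hε h
  set k := d / 4 with hk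
  set N := 2 * d + (T / k + 1) * (M / k + 8 * k + 6 + d) with hN
  set n := d - 1 - (2 * k + 1) with hn
  have hk0 : 0 < k := by omega
  have hkR : (0 : ℝ) < k := by exact_mod_cast hk0
  have hdR : (8 : ℝ) ≤ d := by exact_mod_cast hd
  have hd0 : (0 : ℝ) < d := by linarith
  have hdk : (d : ℝ) ≤ 8 * k := by exact_mod_cast (by omega : d ≤ 8 * k)
  have hkd : 4 * (k : ℝ) ≤ d := by exact_mod_cast (by omega : 4 * k ≤ d)
  have hnd : (d : ℝ) ≤ 4 * n := by exact_mod_cast (by omega : d ≤ 4 * n)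
  have hT : (d : ℝ) ≤ 2 * T := by exact_mod_cast h1.le
  have hT0 : (0 : ℝ) ≤ T := Nat.cast_nonneg T
  have hlog : 0 ≤ Real.log (1 / ε) := Real.log_nonneg (by rw [le_div_iff₀ hε]; linarith)
  have h3 : (n : ℝ) * Real.log (1 / ε) ≤ N + 1 := by
    have e1 : (1 / ε) ^ n ≤ 2 ^ (N + 1) := by
      rw [div_pow, one_pow, div_le_iff₀ (by positivity), pow_succ]
      nlinarith
    have e2 := Real.log_le_log (by positivity) e1
    rw [Real.log_pow, Real.log_pow] at e2
    have e3 : Real.log 2 ≤ 1 := by linarith [Real.log_two_lt_d9]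
    refine e2.trans ?_
    push_cast
    have : (0 : ℝ) ≤ N + 1 := by positivity
    nlinarith
  have h4 : ((M / k : ℕ) : ℝ) ≤ 8 * A * d := by
    refine Nat.cast_div_le.trans ?_
    rw [div_le_iff₀ hkR]
    have : A * d * d ≤ A * d * (8 * k) := by gcongr
    nlinarith
  have h5 : ((T / k : ℕ) : ℝ) * d ≤ 8 * T := by
    have : ((T / k : ℕ) : ℝ) ≤ T / k := Nat.cast_div_le
    rw [le_div_iff₀ hkR] at this
    have h0 : (0 : ℝ) ≤ ((T / k : ℕ) : ℝ) := Nat.cast_nonneg _
    nlinarith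
  have h6 : (N : ℝ) + 1 ≤ (80 * A + 46) * T := by
    rw [hN]
    push_cast
    have e1 : ((M / k : ℕ) : ℝ) + 8 * k + 6 + d ≤ (8 * A + 4) * d := by nlinarith
    have h0 : (0 : ℝ) ≤ ((T / k : ℕ) : ℝ) := Nat.cast_nonneg _
    have e2 : (((T / k : ℕ) : ℝ) + 1) * (((M / k : ℕ) : ℝ) + 8 * k + 6 + d) ≤
        (((T / k : ℕ) : ℝ) + 1) * ((8 * A + 4) * d) := by gcongr
    have e3 : (((T / k : ℕ) : ℝ) + 1) * d ≤ 10 * T := by nlinarith
    have e4 : (8 * A + 4) * ((((T / k : ℕ) : ℝ) + 1) * d) ≤ (8 * A + 4) * (10 * T) := by gcongr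
    nlinarith
  have h7 : (d : ℝ) * Real.log (1 / ε) ≤ 4 * ((80 * A + 46) * T) := by nlinarith
  rw [mul_assoc, one_div_mul_eq_div, div_le_iff₀ (by positivity)]
  nlinarith

end Crest.Agent.S0499
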