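import Crest.Statements.S0515
import Crest.Agent.R332.Final

set_option autoImplicit false
open MeasureTheory
open scoped ComplexOrder
open Crest.MathPhysics.LiebThirring
open Crest Crest.MathPhysics

namespace Crest.Agent.S0515

/-- Sharp one-dimensional Lieb–Thirring inequality for matrix potentials, variational form: for 1/2 < γ < 3/2, m ≥ 1 and a measurable Hermitian positive semidefinite W : ℝ → ℂ^{m×m} with ∫ tr(W^{γ+1/2}) < ∞, every finite L²-orthonormal family of smooth compactly supported φ_k : ℝ → ℂ^m has energy matrix (∫ ⟨φ_k', φ_l'⟩ - ⟨φ_k, Wφ_l⟩)_{kl} whose negative part satisfies tr((A)_-^γ) ≤ C_γ ∫ tr(W^{γ+1/2}), with C_γ = ((γ-1/2)/(γ+1/2))^{γ-1/2} Γ(γ+1)/(√π Γ(γ+3/2)). -/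
theorem result
    (γ : ℝ) (hγ : 1 / 2 < γ) (hγ' : γ < 3 / 2) (m : ℕ) (hm : 1 ≤ m)
    (W : ℝ → Matrix (Fin m) (Fin m) ℂ) (hW : ∀ i j, Measurable fun x => W x i j)
    (hWp : ∀ x, (W x).PosSemidef)
    (hWi : Integrable fun x => tracePow (W x) (γ + 1 / 2))
    (n : ℕ) (φ : Fin n → ℝ → Vec m) (hφ : IsTrialFamily φ) :
    negMoment (energyMatrix W φ) γ ≤ sharpConst γ * ∫ x, tracePow (W x) (γ + 1 / 2) := by
  obtain ⟨β, rfl⟩ : ∃ β : ℝ, γ = β + 1 / 2 := ⟨γ - 1 / 2, by ring⟩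
  have h0 : 0 < β := by linarith
  have h1 : β < 1 := by linarith
  have e : β + 1 / 2 + 1 / 2 = 1 + β := by ring
  rw [e] at hWi ⊢
  rw [R332.sharpConst_eq h0]
  exact R332.lt_ineq h0 h1 ⟨hW, hWp, hWi⟩ hφ

end Crest.Agent.S0515
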