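import Crest.Statements.S0535
import Crest.Agent.R341.Final

set_option autoImplicit false
open Crest.Quantum Crest.MathPhysics.AmpDamp
open Crest Crest.MathPhysics

namespace Crest.Agent.S0535

/-- Tensor the generalized amplitude-damping qubit channel (parameters in `[0, 1]`) with any channel `Ψ` between nonzero finite-dimensional systems (linear, completely positive, trace preserving): Holevo capacity and minimum output entropy (nats) are additive: each ensemble for the product map is matched, up to any `ε > 0`, by ensembles for the two factors whose Holevo informations add up to at least as much, and conversely; likewise, reversed, for output entropies of single states. -/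
theorem result (γ ν : ℝ)
    (hγ : γ ∈ Set.Icc (0 : ℝ) 1) (hν : ν ∈ Set.Icc (0 : ℝ) 1)
    (d e : Type) [Fintype d] [Fintype e] [DecidableEq d] [DecidableEq e] [Nonempty d] [Nonempty e]
    (Ψ : Matrix d d ℂ → Matrix e e ℂ) (hΨ : IsChannel Ψ) :
    (∀ (m : ℕ) (q : Fin m → ℝ) (ρ : Fin m → Matrix (Bool × d) (Bool × d) ℂ), IsEnsemble q ρ →
      ∀ ε > (0 : ℝ), ∃ (m₁ : ℕ) (q₁ : Fin m₁ → ℝ) (ρ₁ : Fin m₁ → Matrix Bool Bool ℂ)
        (m₂ : ℕ) (q₂ : Fin m₂ → ℝ) (ρ₂ : Fin m₂ → Matrix d d ℂ),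
        IsEnsemble q₁ ρ₁ ∧ IsEnsemble q₂ ρ₂ ∧
          holevoInfo (qubitTensor (gadMap γ ν) Ψ) q ρ ≤
            holevoInfo (gadMap γ ν) q₁ ρ₁ + holevoInfo Ψ q₂ ρ₂ + ε) ∧
    (∀ (m₁ : ℕ) (q₁ : Fin m₁ → ℝ) (ρ₁ : Fin m₁ → Matrix Bool Bool ℂ)
      (m₂ : ℕ) (q₂ : Fin m₂ → ℝ) (ρ₂ : Fin m₂ → Matrix d d ℂ), IsEnsemble q₁ ρ₁ → IsEnsemble q₂ ρ₂ →
      ∃ (m : ℕ) (q : Fin m → ℝ) (ρ : Fin m → Matrix (Bool × d) (Bool × d) ℂ), IsEnsemble q ρ ∧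
        holevoInfo (gadMap γ ν) q₁ ρ₁ + holevoInfo Ψ q₂ ρ₂ ≤
          holevoInfo (qubitTensor (gadMap γ ν) Ψ) q ρ) ∧
    (∀ ρ : Matrix (Bool × d) (Bool × d) ℂ, IsDensity ρ → ∀ ε > (0 : ℝ),
      ∃ (ρ₁ : Matrix Bool Bool ℂ) (ρ₂ : Matrix d d ℂ), IsDensity ρ₁ ∧ IsDensity ρ₂ ∧
        vnEntropy (gadMap γ ν ρ₁) + vnEntropy (Ψ ρ₂) ≤ vnEntropy (qubitTensor (gadMap γ ν) Ψ ρ) + ε) ∧
    (∀ (ρ₁ : Matrix Bool Bool ℂ) (ρ₂ : Matrix d d ℂ), IsDensity ρ₁ → IsDensity ρ₂ →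
      ∃ ρ : Matrix (Bool × d) (Bool × d) ℂ, IsDensity ρ ∧
        vnEntropy (qubitTensor (gadMap γ ν) Ψ ρ) ≤ vnEntropy (gadMap γ ν ρ₁) + vnEntropy (Ψ ρ₂)) := by
  have h := R341.good_of_channel hΨ
  refine ⟨fun m q ρ he ε hε => ?_, fun m₁ q₁ ρ₁ m₂ q₂ ρ₂ h₁ h₂ => ?_, fun ρ hρ ε hε => ?_,
    fun ρ₁ ρ₂ h₁ h₂ => ?_⟩
  · obtain ⟨m₂, q₂, ρ₂, he₂, hle⟩ := R341.upper hγ hν h he hε
    obtain ⟨m₁, q₁, ρ₁, he₁, h₁⟩ := R341.exists_qubit_ens hγ hν q _ he.1 he.2.1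
      fun a => R341.pop_mem (he.2.2 a)
    exact ⟨m₁, q₁, ρ₁, m₂, q₂, ρ₂, he₁, he₂, by rw [h₁]; exact hle⟩
  · obtain ⟨m, q, ρ, he, hq⟩ := R341.prod_ens hγ hν h h₁ h₂
    exact ⟨m, q, ρ, he, hq.ge⟩
  · let T : Set ℝ := {s | ∃ ω, IsDensity ω ∧ vnEntropy (Ψ ω) = s}
    have hne : T.Nonempty := ⟨_, _, R341.density_flat, rfl⟩
    have hbd : BddBelow T := ⟨0, by rintro _ ⟨ω, hω, rfl⟩; exact VN.vn_nonneg (h.density hω)⟩
    obtain ⟨_, ⟨ω, hω, rfl⟩, hlt⟩ := exists_lt_of_csInf_lt hne (lt_add_of_pos_right _ hε)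
    let Λ : Matrix d d ℂ →ₗ[ℝ] ℝ :=
      { toFun := fun X => sInf T * X.trace.re
        map_add' := fun A B => by rw [Matrix.trace_add, Complex.add_re, mul_add]
        map_smul' := fun c A => by rw [Matrix.trace_smul]; simp; ring }
    have key := R341.main hγ hν h Λ (fun ω' hω' => by
      change sInf T * ω'.trace.re ≤ _
      rw [hω'.2, Complex.one_re, mul_one]
      exact csInf_le hbd ⟨ω', hω', rfl⟩) hρ
    change _ + sInf T * _ ≤ _ at key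
    rw [Matrix.trace_add, ← R341.trace_blocks, hρ.2, Complex.one_re, mul_one] at key
    refine ⟨R341.pureSt _ true, ω, R341.pureSt_density (R341.pop_mem hρ) true, hω, ?_⟩
    rw [R341.vn_pure hγ hν (R341.pop_mem hρ)]
    linarith
  · refine ⟨_, VN.density_kron h₁ h₂, ?_⟩
    rw [R341.qt_kron γ ν h, VN.vn_kron ((R341.good_gad hγ hν).density h₁) (h.density h₂)]

end Crest.Agent.S0535
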